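import Mathlib

namespace Vale.Agent.Lib.P183

/-- An operation of some finite arity `n` on a set `A`. -/
abbrev Operation (A : Type) : Type := Σ n : Nat, (Fin n → A) → A

/-- The equivalence relation `r` on `A` is compatible with every operation in the list `ops`. -/
def IsCongruence {A : Type} (ops : List (Operation A)) (r : Setoid A) : Prop :=
  ∀ o ∈ ops, ∀ x y : Fin o.1 → A, (∀ i, r (x i) (y i)) → r (o.2 x) (o.2 y)

/-- The partial order `L` is isomorphic to the congruence lattice (all congruences, ordered by
inclusion) of a finite nonempty algebra `(A, ops)`. -/
def Representable (L : Type) [PartialOrder L] : Prop :=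
  ∃ (A : Type) (_ : Finite A) (_ : Nonempty A) (ops : List (Operation A)),
    Nonempty (L ≃o {r : Setoid A // IsCongruence ops r})

/-- The elements of the seven-element lattice obtained from the product `2 × 3`, with elements
`bot, a, b, ab, bb, top`, by adding a new element `c` between bottom and top. -/
inductive Par23 : Type
  | bot | a | b | ab | bb | c | top

/-- The order: `bot < a, b, c`, `a < ab`, `b < ab, bb`, `ab, bb, c < top`. -/
def Par23.le : Par23 → Par23 → Prop
  | .bot, _ => True
  | _, .top => True
  | .a, .a => True
  | .a, .ab => True
  | .b, .b => True
  | .b, .ab => True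
  | .b, .bb => True
  | .ab, .ab => True
  | .bb, .bb => True
  | .c, .c => True
  | _, _ => False

instance : PartialOrder Par23 where
  le := Par23.le
  le_refl x := by cases x <;> trivial
  le_trans x y z hxy hyz := by
    cases x <;> cases y <;> cases z <;> first | trivial | exact hxy | exact hyz
  le_antisymm x y hxy hyx := by
    cases x <;> cases y <;> first | rfl | exact hxy.elim | exact hyx.elim

end Vale.Agent.Lib.P183
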