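import Vale.Agent.Lib.P183.Classify
import Vale.Agent.Lib.P183.Defs

namespace Vale.Agent.Lib.P183

open Equiv

/-- The algebra on `Om`: the three unary operations given by `x ↦ x + 1`, `x ↦ 2 x`, `x ↦ 1 / x`. -/
def opsOm : List (Operation Om) :=
  [⟨1, fun x => tP 1 • x 0⟩, ⟨1, fun x => mP 2 • x 0⟩, ⟨1, fun x => wP • x 0⟩]

theorem pres_of_cong {θ : Setoid Om} (h : IsCongruence opsOm θ) :
    tP 1 ∈ presT θ ∧ mP 2 ∈ presT θ ∧ wP ∈ presT θ := by
  refine ⟨fun x y hxy => ?_, fun x y hxy => ?_, fun x y hxy => ?_⟩
  · exact h ⟨1, fun x => tP 1 • x 0⟩ (by simp [opsOm]) (fun _ => x) (fun _ => y) (fun _ => hxy)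
  · exact h ⟨1, fun x => mP 2 • x 0⟩ (by simp [opsOm]) (fun _ => x) (fun _ => y) (fun _ => hxy)
  · exact h ⟨1, fun x => wP • x 0⟩ (by simp [opsOm]) (fun _ => x) (fun _ => y) (fun _ => hxy)

theorem cong_relS {B : Set Om} (hB : Closed B) : IsCongruence opsOm (relS B hB) := by
  intro o ho x y hxy
  simp only [opsOm, List.mem_cons, List.not_mem_nil, or_false] at ho
  rcases ho with rfl | rfl | rfl
  · exact rel_mob Mob_t1 (hxy 0)
  · exact rel_mob Mob_m2 (hxy 0)
  · exact rel_mob Mob_w (hxy 0)

/-- The block attached to an element of the lattice. -/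
def blkSet : Par23 → Set Om
  | .bot => setL [129]
  | .a => setL blk7
  | .b => setL blk3
  | .ab => setL blk21
  | .bb => setL blk84
  | .c => setL blk10
  | .top => Set.univ

theorem blkSet_closed (i : Par23) : Closed (blkSet i) := by
  cases i
  · exact closed_b0
  · exact closed_b7
  · exact closed_b3
  · exact closed_b21
  · exact closed_b84
  · exact closed_b10
  · exact closed_univ

theorem blkSet_mono {i j : Par23} (h : i ≤ j) : blkSet i ⊆ blkSet j := by
  cases i <;> cases j <;>
    first
    | exact Set.Subset.rfl
    | exact Set.subset_univ _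
    | exact absurd h (fun h => h)
    | exact setL_mono (by decide +kernel)

/-- A witness for every element of the lattice. -/
def wit : Par23 → Nat
  | .bot => 129
  | .a => 27344
  | .b => 60670
  | .ab => 57636
  | .bb => 79
  | .c => 123
  | .top => 194

theorem wit_mem (i : Par23) : omC (wit i) ∈ blkSet i := by
  cases i
  · exact mem_setL (by decide +kernel)
  · exact mem_setL (by decide +kernel)
  · exact mem_setL (by decide +kernel)
  · exact mem_setL (by decide +kernel)
  · exact mem_setL (by decide +kernel)
  · exact mem_setL (by decide +kernel)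
  · exact trivial

theorem not_mem_setL {k : Nat} {L : List Nat} (hv : L.all validC = true) (hk : validC k = true)
    (h : memN k L = false) : omC k ∉ setL L := by
  rintro ⟨l, hl, e⟩
  have e2 : k = l := omC_inj hk (List.all_eq_true.mp hv l hl) e
  subst e2
  have : memN k L = true := by
    clear h hv e
    induction L with
    | nil => simp at hl
    | cons x L ih =>
      simp only [memN, Bool.or_eq_true]
      rcases List.mem_cons.mp hl with rfl | h2
      · left; simp
      · right; exact ih h2
  rw [h] at this
  exact absurd this (by decide)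

theorem wit_le {i j : Par23} (h : omC (wit i) ∈ blkSet j) : i ≤ j := by
  cases i <;> cases j <;>
    first
    | trivial
    | exact absurd h (not_mem_setL (by decide +kernel) (by decide +kernel) (by decide +kernel))

/-- The map from the lattice to the congruences. -/
def toCon (i : Par23) : {r : Setoid Om // IsCongruence opsOm r} :=
  ⟨relS (blkSet i) (blkSet_closed i), cong_relS _⟩

theorem toCon_le (i j : Par23) : toCon i ≤ toCon j ↔ i ≤ j := by
  constructor
  · intro h
    have h1 : rel (blkSet i) t0 (omC (wit i)) := (rel_t0 (blkSet_closed i)).mpr (wit_mem i)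
    have h2 : rel (blkSet j) t0 (omC (wit i)) := h h1
    exact wit_le ((rel_t0 (blkSet_closed j)).mp h2)
  · intro h x y hxy
    exact rel_mono (blkSet_mono h) hxy

theorem toCon_surj : Function.Surjective toCon := by
  rintro ⟨θ, hθ⟩
  obtain ⟨h1, h2, h3⟩ := pres_of_cong hθ
  have hc := closed_classOf h1 h2 h3
  have key : ∀ i, classOf θ = blkSet i → toCon i = ⟨θ, hθ⟩ := by
    intro i hi
    apply Subtype.ext
    apply Setoid.ext
    intro x y
    have := rel_classOf h1 h2 h3 x y
    rw [hi] at this
    exact this.symm
  rcases classify hc with h | h | h | h | h | h | h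
  · exact ⟨_, key .top h⟩
  · exact ⟨_, key .bb h⟩
  · exact ⟨_, key .c h⟩
  · exact ⟨_, key .ab h⟩
  · exact ⟨_, key .a h⟩
  · exact ⟨_, key .b h⟩
  · exact ⟨_, key .bot h⟩

/-- The last seven-element lattice is representable. -/
theorem par23_representable : Representable Par23 := by
  refine ⟨Om, inferInstance, ⟨t0⟩, opsOm, ⟨?_⟩⟩
  exact RelIso.ofSurjective (OrderEmbedding.ofMapLEIff toCon toCon_le) toCon_surj

end Vale.Agent.Lib.P183
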