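import Vale.Agent.Lib.P183.Rep.L1_0
import Vale.Agent.Lib.P183.Rep.L2_0
import Vale.Agent.Lib.P183.Rep.L4_0
import Vale.Agent.Lib.P183.Rep.L5_0
import Vale.Agent.Lib.P183.Rep.L5_1
import Vale.Agent.Lib.P183.Rep.L6_0
import Vale.Agent.Lib.P183.Rep.L6_1
import Vale.Agent.Lib.P183.Rep.L6_2
import Vale.Agent.Lib.P183.Rep.L6_4
import Vale.Agent.Lib.P183.Rep.L6_5
import Vale.Agent.Lib.P183.Rep.L6_6
import Vale.Agent.Lib.P183.Rep.L6_7
import Vale.Agent.Lib.P183.Rep.L7_0
import Vale.Agent.Lib.P183.Rep.L7_1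
import Vale.Agent.Lib.P183.Rep.L7_2
import Vale.Agent.Lib.P183.Rep.L7_3
import Vale.Agent.Lib.P183.Rep.L7_5
import Vale.Agent.Lib.P183.Rep.L7_6
import Vale.Agent.Lib.P183.Rep.L7_7
import Vale.Agent.Lib.P183.Rep.L7_8
import Vale.Agent.Lib.P183.Rep.L7_9
import Vale.Agent.Lib.P183.Rep.L7_10
import Vale.Agent.Lib.P183.Rep.L7_11
import Vale.Agent.Lib.P183.Rep.L7_13
import Vale.Agent.Lib.P183.Rep.L7_14
import Vale.Agent.Lib.P183.Rep.L7_17
import Vale.Agent.Lib.P183.Rep.L7_18
import Vale.Agent.Lib.P183.Rep.L7_19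
import Vale.Agent.Lib.P183.Rep.L7_20
import Vale.Agent.Lib.P183.Rep.L7_21
import Vale.Agent.Lib.P183.Rep.L7_22
import Vale.Agent.Lib.P183.Rep.L7_24
import Vale.Agent.Lib.P183.Rep.L7_25
import Vale.Agent.Lib.P183.Rep.L7_26
import Vale.Agent.Lib.P183.Rep.L7_28
import Vale.Agent.Lib.P183.Rep.L7_29
import Vale.Agent.Lib.P183.Rep.L7_31
import Vale.Agent.Lib.P183.Rep.L7_32
import Vale.Agent.Lib.P183.Rep.L7_33

namespace Vale.Agent.Lib.P183

/-- All the lattices of the list are representable. -/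
theorem hall_all : ∀ i, i < latList.length → RepMat (szOf i) (matOf (codeOf i)) := by
  intro i hi
  have hlen : latList.length = 39 := by decide +kernel
  rw [hlen] at hi
  match i, hi with
  | 0, _ => exact repL1_0
  | 1, _ => exact repL2_0
  | 2, _ => exact repL4_0
  | 3, _ => exact repL5_0
  | 4, _ => exact repL5_1
  | 5, _ => exact repL6_0
  | 6, _ => exact repL6_1
  | 7, _ => exact repL6_2
  | 8, _ => exact repL6_4
  | 9, _ => exact repL6_5
  | 10, _ => exact repL6_6
  | 11, _ => exact repL6_7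
  | 12, _ => exact repL7_0
  | 13, _ => exact repL7_1
  | 14, _ => exact repL7_2
  | 15, _ => exact repL7_3
  | 16, _ => exact repL7_5
  | 17, _ => exact repL7_6
  | 18, _ => exact repL7_7
  | 19, _ => exact repL7_8
  | 20, _ => exact repL7_9
  | 21, _ => exact repL7_10
  | 22, _ => exact repL7_11
  | 23, _ => exact repL7_13
  | 24, _ => exact repL7_14
  | 25, _ => exact repL7_17
  | 26, _ => exact repL7_18
  | 27, _ => exact repL7_19
  | 28, _ => exact repL7_20
  | 29, _ => exact repL7_21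
  | 30, _ => exact repL7_22
  | 31, _ => exact repL7_24
  | 32, _ => exact repL7_25
  | 33, _ => exact repL7_26
  | 34, _ => exact repL7_28
  | 35, _ => exact repL7_29
  | 36, _ => exact repL7_31
  | 37, _ => exact repL7_32
  | 38, _ => exact repL7_33
  | n + 39, h => exact absurd h (by omega)

/-- Every lattice with at most seven elements is representable. -/
theorem all_le7 (L : Type) [Lattice L] [Fintype L] [Nonempty L] (h : Fintype.card L ≤ 7) :
    Representable L :=
  rep_le7 hall_all _ L rfl h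

end Vale.Agent.Lib.P183
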