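import Vale.Agent.Lib.P183.Gen

namespace Vale.Agent.Lib.P183

open Equiv

/-- Codes of sorted triples. -/
def validC (k : Nat) : Bool :=
  and (Nat.blt (k / 4225) (k / 65 % 65)) (Nat.blt (k / 65 % 65) (k % 65))

theorem validC_spec {k : Nat} (h : validC k = true) :
    k / 4225 < k / 65 % 65 ∧ k / 65 % 65 < k % 65 ∧ k % 65 < 65 := by
  simp only [validC, Bool.and_eq_true] at h
  exact ⟨blt_spec h.1, blt_spec h.2, Nat.mod_lt _ (by norm_num)⟩

theorem validC_code3 {a b c : Nat} (hab : a < b) (hbc : b < c) (hc : c < 65) :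
    validC (code3 a b c) = true := by
  rw [code3_eq]
  have h1 : (a * 4225 + b * 65 + c) / 4225 = a := by omega
  have h2 : (a * 4225 + b * 65 + c) / 65 % 65 = b := by omega
  have h3 : (a * 4225 + b * 65 + c) % 65 = c := by omega
  simp only [validC, Bool.and_eq_true, h1, h2, h3]
  exact ⟨Nat.ble_eq_true_of_le hab, Nat.ble_eq_true_of_le hbc⟩

theorem code3_decode (k : Nat) : code3 (k / 4225) (k / 65 % 65) (k % 65) = k := by
  rw [code3_eq]
  omega

/-- Image of a code under a map of numbers. -/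
def mapC (f : Nat → Nat) (k : Nat) : Nat :=
  sortApply code3 (f (k / 4225)) (f (k / 65 % 65)) (f (k % 65))

theorem smul_omC (P : Perm (Fin 65)) (f : Nat → Nat) (hf : ∀ x : Fin 65, (P x).val = f x.val)
    {k : Nat} (hk : validC k = true) :
    P • omC k = omC (mapC f k) ∧ validC (mapC f k) = true := by
  obtain ⟨h1, h2, h3⟩ := validC_spec hk
  have ha : k / 4225 < 65 := by omega
  have hb : k / 65 % 65 < 65 := by omega
  have hval : ∀ x, x < 65 → (P (Fin.ofNat 65 x)).val = f x := by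
    intro x hx
    rw [hf, fin_ofNat_val hx]
  have hsm : P • omC k = omN (P (Fin.ofNat 65 (k / 4225))).val (P (Fin.ofNat 65 (k / 65 % 65))).val
      (P (Fin.ofNat 65 (k % 65))).val :=
    smul_omN P ha hb h3 (by omega) (by omega) (by omega)
  have hne : ∀ x y, x < 65 → y < 65 → x ≠ y →
      (P (Fin.ofNat 65 x)).val ≠ (P (Fin.ofNat 65 y)).val := by
    intro x y hx hy hxy e2
    exact ofNat_ne hx hy hxy (P.injective (Fin.ext e2))
  obtain ⟨a', b', c', l1, l2, l3, l4, l5⟩ := sortApply_spec code3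
    (P (Fin.ofNat 65 (k / 4225))).isLt (P (Fin.ofNat 65 (k / 65 % 65))).isLt
    (P (Fin.ofNat 65 (k % 65))).isLt
    (hne _ _ ha hb (by omega)) (hne _ _ ha h3 (by omega)) (hne _ _ hb h3 (by omega))
  rw [hval _ ha, hval _ hb, hval _ h3] at l5
  have e : mapC f k = code3 a' b' c' := l5
  rw [e, hsm, l4]
  exact ⟨(omC_code3 (by omega) (by omega) l3).symm, validC_code3 l1 l2 l3⟩

/-- The map attached to a code. -/
def gC (k x : Nat) : Nat := gN (k / 4225) (k / 65 % 65) (k % 65) x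

def gPC (k : Nat) : Perm (Fin 65) := gP (k / 4225) (k / 65 % 65) (k % 65)

theorem gPC_val (k : Nat) (x : Fin 65) : (gPC k x).val = gC k x.val := gP_val _ _ _ _

theorem t1_val (x : Fin 65) : (tP 1 x).val = tN 1 x.val := rfl

theorem gPC_t0 {k : Nat} (hk : validC k = true) : gPC k • t0 = omC k := by
  obtain ⟨h1, h2, h3⟩ := validC_spec hk
  exact gP_t0 h1 h2 h3

/-- Sets given by lists of codes. -/
def setL (L : List Nat) : Set Om := {s | ∃ k ∈ L, s = omC k}

theorem mem_omN {a b c : Nat} (ha : a < 65) (hb : b < 65) (hc : c < 65) (h1 : a ≠ b) (h2 : a ≠ c)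
    (h3 : b ≠ c) {x : Fin 65} : x ∈ (omN a b c).1 ↔ x.val = a ∨ x.val = b ∨ x.val = c := by
  unfold omN
  rw [om_val (ofNat_ne ha hb h1) (ofNat_ne ha hc h2) (ofNat_ne hb hc h3)]
  simp only [Finset.mem_insert, Finset.mem_singleton]
  have key : ∀ y, y < 65 → (x = Fin.ofNat 65 y ↔ x.val = y) := by
    intro y hy
    constructor
    · intro e
      rw [e, fin_ofNat_val hy]
    · intro e
      apply Fin.ext
      rw [e, fin_ofNat_val hy]
  rw [key a ha, key b hb, key c hc]

theorem omN_inj {a b c a' b' c' : Nat} (h1 : a < b) (h2 : b < c) (h3 : c < 65) (h1' : a' < b')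
    (h2' : b' < c') (h3' : c' < 65) (e : omN a b c = omN a' b' c') :
    a = a' ∧ b = b' ∧ c = c' := by
  have m1 := @mem_omN a b c (by omega) (by omega) h3 (by omega) (by omega) (by omega)
  have m2 := @mem_omN a' b' c' (by omega) (by omega) h3' (by omega) (by omega) (by omega)
  rw [e] at m1
  have f : ∀ y, y < 65 → ((y = a ∨ y = b ∨ y = c) ↔ (y = a' ∨ y = b' ∨ y = c')) := by
    intro y hy
    have p1 := @m1 ⟨y, hy⟩
    have p2 := @m2 ⟨y, hy⟩
    simp only at p1 p2
    rw [← p1, p2]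
  have fa := (f a (by omega)).mp (Or.inl rfl)
  have fb := (f b (by omega)).mp (Or.inr (Or.inl rfl))
  have fc := (f c h3).mp (Or.inr (Or.inr rfl))
  omega

theorem omC_inj {k l : Nat} (hk : validC k = true) (hl : validC l = true) (e : omC k = omC l) :
    k = l := by
  obtain ⟨h1, h2, h3⟩ := validC_spec hk
  obtain ⟨h1', h2', h3'⟩ := validC_spec hl
  obtain ⟨e1, e2, e3⟩ := omN_inj h1 h2 h3 h1' h2' h3' e
  rw [← code3_decode k, ← code3_decode l, e1, e2, e3]

theorem omC_eq_omN {a b c : Nat} (hab : a < b) (hbc : b < c) (hc : c < 65) :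
    ∃ k, validC k = true ∧ omN a b c = omC k ∧ a = k / 4225 ∧ b = k / 65 % 65 ∧ c = k % 65 := by
  refine ⟨code3 a b c, validC_code3 hab hbc hc, (omC_code3 (by omega) (by omega) hc).symm, ?_, ?_, ?_⟩ <;>
  · rw [code3_eq]; omega

/-- The Bool check that a list of codes gives a closed set. -/
def closedChk (L : List Nat) : Bool :=
  and (memN 129 L) (L.all fun k =>
    and (validC k) (and (memN (mapC (tN 1) k) L) (and (memN (mapC wN k) L)
      (L.all fun l => memN (mapC (gC k) l) L))))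

theorem omC_129 : omC 129 = t0 := by
  rw [t0_eq]
  rfl

theorem closed_of_chk {L : List Nat} (h : closedChk L = true) : Closed (setL L) := by
  simp only [closedChk, Bool.and_eq_true, List.all_eq_true] at h
  obtain ⟨h0, h1⟩ := h
  refine ⟨⟨129, memN_spec h0, omC_129.symm⟩, ?_, ?_, ?_⟩
  · rintro s ⟨k, hk, rfl⟩
    have := h1 k hk
    obtain ⟨e, _⟩ := smul_omC (tP 1) (tN 1) t1_val this.1
    exact ⟨_, memN_spec this.2.1, e⟩
  · rintro s ⟨k, hk, rfl⟩
    have := h1 k hk
    obtain ⟨e, _⟩ := smul_omC wP wN wP_val this.1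
    exact ⟨_, memN_spec this.2.2.1, e⟩
  · rintro a b c hab hbc hc ⟨k, hk, e⟩ s ⟨l, hl, rfl⟩
    have hk1 := h1 k hk
    have hl1 := h1 l hl
    obtain ⟨e1, e2, e3⟩ := omN_inj (a' := k / 4225) (b' := k / 65 % 65) (c' := k % 65) hab hbc hc
      (validC_spec hk1.1).1 (validC_spec hk1.1).2.1 (validC_spec hk1.1).2.2 e
    subst e1 e2 e3
    obtain ⟨e4, _⟩ := smul_omC (gPC k) (gC k) (gPC_val k) hl1.1
    exact ⟨_, memN_spec (hk1.2.2.2 l hl), e4⟩

/-- The monoid of maps preserving a set. -/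
def presS (B : Set Om) : Submonoid (Perm (Fin 65)) where
  carrier := {f | ∀ s ∈ B, f • s ∈ B}
  one_mem' := fun s hs => by simpa using hs
  mul_mem' := fun {f g} hf hg s hs => by
    rw [mul_smul]
    exact hf _ (hg _ hs)

theorem mem_presS {B : Set Om} {f : Perm (Fin 65)} : f ∈ presS B ↔ ∀ s ∈ B, f • s ∈ B := Iff.rfl

theorem Closed.t1_mem {B : Set Om} (hB : Closed B) : tP 1 ∈ presS B := hB.t1

theorem Closed.w_mem {B : Set Om} (hB : Closed B) : wP ∈ presS B := hB.w

theorem Closed.gPC_mem {B : Set Om} (hB : Closed B) {k : Nat} (hk : validC k = true)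
    (h : omC k ∈ B) : gPC k ∈ presS B :=
  hB.g _ _ _ (validC_spec hk).1 (validC_spec hk).2.1 (validC_spec hk).2.2 h

theorem Mob_t1 : tP 1 ∈ Mob := Subgroup.subset_closure (by simp)
theorem Mob_m2 : mP 2 ∈ Mob := Subgroup.subset_closure (by simp)
theorem Mob_w : wP ∈ Mob := Subgroup.subset_closure (by simp)

theorem gP_mem_Mob (a b c : Nat) : gP a b c ∈ Mob :=
  gP_mem Mob.toSubmonoid Mob_t1 Mob_m2 Mob_w a b c

/-- The block property of a closed set. -/
theorem Closed.block {B : Set Om} (hB : Closed B) {g : Perm (Fin 65)} (hg : g ∈ Mob)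
    (h : g • t0 ∈ B) : g ∈ presS B := by
  obtain ⟨a, b, c, hab, hbc, hc, e⟩ := om_sorted (g • t0)
  have e1 : gP a b c • t0 = g • t0 := by rw [gP_t0 hab hbc hc, e]
  have e2 : ((gP a b c)⁻¹ * g) • t0 = t0 := by
    rw [mul_smul, ← e1, ← mul_smul]
    simp
  have hm : (gP a b c)⁻¹ * g ∈ Mob := Mob.mul_mem (Mob.inv_mem (gP_mem_Mob _ _ _)) hg
  have hx : (gP a b c)⁻¹ * g ∈ presS B :=
    stab_mem (presS B) hB.t1_mem hB.w_mem (isMob_of_mem hm) e2
  have hg2 : gP a b c ∈ presS B := hB.g a b c hab hbc hc (by rw [← e]; exact h)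
  have : g = gP a b c * ((gP a b c)⁻¹ * g) := by group
  rw [this]
  exact (presS B).mul_mem hg2 hx

theorem exists_to_t0 (x : Om) : ∃ g ∈ Mob, g • x = t0 := by
  obtain ⟨a, b, c, hab, hbc, hc, e⟩ := om_sorted x
  refine ⟨(gP a b c)⁻¹, Mob.inv_mem (gP_mem_Mob _ _ _), ?_⟩
  rw [e, ← gP_t0 hab hbc hc]
  simp

theorem exists_from_t0 (x : Om) : ∃ g ∈ Mob, g • t0 = x := by
  obtain ⟨a, b, c, hab, hbc, hc, e⟩ := om_sorted x
  exact ⟨gP a b c, gP_mem_Mob _ _ _, by rw [e, gP_t0 hab hbc hc]⟩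

/-- The relation attached to a set. -/
def rel (B : Set Om) (x y : Om) : Prop := ∃ g ∈ Mob, g • x = t0 ∧ g • y ∈ B

theorem rel_refl {B : Set Om} (hB : Closed B) (x : Om) : rel B x x := by
  obtain ⟨g, hg, e⟩ := exists_to_t0 x
  exact ⟨g, hg, e, e ▸ hB.base⟩

theorem rel_symm {B : Set Om} (hB : Closed B) {x y : Om} (h : rel B x y) : rel B y x := by
  obtain ⟨g, hg, e1, e2⟩ := h
  obtain ⟨u, hu, e3⟩ := exists_from_t0 (g • y)
  have h1 : u ∈ presS B := hB.block hu (by rw [e3]; exact e2)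
  have h2 : u⁻¹ ∈ presS B := inv_mem_finite _ h1
  refine ⟨u⁻¹ * g, Mob.mul_mem (Mob.inv_mem hu) hg, ?_, ?_⟩
  · rw [mul_smul, ← e3, ← mul_smul]
    simp
  · rw [mul_smul, e1]
    exact h2 _ hB.base

theorem rel_trans {B : Set Om} (hB : Closed B) {x y z : Om} (h1 : rel B x y) (h2 : rel B y z) :
    rel B x z := by
  obtain ⟨g, hg, e1, e2⟩ := h1
  obtain ⟨h, hh, e3, e4⟩ := h2
  refine ⟨g, hg, e1, ?_⟩
  have h3 : g * h⁻¹ ∈ presS B := by
    apply hB.block (Mob.mul_mem hg (Mob.inv_mem hh))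
    have : h⁻¹ • t0 = y := by rw [← e3]; simp
    rw [mul_smul, this]
    exact e2
  have h4 := h3 _ e4
  rwa [mul_smul, inv_smul_smul] at h4

/-- The setoid attached to a closed set. -/
def relS (B : Set Om) (hB : Closed B) : Setoid Om where
  r := rel B
  iseqv := ⟨rel_refl hB, rel_symm hB, rel_trans hB⟩

theorem rel_mob {B : Set Om} {f : Perm (Fin 65)} (hf : f ∈ Mob) {x y : Om} (h : rel B x y) :
    rel B (f • x) (f • y) := by
  obtain ⟨g, hg, e1, e2⟩ := h
  refine ⟨g * f⁻¹, Mob.mul_mem hg (Mob.inv_mem hf), ?_, ?_⟩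
  · rw [mul_smul, inv_smul_smul, e1]
  · rw [mul_smul, inv_smul_smul]
    exact e2

theorem rel_t0 {B : Set Om} (hB : Closed B) {s : Om} : rel B t0 s ↔ s ∈ B := by
  constructor
  · rintro ⟨g, hg, e1, e2⟩
    have h1 : g ∈ presS B := hB.block hg (by rw [e1]; exact hB.base)
    have h2 : g⁻¹ ∈ presS B := inv_mem_finite _ h1
    have := h2 _ e2
    rwa [inv_smul_smul] at this
  · intro h
    exact ⟨1, Mob.one_mem, by simp, by simpa using h⟩

theorem rel_mono {B B' : Set Om} (h : B ⊆ B') {x y : Om} (hr : rel B x y) : rel B' x y := by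
  obtain ⟨g, hg, e1, e2⟩ := hr
  exact ⟨g, hg, e1, h e2⟩

/-! From a congruence to a closed set. -/

/-- Monoid of maps preserving a relation. -/
def presT (θ : Setoid Om) : Submonoid (Perm (Fin 65)) where
  carrier := {f | ∀ x y, θ x y → θ (f • x) (f • y)}
  one_mem' := fun x y h => by simpa using h
  mul_mem' := fun {f g} hf hg x y h => by
    rw [mul_smul, mul_smul]
    exact hf _ _ (hg _ _ h)

theorem mob_pres {θ : Setoid Om} (h1 : tP 1 ∈ presT θ) (h2 : mP 2 ∈ presT θ) (h3 : wP ∈ presT θ)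
    {f : Perm (Fin 65)} (hf : f ∈ Mob) : f ∈ presT θ := by
  induction hf using Subgroup.closure_induction with
  | mem x hx =>
    rcases hx with rfl | rfl | rfl
    · exact h1
    · exact h2
    · exact h3
  | one => exact (presT θ).one_mem
  | mul _ _ _ _ hx hy => exact (presT θ).mul_mem hx hy
  | inv _ _ hx => exact inv_mem_finite _ hx

theorem t1_t0 : tP 1 • t0 = t0 := by
  apply Subtype.ext
  rw [smul_val]
  decide +kernel

theorem w_t0 : wP • t0 = t0 := by
  apply Subtype.ext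
  rw [smul_val]
  decide +kernel

/-- The class of the base point. -/
def classOf (θ : Setoid Om) : Set Om := {s | θ s t0}

theorem closed_classOf {θ : Setoid Om} (h1 : tP 1 ∈ presT θ) (h2 : mP 2 ∈ presT θ)
    (h3 : wP ∈ presT θ) : Closed (classOf θ) := by
  refine ⟨θ.refl _, ?_, ?_, ?_⟩
  · intro s hs
    have := h1 _ _ hs
    rwa [t1_t0] at this
  · intro s hs
    have := h3 _ _ hs
    rwa [w_t0] at this
  · intro a b c hab hbc hc hm s hs
    have hg : gP a b c ∈ presT θ := gP_mem _ h1 h2 h3 a b c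
    have := hg _ _ hs
    rw [gP_t0 hab hbc hc] at this
    exact θ.trans this hm

theorem rel_classOf {θ : Setoid Om} (h1 : tP 1 ∈ presT θ) (h2 : mP 2 ∈ presT θ)
    (h3 : wP ∈ presT θ) (x y : Om) : θ x y ↔ rel (classOf θ) x y := by
  constructor
  · intro h
    obtain ⟨g, hg, e⟩ := exists_to_t0 x
    refine ⟨g, hg, e, ?_⟩
    have := mob_pres h1 h2 h3 hg _ _ h
    rw [e] at this
    exact θ.symm this
  · rintro ⟨g, hg, e1, e2⟩
    have hi : g⁻¹ ∈ presT θ := mob_pres h1 h2 h3 (Mob.inv_mem hg)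
    have h4 : θ (g • y) (g • x) := by rw [e1]; exact e2
    have := hi _ _ h4
    rw [inv_smul_smul, inv_smul_smul] at this
    exact θ.symm this

end Vale.Agent.Lib.P183
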