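import Vale.Agent.Lib.P183.Step

namespace Vale.Agent.Lib.P183

theorem loopC_ok : loopC 65 = true := by decide +kernel

end Vale.Agent.Lib.P183
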