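import Vale.Agent.Lib.P183.Blocks

namespace Vale.Agent.Lib.P183

open Equiv

/-- Breadth-first orders of the blocks, one for each root (children before parents). -/
def bfsTable : List (Nat × List Nat) := [
  (1624, [60147, 64828, 60605, 60148, 60603, 64895, 64960, 94470, 60670, 60150, 64829, 60149, 60735, 5678, 64894, 94535, 5160, 1455, 5223, 60604, 5679, 94469, 64830, 5159, 5744, 5224, 60189, 1520, 5222, 5810, 60644, 5157, 64869, 1453, 89, 98760, 999, 932, 5150, 935, 60839, 5158, 60669, 1000, 60709, 5745, 5784, 64999, 65064, 933, 1585, 88, 64934, 998, 60774, 90, 5680, 98864, 925, 997, 94509, 5225, 1454, 1494, 5849, 94574, 87, 103089, 5264, 1519, 94639, 934, 79, 974, 1689, 5199, 5719, 98799, 80, 1039, 1559, 5914, 1624, 129]),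
  (3899, [8054, 248949, 3829, 123, 8124, 124, 3834, 8059, 3899, 129]),
  (14883, [40422, 36261, 86290, 90449, 57636, 53347, 64829, 60670, 27344, 31635, 78635, 82796, 71170, 75461, 44123, 48412, 23904, 19743, 10592, 14883, 129]),
  (19743, [14883, 10592, 48412, 44123, 82796, 78635, 60670, 64829, 90449, 86290, 40422, 36261, 57636, 53347, 27344, 31635, 71170, 75461, 23904, 19743, 129]),
  (36261, [82796, 78635, 27344, 31635, 75461, 71170, 64829, 60670, 48412, 44123, 57636, 53347, 19743, 23904, 86290, 90449, 14883, 10592, 40422, 36261, 129]),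
  (53347, [75461, 71170, 86290, 90449, 10592, 14883, 60670, 64829, 27344, 31635, 19743, 23904, 36261, 40422, 44123, 48412, 82796, 78635, 57636, 53347, 129]),
  (71170, [23904, 19743, 27344, 31635, 40422, 36261, 60670, 64829, 48412, 44123, 10592, 14883, 78635, 82796, 86290, 90449, 53347, 57636, 75461, 71170, 129]),
  (78635, [53347, 57636, 48412, 44123, 23904, 19743, 64829, 60670, 90449, 86290, 75461, 71170, 10592, 14883, 27344, 31635, 36261, 40422, 82796, 78635, 129]),
  (31635, [48412, 44123, 90449, 86290, 27344, 31635, 129]),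
  (44123, [90449, 86290, 31635, 27344, 48412, 44123, 129]),
  (90449, [27344, 31635, 48412, 44123, 86290, 90449, 129]),
  (64829, [60670, 64829, 129])]

def bfsOf (ρ : Nat) : List Nat := (bfsTable.lookup ρ).getD []

def reachChk (ρ : Nat) : List Nat → Bool
  | [] => true
  | k :: rest => and (or (Nat.beq k 129) (rest.any fun l =>
      or (Nat.beq (mapC (tN 1) l) k) (or (Nat.beq (mapC wN l) k) (Nat.beq (mapC (gC ρ) l) k))))
      (reachChk ρ rest)

theorem reach_spec {B : Set Om} (hB : Closed B) {ρ : Nat} (hρ : validC ρ = true)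
    (hm : omC ρ ∈ B) : ∀ L : List Nat, L.all validC = true → reachChk ρ L = true →
    ∀ k ∈ L, omC k ∈ B := by
  intro L
  induction L with
  | nil => intro _ _ k hk; simp at hk
  | cons k rest ih =>
    intro hv hc x hx
    simp only [List.all_cons, Bool.and_eq_true, reachChk, Bool.or_eq_true, List.any_eq_true] at hv hc
    have hrest := ih hv.2 hc.2
    rcases List.mem_cons.mp hx with rfl | hx
    · rcases hc.1 with h | ⟨l, hl, h⟩
      · rw [c_beq h, omC_129]; exact hB.base
      · have hvl : validC l = true := (List.all_eq_true.mp hv.2) l hl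
        have hml := hrest l hl
        rcases h with h | h | h
        · rw [← c_beq h, ← (smul_omC (tP 1) (tN 1) t1_val hvl).1]
          exact hB.t1 _ hml
        · rw [← c_beq h, ← (smul_omC wP wN wP_val hvl).1]
          exact hB.w _ hml
        · rw [← c_beq h, ← (smul_omC (gPC ρ) (gC ρ) (gPC_val ρ) hvl).1]
          exact hB.gPC_mem hρ hm _ hml
    · exact hrest x hx

def rootCheck : Bool := allB 7 fun r => (rootList r).all fun ρ =>
  and (validC ρ) (and ((bfsOf ρ).all validC) (and (reachChk ρ (bfsOf ρ))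
    ((blockOf r).all fun k => memN k (bfsOf ρ))))

theorem rootCheck_ok : rootCheck = true := by decide +kernel

theorem rootList_ge {r : Nat} (hr : 7 ≤ r) : rootList r = [] := by
  match r, hr with
  | n + 7, _ => rfl

theorem root_valid {r ρ : Nat} (hρ : ρ ∈ rootList r) : validC ρ = true := by
  have hr : r < 7 := by
    apply Nat.lt_of_not_le
    intro h
    rw [rootList_ge h] at hρ
    simp at hρ
  have h := allB_spec _ _ rootCheck_ok r hr
  have h2 := List.all_eq_true.mp h ρ hρ
  simp only [Bool.and_eq_true] at h2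
  exact h2.1

theorem root_block {B : Set Om} (hB : Closed B) {r ρ : Nat} (hρ : ρ ∈ rootList r)
    (hm : omC ρ ∈ B) : setL (blockOf r) ⊆ B := by
  have hr : r < 7 := by
    apply Nat.lt_of_not_le
    intro h
    rw [rootList_ge h] at hρ
    simp at hρ
  have h := allB_spec _ _ rootCheck_ok r hr
  have h2 := List.all_eq_true.mp h ρ hρ
  simp only [Bool.and_eq_true, List.all_eq_true] at h2
  have h3 := reach_spec hB h2.1 hm (bfsOf ρ) (List.all_eq_true.mpr h2.2.1) h2.2.2.1
  rintro s ⟨k, hk, rfl⟩
  exact h3 k (memN_spec (h2.2.2.2 k hk))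

/-- Sets containing `{0, 2, ∞}` are everything. -/
theorem univ_of_root {B : Set Om} (hB : Closed B) (hm : omC 194 ∈ B) : B = Set.univ := by
  have h1 : gP 0 2 64 = mP 2 := by
    unfold gP
    show tP 0 * mP (Nat.xor 0 2) = mP 2
    rw [tP_zero, one_mul]
    rfl
  have h2 : mP 2 ∈ presS B := by
    rw [← h1]
    exact hB.gPC_mem (k := 194) (by decide +kernel) hm
  apply Set.eq_univ_of_forall
  intro s
  obtain ⟨a, b, c, hab, hbc, hc, rfl⟩ := om_sorted s
  rw [← gP_t0 hab hbc hc]
  exact gP_mem (presS B) hB.t1_mem h2 hB.w_mem a b c _ hB.base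

/-- A root of region `r` lies in the set. -/
def F (B : Set Om) (r : Nat) : Prop := ∃ k ∈ rootList r, omC k ∈ B

theorem classify1 {B : Set Om} (hB : Closed B) {s : Om} (hs : s ∈ B) :
    s = t0 ∨ ∃ r, F B r ∧ (r = 1 ∨ s ∈ setL (blockOf r)) := by
  obtain ⟨a, b, c, hab, hbc, hc, rfl⟩ := om_sorted s
  have hcheck := check_sorted hab hbc hc
  unfold checkOne checkE at hcheck
  cases h15 : Nat.beq (lvE (entry (idx a b c))) 15
  · right
    have hne : lvE (entry (idx a b c)) ≠ 15 := fun e => by
      rw [e] at h15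
      exact absurd h15 (by decide)
    rw [h15] at hcheck
    simp only [cond_false, Bool.and_eq_true] at hcheck
    obtain ⟨k, hk1, hk2⟩ := forest hB _ a b c hab hbc hc rfl hne hs
    refine ⟨_, ⟨k, hk1, hk2⟩, ?_⟩
    have h1 := hcheck.1
    show regOf a b c = 1 ∨ _
    unfold regOf
    cases h2 : Nat.beq (rE (entry (idx a b c))) 1
    · right
      rw [h2] at h1
      simp only [cond_false] at h1
      exact ⟨_, memN_spec h1, (omC_code3 (by omega) (by omega) hc).symm⟩
    · left
      exact Nat.eq_of_beq_eq_true h2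
  · left
    rw [h15] at hcheck
    simp only [cond_true, Bool.and_eq_true] at hcheck
    obtain ⟨h1, h2, h3⟩ := hcheck
    rw [c_beq h1, c_beq h2, c_beq h3, t0_eq]

def regC (z : Nat) : Nat := rE (entry (idx (z / 4225) (z / 65 % 65) (z % 65)))
def lvC (z : Nat) : Nat := lvE (entry (idx (z / 4225) (z / 65 % 65) (z % 65)))

theorem join_F {B : Set Om} (hB : Closed B) {x y : Nat} (hx : validC x = true)
    (hy : validC y = true) (mx : omC x ∈ B) (my : omC y ∈ B) (hne : lvC (mapC (gC x) y) ≠ 15) :
    F B (regC (mapC (gC x) y)) := by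
  obtain ⟨e, hv⟩ := smul_omC (gPC x) (gC x) (gPC_val x) hy
  have hm : omC (mapC (gC x) y) ∈ B := by
    rw [← e]
    exact hB.gPC_mem hx mx _ my
  obtain ⟨h1, h2, h3⟩ := validC_spec hv
  exact forest hB _ _ _ _ h1 h2 h3 rfl hne hm

def listSub (L M : List Nat) : Bool := L.all fun k => memN k M

theorem setL_mono {L M : List Nat} (h : listSub L M = true) : setL L ⊆ setL M := by
  rintro s ⟨k, hk, rfl⟩
  exact ⟨k, memN_spec (List.all_eq_true.mp h k hk), rfl⟩

theorem mem_setL {L : List Nat} {k : Nat} (h : memN k L = true) : omC k ∈ setL L :=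
  ⟨k, memN_spec h, rfl⟩

theorem closed_b0 : Closed (setL [129]) := closed_of_chk (by decide +kernel)
theorem closed_b3 : Closed (setL blk3) := closed_of_chk (by decide +kernel)
theorem closed_b7 : Closed (setL blk7) := closed_of_chk (by decide +kernel)
theorem closed_b10 : Closed (setL blk10) := closed_of_chk (by decide +kernel)
theorem closed_b21 : Closed (setL blk21) := closed_of_chk (by decide +kernel)
theorem closed_b84 : Closed (setL blk84) := closed_of_chk (by decide +kernel)

theorem closed_univ : Closed Set.univ :=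
  ⟨trivial, fun _ _ => trivial, fun _ _ => trivial, fun _ _ _ _ _ _ _ _ _ => trivial⟩

theorem classify {B : Set Om} (hB : Closed B) :
    B = Set.univ ∨ B = setL blk84 ∨ B = setL blk10 ∨ B = setL blk21 ∨ B = setL blk7 ∨
      B = setL blk3 ∨ B = setL [129] := by
  -- the description of the elements of `B`
  have key : ∀ s ∈ B, s = t0 ∨ F B 1 ∨ (F B 2 ∧ s ∈ setL blk84) ∨ (F B 3 ∧ s ∈ setL blk10) ∨
      (F B 4 ∧ s ∈ setL blk21) ∨ (F B 5 ∧ s ∈ setL blk7) ∨ (F B 6 ∧ s ∈ setL blk3) := by
    intro s hs
    rcases classify1 hB hs with h | ⟨r, hr, h⟩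
    · exact Or.inl h
    · rcases h with rfl | h
      · exact Or.inr (Or.inl hr)
      · right
        right
        match r, hr, h with
        | 2, hr, h => exact Or.inl ⟨hr, h⟩
        | 3, hr, h => exact Or.inr (Or.inl ⟨hr, h⟩)
        | 4, hr, h => exact Or.inr (Or.inr (Or.inl ⟨hr, h⟩))
        | 5, hr, h => exact Or.inr (Or.inr (Or.inr (Or.inl ⟨hr, h⟩)))
        | 6, hr, h => exact Or.inr (Or.inr (Or.inr (Or.inr ⟨hr, h⟩)))
        | 0, _, ⟨_, hk, _⟩ => simp [blockOf] at hk
        | 1, _, ⟨_, hk, _⟩ => simp [blockOf] at hk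
        | n + 7, _, ⟨_, hk, _⟩ => simp [blockOf] at hk
  have sub : ∀ r, F B r → setL (blockOf r) ⊆ B := by
    rintro r ⟨k, hk1, hk2⟩
    exact root_block hB hk1 hk2
  have hF1 : F B 1 → B = Set.univ := by
    rintro ⟨k, hk1, hk2⟩
    have : k = 194 := by simpa [rootList] using hk1
    subst this
    exact univ_of_root hB hk2
  have has : ∀ {r k}, F B r → memN k (blockOf r) = true → omC k ∈ B := fun hr hk =>
    sub _ hr (mem_setL hk)
  -- the joins
  have j1 : F B 3 → F B 6 → F B 1 := fun h3 h6 =>
    join_F hB (x := 123) (y := 60670) (by decide +kernel) (by decide +kernel)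
      (has h3 (by decide +kernel)) (has h6 (by decide +kernel)) (by decide +kernel)
  have j2 : F B 3 → F B 5 → F B 1 := fun h3 h5 =>
    join_F hB (x := 123) (y := 27344) (by decide +kernel) (by decide +kernel)
      (has h3 (by decide +kernel)) (has h5 (by decide +kernel)) (by decide +kernel)
  have j3 : F B 2 → F B 5 → F B 1 := fun h2 h5 =>
    join_F hB (x := 79) (y := 27344) (by decide +kernel) (by decide +kernel)
      (has h2 (by decide +kernel)) (has h5 (by decide +kernel)) (by decide +kernel)
  have j4 : F B 6 → F B 5 → F B 4 := fun h6 h5 =>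
    join_F hB (x := 60670) (y := 27344) (by decide +kernel) (by decide +kernel)
      (has h6 (by decide +kernel)) (has h5 (by decide +kernel)) (by decide +kernel)
  -- some implications between the regions
  have i26 : F B 2 → F B 6 := fun h => ⟨64829, by decide, has h (by decide +kernel)⟩
  have i46 : F B 4 → F B 6 := fun h => ⟨64829, by decide, has h (by decide +kernel)⟩
  have i45 : F B 4 → F B 5 := fun h => ⟨31635, by decide, has h (by decide +kernel)⟩
  have s384 : setL blk3 ⊆ setL blk84 := setL_mono (by decide +kernel)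
  have s321 : setL blk3 ⊆ setL blk21 := setL_mono (by decide +kernel)
  have s721 : setL blk7 ⊆ setL blk21 := setL_mono (by decide +kernel)
  have t84 : t0 ∈ setL blk84 := ⟨129, by decide +kernel, omC_129.symm⟩
  have t21 : t0 ∈ setL blk21 := ⟨129, by decide +kernel, omC_129.symm⟩
  have t10 : t0 ∈ setL blk10 := ⟨129, by decide +kernel, omC_129.symm⟩
  have t7 : t0 ∈ setL blk7 := ⟨129, by decide +kernel, omC_129.symm⟩
  have t3 : t0 ∈ setL blk3 := ⟨129, by decide +kernel, omC_129.symm⟩
  have t1 : t0 ∈ setL [129] := ⟨129, by decide +kernel, omC_129.symm⟩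
  by_cases f1 : F B 1
  · exact Or.inl (hF1 f1)
  right
  by_cases f3 : F B 3
  · right; left
    apply Set.Subset.antisymm _ (sub 3 f3)
    intro s hs
    rcases key s hs with rfl | h | ⟨h, _⟩ | ⟨_, h⟩ | ⟨h, _⟩ | ⟨h, _⟩ | ⟨h, _⟩
    · exact t10
    · exact absurd h f1
    · exact absurd (j1 f3 (i26 h)) f1
    · exact h
    · exact absurd (j1 f3 (i46 h)) f1
    · exact absurd (j2 f3 h) f1
    · exact absurd (j1 f3 h) f1
  by_cases f2 : F B 2
  · left
    apply Set.Subset.antisymm _ (sub 2 f2)
    intro s hs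
    rcases key s hs with rfl | h | ⟨_, h⟩ | ⟨h, _⟩ | ⟨h, _⟩ | ⟨h, _⟩ | ⟨_, h⟩
    · exact t84
    · exact absurd h f1
    · exact h
    · exact absurd h f3
    · exact absurd (j3 f2 (i45 h)) f1
    · exact absurd (j3 f2 h) f1
    · exact s384 h
  right; right
  by_cases f4 : F B 4
  · left
    apply Set.Subset.antisymm _ (sub 4 f4)
    intro s hs
    rcases key s hs with rfl | h | ⟨h, _⟩ | ⟨h, _⟩ | ⟨_, h⟩ | ⟨_, h⟩ | ⟨_, h⟩
    · exact t21
    · exact absurd h f1
    · exact absurd h f2
    · exact absurd h f3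
    · exact h
    · exact s721 h
    · exact s321 h
  right
  by_cases f5 : F B 5
  · left
    apply Set.Subset.antisymm _ (sub 5 f5)
    intro s hs
    rcases key s hs with rfl | h | ⟨h, _⟩ | ⟨h, _⟩ | ⟨h, _⟩ | ⟨_, h⟩ | ⟨h, _⟩
    · exact t7
    · exact absurd h f1
    · exact absurd h f2
    · exact absurd h f3
    · exact absurd h f4
    · exact h
    · exact absurd (j4 h f5) f4
  right
  by_cases f6 : F B 6
  · left
    apply Set.Subset.antisymm _ (sub 6 f6)
    intro s hs
    rcases key s hs with rfl | h | ⟨h, _⟩ | ⟨h, _⟩ | ⟨h, _⟩ | ⟨h, _⟩ | ⟨_, h⟩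
    · exact t3
    · exact absurd h f1
    · exact absurd h f2
    · exact absurd h f3
    · exact absurd h f4
    · exact absurd h f5
    · exact h
  right
  apply Set.Subset.antisymm
  · intro s hs
    rcases key s hs with rfl | h | ⟨h, _⟩ | ⟨h, _⟩ | ⟨h, _⟩ | ⟨h, _⟩ | ⟨h, _⟩
    · exact t1
    · exact absurd h f1
    · exact absurd h f2
    · exact absurd h f3
    · exact absurd h f4
    · exact absurd h f5
    · exact absurd h f6
  · rintro s ⟨k, hk, rfl⟩
    simp only [List.mem_singleton] at hk
    rw [hk, omC_129]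
    exact hB.base

end Vale.Agent.Lib.P183
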