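import Mathlib

namespace Vale.Agent.Lib.P183

/-! Arithmetic of the field with 64 elements, coded on natural numbers below 64
(polynomial basis modulo X^6+X+1), and the projective line on the numbers below 65,
the number 64 standing for the point at infinity. -/

def expTab : Nat := 200056899117130072747574117421561899234971614266495211707131020435133799245646192885205032447800083252880780256503140027630173649752369445241863533736426910888259667562043128243303990680837317433004517838448502127809326147977345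
def logTab : Nat := 36265302912251042761276606936058182247505748789568104052998051136038197467810438868035313606317156396572587524100096
def ex (i : Nat) : Nat := Nat.land (Nat.shiftRight expTab (Nat.mul 6 i)) 63
def lg (a : Nat) : Nat := Nat.land (Nat.shiftRight logTab (Nat.mul 6 a)) 63
def mulN (a b : Nat) : Nat :=
  cond (Nat.beq a 0) 0 (cond (Nat.beq b 0) 0 (ex (Nat.add (lg a) (lg b))))
def invN (a : Nat) : Nat := ex (Nat.sub 63 (lg a))
def tN (a x : Nat) : Nat := cond (Nat.beq x 64) 64 (Nat.xor x a)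
def mN (b x : Nat) : Nat := cond (Nat.beq x 64) 64 (mulN b x)
def wN (x : Nat) : Nat := cond (Nat.beq x 64) 0 (cond (Nat.beq x 0) 64 (invN x))
def nz (b : Nat) : Nat := cond (Nat.beq (b % 64) 0) 1 (b % 64)

theorem tN_lt' : ∀ a : Fin 64, ∀ x : Fin 65, tN a.val x.val < 65 := by decide +kernel
theorem mN_lt' : ∀ b : Fin 64, ∀ x : Fin 65, mN b.val x.val < 65 := by decide +kernel
theorem wN_lt' : ∀ x : Fin 65, wN x.val < 65 := by decide +kernel
theorem nz_lt (b : Nat) : nz b < 64 := by
  unfold nz
  cases h : Nat.beq (b % 64) 0 <;> simp [Nat.mod_lt]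
theorem invN_lt' : ∀ b : Fin 64, invN b.val < 64 := by decide +kernel
theorem tN_tN' : ∀ a : Fin 64, ∀ x : Fin 65, tN a.val (tN a.val x.val) = x.val := by decide +kernel
theorem mN_inv_mN' : ∀ b : Fin 64, b.val ≠ 0 → ∀ x : Fin 65,
    mN (invN b.val) (mN b.val x.val) = x.val := by decide +kernel
theorem mN_mN_inv' : ∀ b : Fin 64, b.val ≠ 0 → ∀ x : Fin 65,
    mN b.val (mN (invN b.val) x.val) = x.val := by decide +kernel
theorem wN_wN' : ∀ x : Fin 65, wN (wN x.val) = x.val := by decide +kernel
theorem nz_ne (b : Nat) : nz b ≠ 0 := by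
  unfold nz
  cases h : Nat.beq (b % 64) 0
  · intro h0
    have h1 : b % 64 ≠ 0 := by
      intro h2
      rw [h2] at h
      exact absurd h (by decide)
    simp only [cond_false] at h0
    exact h1 h0
  · simp

/-- Translation `x ↦ x + a` of the projective line. -/
def tP (a : Nat) : Equiv.Perm (Fin 65) where
  toFun x := ⟨tN (a % 64) x.val, tN_lt' ⟨a % 64, Nat.mod_lt _ (by norm_num)⟩ x⟩
  invFun x := ⟨tN (a % 64) x.val, tN_lt' ⟨a % 64, Nat.mod_lt _ (by norm_num)⟩ x⟩
  left_inv x := Fin.ext (tN_tN' ⟨a % 64, Nat.mod_lt _ (by norm_num)⟩ x)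
  right_inv x := Fin.ext (tN_tN' ⟨a % 64, Nat.mod_lt _ (by norm_num)⟩ x)

/-- Multiplication `x ↦ b x` of the projective line, for `b` nonzero below 64
(the value 1 is used in place of a multiple of 64). -/
def mP (b : Nat) : Equiv.Perm (Fin 65) where
  toFun x := ⟨mN (nz b) x.val, mN_lt' ⟨nz b, nz_lt b⟩ x⟩
  invFun x := ⟨mN (invN (nz b)) x.val, mN_lt' ⟨invN (nz b), invN_lt' ⟨nz b, nz_lt b⟩⟩ x⟩
  left_inv x := Fin.ext (mN_inv_mN' ⟨nz b, nz_lt b⟩ (nz_ne b) x)
  right_inv x := Fin.ext (mN_mN_inv' ⟨nz b, nz_lt b⟩ (nz_ne b) x)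

/-- Inversion `x ↦ 1 / x` of the projective line. -/
def wP : Equiv.Perm (Fin 65) where
  toFun x := ⟨wN x.val, wN_lt' x⟩
  invFun x := ⟨wN x.val, wN_lt' x⟩
  left_inv x := Fin.ext (wN_wN' x)
  right_inv x := Fin.ext (wN_wN' x)

theorem tP_val (a : Nat) (x : Fin 65) : (tP a x).val = tN (a % 64) x.val := rfl
theorem mP_val (b : Nat) (x : Fin 65) : (mP b x).val = mN (nz b) x.val := rfl
theorem wP_val (x : Fin 65) : (wP x).val = wN x.val := rfl

end Vale.Agent.Lib.P183
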