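import Vale.Agent.Lib.P183.Check

namespace Vale.Agent.Lib.P183

open Equiv

theorem loopA_spec {b c : Nat} : ∀ n, loopA b c n = true → ∀ a, a < n →
    checkOne a b c (entry (idx a b c)) = true := by
  intro n
  induction n with
  | zero => intro _ a ha; omega
  | succ n ih =>
    intro h a ha
    simp only [loopA, Bool.and_eq_true] at h
    rcases Nat.lt_succ_iff_lt_or_eq.mp ha with h1 | h1
    · exact ih h.2 a h1
    · rw [h1]; exact h.1

theorem loopB_spec {c : Nat} : ∀ n, loopB c n = true → ∀ b, b < n → loopA b c b = true := by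
  intro n
  induction n with
  | zero => intro _ a ha; omega
  | succ n ih =>
    intro h a ha
    simp only [loopB, Bool.and_eq_true] at h
    rcases Nat.lt_succ_iff_lt_or_eq.mp ha with h1 | h1
    · exact ih h.2 a h1
    · rw [h1]; exact h.1

theorem loopC_spec : ∀ n, loopC n = true → ∀ c, c < n → loopB c c = true := by
  intro n
  induction n with
  | zero => intro _ a ha; omega
  | succ n ih =>
    intro h a ha
    simp only [loopC, Bool.and_eq_true] at h
    rcases Nat.lt_succ_iff_lt_or_eq.mp ha with h1 | h1
    · exact ih h.2 a h1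
    · rw [h1]; exact h.1

theorem check_sorted {a b c : Nat} (h1 : a < b) (h2 : b < c) (h3 : c < 65) :
    checkOne a b c (entry (idx a b c)) = true :=
  loopA_spec _ (loopB_spec _ (loopC_spec _ loopC_ok c h3) b h2) a h1

theorem omN_swap12 (x y z : Nat) : omN x y z = omN y x z := om_swap12 _ _ _
theorem omN_swap23 (x y z : Nat) : omN x y z = omN x z y := om_swap23 _ _ _

theorem ble_true {a b : Nat} (h : Nat.ble a b = true) : a ≤ b := Nat.le_of_ble_eq_true h
theorem ble_false {a b : Nat} (h : Nat.ble a b = false) : b < a := by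
  apply Nat.lt_of_not_le
  intro h2
  rw [Nat.ble_eq_true_of_le h2] at h
  exact absurd h (by decide)

theorem sortApply_spec (f : Nat → Nat → Nat → Nat) {x y z : Nat} (hx : x < 65) (hy : y < 65)
    (hz : z < 65) (hxy : x ≠ y) (hxz : x ≠ z) (hyz : y ≠ z) :
    ∃ a b c, a < b ∧ b < c ∧ c < 65 ∧ omN x y z = omN a b c ∧ sortApply f x y z = f a b c := by
  unfold sortApply
  cases h1 : Nat.ble x y
  · have l1 := ble_false h1
    cases h3 : Nat.ble x z
    · have l3 := ble_false h3
      cases h2 : Nat.ble y z
      · have l2 := ble_false h2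
        refine ⟨z, y, x, l2, l1, hx, ?_, by simp⟩
        rw [omN_swap23, omN_swap12, omN_swap23]
      · have l2 := ble_true h2
        refine ⟨y, z, x, by omega, l3, hx, ?_, by simp⟩
        rw [omN_swap12, omN_swap23]
    · have l3 := ble_true h3
      refine ⟨y, x, z, l1, by omega, hz, ?_, by simp⟩
      rw [omN_swap12]
  · have l1 := ble_true h1
    cases h2 : Nat.ble y z
    · have l2 := ble_false h2
      cases h3 : Nat.ble x z
      · have l3 := ble_false h3
        refine ⟨z, x, y, l3, by omega, hy, ?_, by simp⟩
        rw [omN_swap23, omN_swap12]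
      · have l3 := ble_true h3
        refine ⟨x, z, y, by omega, l2, hy, ?_, by simp⟩
        rw [omN_swap23]
    · have l2 := ble_true h2
      exact ⟨x, y, z, by omega, by omega, hz, rfl, by simp⟩

/-- Decoding of a code of a triple. -/
def omC (k : Nat) : Om := omN (k / 4225) (k / 65 % 65) (k % 65)

theorem code3_eq (a b c : Nat) : code3 a b c = a * 4225 + b * 65 + c := rfl

theorem omC_code3 {a b c : Nat} (ha : a < 65) (hb : b < 65) (hc : c < 65) :
    omC (code3 a b c) = omN a b c := by
  unfold omC
  rw [code3_eq]
  have h1 : (a * 4225 + b * 65 + c) / 4225 = a := by omega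
  have h2 : (a * 4225 + b * 65 + c) / 65 % 65 = b := by omega
  have h3 : (a * 4225 + b * 65 + c) % 65 = c := by omega
  rw [h1, h2, h3]

/-- Closure properties of the class of the base point under a congruence. -/
structure Closed (B : Set Om) : Prop where
  base : t0 ∈ B
  t1 : ∀ s ∈ B, tP 1 • s ∈ B
  w : ∀ s ∈ B, wP • s ∈ B
  g : ∀ a b c, a < b → b < c → c < 65 → omN a b c ∈ B → ∀ s ∈ B, gP a b c • s ∈ B

theorem Closed.h {B : Set Om} (hB : Closed B) (h : Nat) (s : Om) (hs : s ∈ B) : hP h • s ∈ B := by
  match h with
  | 0 => simpa [hP] using hs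
  | 1 => exact hB.t1 s hs
  | 2 => exact hB.w s hs
  | 3 =>
    show (wP * tP 1) • s ∈ B
    rw [mul_smul]
    exact hB.w _ (hB.t1 s hs)
  | 4 =>
    show (tP 1 * wP * tP 1) • s ∈ B
    rw [mul_smul, mul_smul]
    exact hB.t1 _ (hB.w _ (hB.t1 s hs))
  | n + 5 =>
    show (tP 1 * wP) • s ∈ B
    rw [mul_smul]
    exact hB.t1 _ (hB.w s hs)

theorem lvE_le (e : Nat) : lvE e ≤ 15 := Nat.and_le_right

def lvOf (a b c : Nat) : Nat := lvE (entry (idx a b c))
def regOf (a b c : Nat) : Nat := rE (entry (idx a b c))

theorem beq_false_of_ne {a b : Nat} (h : a ≠ b) : Nat.beq a b = false := by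
  cases hh : Nat.beq a b
  · rfl
  · exact absurd (Nat.eq_of_beq_eq_true hh) h

theorem beq_self' (a : Nat) : Nat.beq a a = true := by simp

theorem forest {B : Set Om} (hB : Closed B) : ∀ n a b c, a < b → b < c → c < 65 →
    lvOf a b c = n → n ≠ 15 → omN a b c ∈ B → ∃ k ∈ rootList (regOf a b c), omC k ∈ B := by
  intro n
  induction n using Nat.strong_induction_on with
  | _ n ih =>
    intro a b c hab hbc hc hlv hn hmem
    have hcheck := check_sorted hab hbc hc
    unfold checkOne checkE at hcheck
    rw [show lvE (entry (idx a b c)) = n from hlv, beq_false_of_ne hn] at hcheck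
    simp only [cond_false, Bool.and_eq_true] at hcheck
    rcases Nat.eq_zero_or_pos n with h0 | hpos
    · have h2 := hcheck.2
      rw [h0] at h2
      simp only [beq_self', cond_true] at h2
      refine ⟨code3 a b c, memN_spec h2, ?_⟩
      rw [omC_code3 (by omega) (by omega) hc]
      exact hmem
    · have hne0 : n ≠ 0 := by omega
      have h2 := hcheck.2
      rw [beq_false_of_ne hne0] at h2
      simp only [cond_false, Bool.and_eq_true] at h2
      set e := entry (idx a b c) with he
      set h := hE e with hh
      set f : Perm (Fin 65) := gP a b c * hP h with hf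
      have hval : ∀ x, x < 65 → (f (Fin.ofNat 65 x)).val = gN a b c (hN h x) := by
        intro x hx
        simp only [hf, Perm.mul_apply]
        rw [gP_val, hP_val, fin_ofNat_val hx]
      have ha65 : a < 65 := by omega
      have hb65 : b < 65 := by omega
      have hsm : f • omN a b c = omN (f (Fin.ofNat 65 a)).val (f (Fin.ofNat 65 b)).val
          (f (Fin.ofNat 65 c)).val :=
        smul_omN f ha65 hb65 hc (by omega) (by omega) (by omega)
      have hmem2 : f • omN a b c ∈ B := by
        rw [hf, mul_smul]
        exact hB.g a b c hab hbc hc hmem _ (hB.h h _ hmem)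
      have hne : ∀ x y, x < 65 → y < 65 → x ≠ y →
          (f (Fin.ofNat 65 x)).val ≠ (f (Fin.ofNat 65 y)).val := by
        intro x y hx hy hxy e2
        exact ofNat_ne hx hy hxy (f.injective (Fin.ext e2))
      obtain ⟨a', b', c', h1, h2', h3, h4, h5⟩ := sortApply_spec idx
        (f (Fin.ofNat 65 a)).isLt (f (Fin.ofNat 65 b)).isLt (f (Fin.ofNat 65 c)).isLt
        (hne _ _ ha65 hb65 (by omega)) (hne _ _ ha65 hc (by omega)) (hne _ _ hb65 hc (by omega))
      rw [hval a ha65, hval b hb65, hval c hc] at h5
      have hi : idxU (gN a b c (hN (hE e) a)) (gN a b c (hN (hE e) b)) (gN a b c (hN (hE e) c))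
          = idx a' b' c' := h5
      rw [hi] at h2
      have hlt : lvE (entry (idx a' b' c')) < n := blt_spec h2.1
      have hreg : rE (entry (idx a' b' c')) = rE e := Nat.eq_of_beq_eq_true h2.2
      have hmem3 : omN a' b' c' ∈ B := by
        rw [← h4, ← hsm]
        exact hmem2
      have hle15 : n ≤ 15 := by
        have := lvE_le (entry (idx a b c))
        rw [show lvE (entry (idx a b c)) = n from hlv] at this
        exact this
      have := ih _ hlt a' b' c' h1 h2' h3 rfl (by omega) hmem3
      simpa only [regOf, hreg] using this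

end Vale.Agent.Lib.P183
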