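import Vale.Agent.Lib.P183.Forest

namespace Vale.Agent.Lib.P183

open Equiv

/-- The maps `gP a b c` send `0, 1, ∞` to `a, b, c`. -/
def gCheck : Bool := allB 65 fun c => allB c fun b => allB b fun a =>
  and (Nat.beq (gN a b c 0) a) (and (Nat.beq (gN a b c 1) b) (Nat.beq (gN a b c 64) c))

theorem gCheck_ok : gCheck = true := by decide +kernel

theorem gN_values {a b c : Nat} (hab : a < b) (hbc : b < c) (hc : c < 65) :
    gN a b c 0 = a ∧ gN a b c 1 = b ∧ gN a b c 64 = c := by
  have h := allB_spec _ _ (allB_spec _ _ (allB_spec _ _ gCheck_ok c hc) b hbc) a hab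
  simp only [Bool.and_eq_true] at h
  exact ⟨c_beq h.1, c_beq h.2.1, c_beq h.2.2⟩

theorem gP_t0 {a b c : Nat} (hab : a < b) (hbc : b < c) (hc : c < 65) :
    gP a b c • t0 = omN a b c := by
  rw [t0_eq, smul_omN _ (by norm_num) (by norm_num) (by norm_num) (by norm_num) (by norm_num)
    (by norm_num)]
  obtain ⟨h0, h1, h2⟩ := gN_values hab hbc hc
  have e0 : (gP a b c (Fin.ofNat 65 0)).val = a := by
    rw [gP_val]; exact h0
  have e1 : (gP a b c (Fin.ofNat 65 1)).val = b := by
    rw [gP_val]; exact h1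
  have e2 : (gP a b c (Fin.ofNat 65 64)).val = c := by
    rw [gP_val]; exact h2
  rw [e0, e1, e2]

section gens

variable (S : Submonoid (Perm (Fin 65)))

theorem mP_ex_mem (h2 : mP 2 ∈ S) : ∀ k, k ≤ 63 → mP (ex k) ∈ S := by
  intro k
  induction k with
  | zero =>
    intro _
    have h1 : ex 0 = 1 := by decide +kernel
    rw [h1, mP_one]
    exact S.one_mem
  | succ k ih =>
    intro hk
    rw [m_step k (by omega)]
    exact S.mul_mem (ih (by omega)) h2

theorem mP_eq_nz (b : Nat) : mP b = mP (nz b) := by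
  have h0 : 0 < nz b := Nat.pos_of_ne_zero (nz_ne b)
  have h := (c8_spec (nz_lt b) h0).2.2.2.2
  apply perm_ext_val
  intro x
  rw [mP_val, mP_val, h]

theorem mP_mem (h2 : mP 2 ∈ S) (b : Nat) : mP b ∈ S := by
  rw [mP_eq_nz]
  have h0 : 0 < nz b := Nat.pos_of_ne_zero (nz_ne b)
  have h := (c8_spec (nz_lt b) h0).1
  rw [← h]
  exact mP_ex_mem S h2 _ (by have := lg_lt (nz_lt b); omega)

theorem tP_eq_mod (a : Nat) : tP a = tP (a % 64) := by
  apply perm_ext_val
  intro x
  rw [tP_val, tP_val, Nat.mod_mod]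

theorem tP_mem (h1 : tP 1 ∈ S) (h2 : mP 2 ∈ S) (a : Nat) : tP a ∈ S := by
  rw [tP_eq_mod]
  have ha : a % 64 < 64 := Nat.mod_lt _ (by norm_num)
  rcases Nat.eq_zero_or_pos (a % 64) with h0 | h0
  · rw [h0, tP_zero]
    exact S.one_mem
  · have e : tP (a % 64) = mP (a % 64) * tP 1 * mP (invN (a % 64)) := by
      rw [m_comm_t' _ 1 ha h0 (by norm_num), (c8_spec ha h0).2.2.2.1, ← mP_inv' _ ha h0, mul_assoc]
      simp
    rw [e]
    exact S.mul_mem (S.mul_mem (mP_mem S h2 _) h1) (mP_mem S h2 _)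

theorem gP_mem (h1 : tP 1 ∈ S) (h2 : mP 2 ∈ S) (h3 : wP ∈ S) (a b c : Nat) : gP a b c ∈ S := by
  unfold gP
  cases Nat.beq c 64
  · exact S.mul_mem (S.mul_mem (S.mul_mem (tP_mem S h1 h2 _) h3) (tP_mem S h1 h2 _)) (mP_mem S h2 _)
  · exact S.mul_mem (tP_mem S h1 h2 _) (mP_mem S h2 _)

theorem inv_mem_finite {f : Perm (Fin 65)} (hf : f ∈ S) : f⁻¹ ∈ S := by
  have h : f⁻¹ = f ^ (orderOf f - 1) := by
    apply inv_eq_of_mul_eq_one_left
    rw [← pow_succ]
    have : 0 < orderOf f := orderOf_pos f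
    rw [Nat.sub_add_cancel this, pow_orderOf_eq_one]
  rw [h]
  exact S.pow_mem hf _

/-! The stabilizer of the base point. -/

def sCheck1 : Bool := allB 2 fun a => allB 64 fun b =>
  cond (Nat.beq b 0) true (cond (Nat.ble (tN a (mN (nz b) 1)) 1) (Nat.beq b 1) true)

theorem sCheck1_ok : sCheck1 = true := by decide +kernel

def sCheck2 : Bool := allB 2 fun a => allB 2 fun c => allB 64 fun b =>
  cond (Nat.beq b 0) true (cond (Nat.ble (tN a (mN (nz b) (wN (tN c (Nat.xor 1 c))))) 1)
    (Nat.beq b 1) true)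

theorem sCheck2_ok : sCheck2 = true := by decide +kernel

theorem sCheck3 : ∀ a : Fin 64, tN a.val (mN 1 0) = a.val := by decide +kernel
theorem sCheck4 : ∀ a : Fin 64, tN a.val 64 = 64 := by decide +kernel
theorem sCheck5 : ∀ b : Fin 64, mN b.val 64 = 64 := by decide +kernel
theorem sCheck6 : ∀ b : Fin 64, mN b.val 0 = 0 := by decide +kernel
theorem sCheck7 : ∀ a : Fin 64, tN a.val 0 = a.val := by decide +kernel
theorem sCheck8 : ∀ a : Fin 64, tN a.val a.val = 0 := by decide +kernel
theorem sCheck9 : ∀ a : Fin 64, a.val ≠ 64 := fun a => by have := a.isLt; omega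

theorem mem_t0 {x : Fin 65} (h : x ∈ t0.1) : x.val = 0 ∨ x.val = 1 ∨ x.val = 64 := by
  have h2 : x ∈ ({0, 1, 64} : Finset (Fin 65)) := h
  simp only [Finset.mem_insert, Finset.mem_singleton] at h2
  rcases h2 with rfl | rfl | rfl
  · left; rfl
  · right; left; rfl
  · right; right; rfl

theorem val_mem_t0 {x : Fin 65} (h : x.val = 0 ∨ x.val = 1 ∨ x.val = 64) : x ∈ t0.1 := by
  show x ∈ ({0, 1, 64} : Finset (Fin 65))
  simp only [Finset.mem_insert, Finset.mem_singleton]
  rcases h with h | h | h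
  · left; exact Fin.ext h
  · right; left; exact Fin.ext h
  · right; right; exact Fin.ext h

theorem fix_maps {f : Perm (Fin 65)} (hf : f • t0 = t0) {x : Fin 65} (hx : x ∈ t0.1) :
    f x ∈ t0.1 := by
  rw [← hf, smul_val]
  exact Finset.mem_map_of_mem _ hx

theorem fix_pre {f : Perm (Fin 65)} (hf : f • t0 = t0) {y : Fin 65} (hy : y ∈ t0.1) :
    ∃ x ∈ t0.1, f x = y := by
  rw [← hf, smul_val] at hy
  obtain ⟨x, hx, h⟩ := Finset.mem_map.mp hy
  exact ⟨x, hx, h⟩

theorem stab_mem (h1 : tP 1 ∈ S) (h3 : wP ∈ S) {f : Perm (Fin 65)} (hm : IsMob f)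
    (hf : f • t0 = t0) : f ∈ S := by
  have hz : (0 : Fin 65) ∈ t0.1 := val_mem_t0 (Or.inl rfl)
  have ho : (1 : Fin 65) ∈ t0.1 := val_mem_t0 (Or.inr (Or.inl rfl))
  have hi : (64 : Fin 65) ∈ t0.1 := val_mem_t0 (Or.inr (Or.inr rfl))
  rcases hm with ⟨a, b, ha, hb0, hb, rfl⟩ | ⟨a, b, c, ha, hb0, hb, hc, rfl⟩
  · -- affine case
    have v0 : ((tP a * mP b) (0 : Fin 65)).val = a := by
      rw [Perm.mul_apply, tP_val, mP_val, Nat.mod_eq_of_lt ha]
      show tN a (mN (nz b) 0) = a
      rw [sCheck6 ⟨nz b, nz_lt b⟩]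
      exact sCheck7 ⟨a, ha⟩
    have v1 : ((tP a * mP b) (1 : Fin 65)).val = tN a (mN (nz b) 1) := by
      rw [Perm.mul_apply, tP_val, mP_val, Nat.mod_eq_of_lt ha]
      rfl
    have a2 := mem_t0 (fix_maps hf hz)
    rw [v0] at a2
    have ha2 : a < 2 := by omega
    have a3 := mem_t0 (fix_maps hf ho)
    rw [v1] at a3
    have hne : tN a (mN (nz b) 1) ≠ 64 := by
      have e : mN (nz b) 1 = b := by
        show mN (nz b) ((1 : Fin 65).val) = b
        rw [(c8_spec hb hb0).2.2.2.2]
        exact (c8_spec hb hb0).2.2.2.1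
      rw [e]
      intro h
      have hlt : Nat.xor b a < 64 := Nat.xor_lt_two_pow (n := 6) hb ha
      have e2 : tN a b = Nat.xor b a := by
        have h1 : Nat.beq b 64 = false := by
          cases hh : Nat.beq b 64
          · rfl
          · have := Nat.eq_of_beq_eq_true hh; omega
        simp [tN, h1]
      rw [e2] at h
      omega
    have hle : Nat.ble (tN a (mN (nz b) 1)) 1 = true := by
      apply Nat.ble_eq_true_of_le
      omega
    have hcheck := allB_spec _ _ (allB_spec _ _ sCheck1_ok a ha2) b hb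
    have hb_ne : Nat.beq b 0 = false := by
      cases hh : Nat.beq b 0
      · rfl
      · have := Nat.eq_of_beq_eq_true hh; omega
    simp only [hb_ne, hle, cond_false, cond_true] at hcheck
    have hb1 : b = 1 := c_beq hcheck
    subst hb1
    rw [mP_one, mul_one]
    have : a = 0 ∨ a = 1 := by omega
    rcases this with rfl | rfl
    · rw [tP_zero]; exact S.one_mem
    · exact h1
  · -- the non-affine case
    set f := tP a * mP b * wP * tP c with hfdef
    have hval : ∀ x : Fin 65, (f x).val = tN a (mN (nz b) (wN (tN c x.val))) := by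
      intro x
      simp only [hfdef, Perm.mul_apply, tP_val, mP_val, wP_val, Nat.mod_eq_of_lt ha,
        Nat.mod_eq_of_lt hc]
    have vc : (f ⟨c, by omega⟩).val = 64 := by
      rw [hval]
      show tN a (mN (nz b) (wN (tN c c))) = 64
      rw [sCheck8 ⟨c, hc⟩]
      show tN a (mN (nz b) 64) = 64
      rw [sCheck5 ⟨nz b, nz_lt b⟩]
      exact sCheck4 ⟨a, ha⟩
    have vi : (f (64 : Fin 65)).val = a := by
      rw [hval]
      show tN a (mN (nz b) (wN (tN c 64))) = a
      have e1 : tN c 64 = 64 := sCheck4 ⟨c, hc⟩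
      rw [e1]
      show tN a (mN (nz b) 0) = a
      rw [sCheck6 ⟨nz b, nz_lt b⟩]
      exact sCheck7 ⟨a, ha⟩
    have a2 := mem_t0 (fix_maps hf hi)
    rw [vi] at a2
    have ha2 : a < 2 := by omega
    obtain ⟨x, hx, hfx⟩ := fix_pre hf hi
    have hxc : x = ⟨c, by omega⟩ := by
      apply f.injective
      rw [hfx]
      apply Fin.ext
      rw [vc]
      rfl
    have c2 := mem_t0 hx
    rw [hxc] at c2
    have hc2 : c < 2 := by
      have c3 : c = 0 ∨ c = 1 ∨ c = 64 := c2
      omega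
    have hcx' : (c = 0 ∧ Nat.xor 1 c = 1) ∨ (c = 1 ∧ Nat.xor 1 c = 0) := by
      have : c = 0 ∨ c = 1 := by omega
      rcases this with rfl | rfl
      · left; exact ⟨rfl, by decide⟩
      · right; exact ⟨rfl, by decide⟩
    have hcx : Nat.xor 1 c < 65 := by omega
    have hcx2 : Nat.xor 1 c = 0 ∨ Nat.xor 1 c = 1 := by omega
    have hthird : (⟨Nat.xor 1 c, hcx⟩ : Fin 65) ∈ t0.1 := by
      apply val_mem_t0
      rcases hcx2 with h | h
      · left; exact h
      · right; left; exact h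
    have a4 := mem_t0 (fix_maps hf hthird)
    rw [hval] at a4
    have a4' : tN a (mN (nz b) (wN (tN c (Nat.xor 1 c)))) = 0 ∨
        tN a (mN (nz b) (wN (tN c (Nat.xor 1 c)))) = 1 ∨
        tN a (mN (nz b) (wN (tN c (Nat.xor 1 c)))) = 64 := a4
    have hne : f ⟨Nat.xor 1 c, hcx⟩ ≠ f ⟨c, by omega⟩ := by
      intro e
      have := congrArg Fin.val (f.injective e)
      simp only at this
      omega
    have hne2 : tN a (mN (nz b) (wN (tN c (Nat.xor 1 c)))) ≠ 64 := by
      intro e
      apply hne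
      apply Fin.ext
      rw [vc, hval]
      exact e
    have hle : Nat.ble (tN a (mN (nz b) (wN (tN c (Nat.xor 1 c))))) 1 = true := by
      apply Nat.ble_eq_true_of_le
      omega
    have hcheck := allB_spec _ _ (allB_spec _ _ (allB_spec _ _ sCheck2_ok a ha2) c hc2) b hb
    have hb_ne : Nat.beq b 0 = false := by
      cases hh : Nat.beq b 0
      · rfl
      · have := Nat.eq_of_beq_eq_true hh; omega
    simp only [hb_ne, hle, cond_false, cond_true] at hcheck
    have hb1 : b = 1 := c_beq hcheck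
    have hfe : f = tP a * wP * tP c := by
      rw [hfdef, hb1, mP_one, mul_one]
    rw [hfe]
    have hta : tP a ∈ S := by
      have : a = 0 ∨ a = 1 := by omega
      rcases this with rfl | rfl
      · rw [tP_zero]; exact S.one_mem
      · exact h1
    have htc : tP c ∈ S := by
      have : c = 0 ∨ c = 1 := by omega
      rcases this with rfl | rfl
      · rw [tP_zero]; exact S.one_mem
      · exact h1
    exact S.mul_mem (S.mul_mem hta h3) htc

end gens

end Vale.Agent.Lib.P183
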