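import Vale.Agent.Lib.P183.Prune

namespace Vale.Agent.Lib.P183

/-! A verified check for algebras made of a transitive permutation group together with all the maps
constant on the classes of `r` with image in a class of `h`. -/

/-- The data of the check for a transitive permutation algebra. -/
structure PCert where
  N : Nat
  gens : List Nat
  labs : List Nat
  bms : List Nat
  stabW : List (List Nat)
  roots : List RootData
  joinT : List Nat
  mvT : Nat
  frT : Nat

def PCert.ok (c : PCert) : Bool :=
  algP c.N c.gens c.labs c.bms c.stabW c.roots c.joinT c.mvT c.frT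

/-- The data of the check for the enlarged algebra. -/
structure GCert where
  N : Nat
  gens : List Nat
  labs : List Nat
  bms : List Nat
  mvT : Nat
  rL : Nat
  rB : Nat
  Q : PCert
  piT : Nat
  secT : Nat
  hiMap : List Nat
  Y : PCert
  iotaT : Nat
  kappaT : Nat
  wordsY : List (List Nat)
  loMap : List Nat

def GCert.xOK (c : GCert) : Bool :=
  and (Nat.blt 0 c.N) (and (c.gens.all fun t => permOK c.N t)
  (and (allN c.labs.length fun j => labOK c.N c.gens (nth c.labs j) (nth c.bms j))
  (and (labOK c.N c.gens c.rL c.rB) (mvOK c.N c.gens c.mvT))))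

def GCert.qOK (c : GCert) : Bool :=
  and (Nat.beq (getT c.piT 0) 0) (and (Nat.beq c.gens.length c.Q.gens.length)
  (and (allN c.N fun x => and (Nat.blt (getT c.piT x) c.Q.N) (allN c.gens.length fun i =>
      Nat.beq (getT c.piT (getT (nth c.gens i) x)) (getT (nth c.Q.gens i) (getT c.piT x))))
  (allN c.Q.N fun q => and (Nat.blt (getT c.secT q) c.N) (Nat.beq (getT c.piT (getT c.secT q)) q))))

def GCert.hiOK (c : GCert) : Bool := allN c.Q.labs.length fun j =>
  and (Nat.blt (nth c.hiMap j) c.labs.length) (allN c.N fun x =>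
    eqB (Nat.beq (getT (nth c.labs (nth c.hiMap j)) x) 0)
      (Nat.beq (getT (nth c.Q.labs j) (getT c.piT x)) 0))

def GCert.yOK (c : GCert) : Bool :=
  and (Nat.beq (getT c.iotaT 0) 0) (and (Nat.beq c.wordsY.length c.Y.gens.length)
  (and (c.wordsY.all fun w => wordOK c.gens w)
  (and (allN c.Y.N fun y => and (Nat.blt (getT c.iotaT y) c.N) (allN c.wordsY.length fun i =>
      Nat.beq (getT c.iotaT (getT (nth c.Y.gens i) y))
        (evalW c.gens (nthL c.wordsY i) (getT c.iotaT y))))
  (allN c.N fun x => or (not (Nat.beq (getT c.rL x) 0))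
    (and (Nat.blt (getT c.kappaT x) c.Y.N) (Nat.beq (getT c.iotaT (getT c.kappaT x)) x))))))

def GCert.loOK (c : GCert) : Bool := allN c.Y.labs.length fun j =>
  and (Nat.blt (nth c.loMap j) c.labs.length) (and (refT c.N (nth c.labs (nth c.loMap j)) c.rL)
  (allN c.Y.N fun y => eqB (Nat.beq (getT (nth c.Y.labs j) y) 0)
    (Nat.beq (getT (nth c.labs (nth c.loMap j)) (getT c.iotaT y)) 0)))

def GCert.dichOK (c : GCert) : Bool := allN c.labs.length fun j =>
  or (refT c.N (nth c.labs j) c.rL)
    (allN c.N fun x => Nat.beq (getT (nth c.labs j) x) (getT (nth c.labs j) (getT c.secT (getT c.piT x))))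

def GCert.ok (c : GCert) : Bool :=
  and c.Q.ok (and c.Y.ok (and c.xOK (and c.qOK (and c.hiOK (and c.yOK (and c.loOK c.dichOK))))))

theorem nth_eq_getElem : ∀ {l : List Nat} {i : Nat} (hi : i < l.length), nth l i = l[i] := by
  intro l
  induction l with
  | nil => intro i hi; simp at hi
  | cons a l ih =>
    intro i hi
    cases i with
    | zero => rfl
    | succ i => exact ih (by simpa using hi)

section

variable {N : Nat} {gens : List Nat}

/-- Two compatible partitions of a transitive algebra with the same class of `0` are equal. -/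
theorem setoid_eq_of_class {mvT : Nat} (hg : ∀ t ∈ gens, permOK N t = true)
    (hmv : mvOK N gens mvT = true) {θ θ' : Setoid (Fin N)}
    (h1 : CompatS gens θ) (h2 : CompatS gens θ')
    (hcl : ∀ x, x < N → (relN θ x 0 ↔ relN θ' x 0)) : θ = θ' := by
  have key : ∀ {α β : Setoid (Fin N)}, CompatS gens α → CompatS gens β →
      (∀ x, x < N → (relN α x 0 ↔ relN β x 0)) → α ≤ β := by
    intro α β hα hβ hc x y hxy
    obtain ⟨w, hw, e⟩ := move_to_zero hg hmv _ x.val x.isLt rfl
    have h3 : relN α (evalW gens w x.val) (evalW gens w y.val) :=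
      compat_word hα hw ⟨x.isLt, y.isLt, hxy⟩
    rw [e] at h3
    have hy := evalW_lt hg hw y.isLt
    have h4 : relN β (evalW gens w y.val) 0 := (hc _ hy).mp (relN_symm h3)
    have h5 : relN β (evalW gens w x.val) (evalW gens w y.val) := by
      rw [e]
      exact relN_symm h4
    obtain ⟨_, _, h6⟩ := reflect hg hβ hw x.isLt y.isLt h5
    exact h6
  apply le_antisymm
  · exact key h1 h2 hcl
  · exact key h2 h1 fun x hx => (hcl x hx).symm

theorem relN_kerT_zero {c : Nat} {x : Nat} (hN : 0 < N) (hx : x < N) (h0 : getT c 0 = 0) :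
    relN (kerT c : Setoid (Fin N)) x 0 ↔ getT c x = 0 := by
  constructor
  · rintro ⟨_, _, e⟩
    have e' : getT c x = getT c 0 := e
    rw [e', h0]
  · intro e
    refine ⟨hx, hN, ?_⟩
    show getT c x = getT c 0
    rw [e, h0]

end

theorem eqB_true_iff {a b : Bool} (h : eqB a b = true) : a = true ↔ b = true := by
  rw [eqB_spec h]

theorem beq_zero_iff {a : Nat} : Nat.beq a 0 = true ↔ a = 0 := by
  constructor
  · exact fun h => beq_true h
  · rintro rfl
    rfl

/-- A pass of the check gives a representation. -/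
theorem repMat_of_G {c : GCert} (hc : c.ok = true) :
    RepMat c.labs.length fun a b => refT c.N (nth c.labs a) (nth c.labs b) := by
  simp only [GCert.ok, Bool.and_eq_true] at hc
  obtain ⟨hQ, hY, hX, hq, hhi, hy, hlo, hdi⟩ := hc
  simp only [GCert.xOK, Bool.and_eq_true] at hX
  obtain ⟨hN0, hgens, hlabs, hrL, hmv⟩ := hX
  simp only [GCert.qOK, Bool.and_eq_true] at hq
  obtain ⟨hpi0, hglen, hpi, hsec⟩ := hq
  simp only [GCert.yOK, Bool.and_eq_true] at hy
  obtain ⟨hio0, hwlen, hwords, hio, hka⟩ := hy
  have hN : 0 < c.N := Nat.le_of_ble_eq_true hN0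
  have hg : ∀ t ∈ c.gens, permOK c.N t = true := List.all_eq_true.mp hgens
  have hrange : ∀ t ∈ c.gens, ∀ x, x < c.N → getT t x < c.N := fun t ht => (permOK_spec (hg t ht)).1
  have hlab : ∀ j, j < c.labs.length → labOK c.N c.gens (nth c.labs j) (nth c.bms j) = true :=
    fun j hj => allN_spec hlabs j hj
  have hpi0' : getT c.piT 0 = 0 := beq_true hpi0
  have hio0' : getT c.iotaT 0 = 0 := beq_true hio0
  have hpilt : ∀ x, x < c.N → getT c.piT x < c.Q.N := by
    intro x hx
    have := allN_spec hpi x hx
    simp only [Bool.and_eq_true] at this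
    exact Nat.le_of_ble_eq_true this.1
  have hpig : ∀ i, i < c.gens.length → ∀ x, x < c.N →
      getT c.piT (getT (nth c.gens i) x) = getT (nth c.Q.gens i) (getT c.piT x) := by
    intro i hi x hx
    have := allN_spec hpi x hx
    simp only [Bool.and_eq_true] at this
    exact beq_true (allN_spec this.2 i hi)
  have hseclt : ∀ q, q < c.Q.N → getT c.secT q < c.N := by
    intro q hq
    have := allN_spec hsec q hq
    simp only [Bool.and_eq_true] at this
    exact Nat.le_of_ble_eq_true this.1
  have hsecpi : ∀ q, q < c.Q.N → getT c.piT (getT c.secT q) = q := by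
    intro q hq
    have := allN_spec hsec q hq
    simp only [Bool.and_eq_true] at this
    exact beq_true this.2
  have hne : Nonempty (Fin c.N) := ⟨⟨0, hN⟩⟩
  -- the two partitions
  let r : Setoid (Fin c.N) := kerT c.rL
  let h : Setoid (Fin c.N) := Setoid.ker fun x : Fin c.N => getT c.piT x.val
  let ops0 := opsT hN c.gens
  -- the congruences
  have hcong : ∀ j, j < c.labs.length → IsCongruence (ops0 ++ pruneOps r h) (kerT (nth c.labs j)) := by
    intro j hj
    apply prune_cong_of (cong_kerT hg hN (hlab j hj))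
    have h1 := allN_spec hdi j hj
    simp only [Bool.or_eq_true] at h1
    rcases h1 with h1 | h1
    · exact Or.inl ((kerT_le_iff hg (hlab j hj)).mpr h1)
    · refine Or.inr ?_
      intro x y hxy
      have hxy' : getT c.piT x.val = getT c.piT y.val := hxy
      show getT _ x.val = getT _ y.val
      rw [beq_true (allN_spec h1 x.val x.isLt), beq_true (allN_spec h1 y.val y.isLt), hxy']
  refine ⟨Fin c.N, inferInstance, hne, ops0 ++ pruneOps r h,
    fun j => ⟨kerT (nth c.labs j.val), hcong j.val j.isLt⟩, ?_, ?_⟩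
  · rintro ⟨θ, hθ⟩
    have hbase := prune_base hθ
    have hC : CompatS c.gens θ := compat_of_cong hN hrange hbase
    rcases prune_dich hθ with hle | hle
    · -- below `r`
      have hNY : 0 < c.Y.N := by
        simp only [PCert.ok, algP, Bool.and_eq_true] at hY
        exact Nat.le_of_ble_eq_true hY.1
      have hiolt : ∀ y, y < c.Y.N → getT c.iotaT y < c.N := by
        intro y hy
        have := allN_spec hio y hy
        simp only [Bool.and_eq_true] at this
        exact Nat.le_of_ble_eq_true this.1
      let io : Fin c.Y.N → Fin c.N := fun y => ⟨getT c.iotaT y.val, hiolt y.val y.isLt⟩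
      let θY : Setoid (Fin c.Y.N) := Setoid.comap io θ
      have hrY : ∀ t ∈ c.Y.gens, ∀ x, x < c.Y.N → getT t x < c.Y.N := by
        simp only [PCert.ok, algP, Bool.and_eq_true] at hY
        have hg' := List.all_eq_true.mp hY.2.1
        exact fun t ht => (permOK_spec (hg' t ht)).1
      have hcY : IsCongruence (opsT hNY c.Y.gens) θY := by
        intro o ho x y hxy
        obtain ⟨t, ht, rfl⟩ := List.mem_map.mp ho
        obtain ⟨i, hi, rfl⟩ := List.mem_iff_getElem.mp ht
        have hnth : c.Y.gens[i] = nth c.Y.gens i := by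
          rw [nth_eq_getElem hi]
        rw [hnth]
        have hi' : i < c.wordsY.length := by
          rw [beq_true hwlen]
          exact hi
        have hwmem : nthL c.wordsY i ∈ c.wordsY := nthL_mem hi'
        have hw := List.all_eq_true.mp hwords _ hwmem
        have hxl := (x (0 : Fin 1)).isLt
        have hyl := (y (0 : Fin 1)).isLt
        have h0 : relN θ (getT c.iotaT (x (0 : Fin 1)).val) (getT c.iotaT (y (0 : Fin 1)).val) :=
          ⟨hiolt _ hxl, hiolt _ hyl, hxy (0 : Fin 1)⟩
        have h1 := compat_word hC hw h0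
        have e1 := allN_spec hio _ hxl
        have e2 := allN_spec hio _ hyl
        simp only [Bool.and_eq_true] at e1 e2
        rw [← beq_true (allN_spec e1.2 i hi'), ← beq_true (allN_spec e2.2 i hi')] at h1
        obtain ⟨_, _, h2⟩ := h1
        have hnthmem : nth c.Y.gens i ∈ c.Y.gens := nth_mem' hi
        have hlt1 := hrY _ hnthmem _ hxl
        have hlt2 := hrY _ hnthmem _ hyl
        show θ (io _) (io _)
        simp only [opT, io, Nat.mod_eq_of_lt hlt1, Nat.mod_eq_of_lt hlt2]
        exact h2
      obtain ⟨j, hj, e⟩ := cong_classifyP hY hNY θY hcY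
      have hlo1 := allN_spec hlo j hj
      simp only [Bool.and_eq_true] at hlo1
      obtain ⟨hlo2, hlo3, hlo4⟩ := hlo1
      have hilt : nth c.loMap j < c.labs.length := Nat.le_of_ble_eq_true hlo2
      refine ⟨⟨nth c.loMap j, hilt⟩, Subtype.ext ?_⟩
      show kerT (nth c.labs (nth c.loMap j)) = θ
      have hspecC := labOK_spec hg (hlab _ hilt)
      have hspecR := labOK_spec hg hrL
      -- the labelling of `Y`
      have hYlab : getT (nth c.Y.labs j) 0 = 0 := by
        simp only [PCert.ok, algP, Bool.and_eq_true] at hY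
        exact (labOK_spec (List.all_eq_true.mp hY.2.1) (allN_spec hY.2.2.2.2.1 j hj)).1
      apply setoid_eq_of_class hg hmv (compat_kerT hg (hlab _ hilt)) hC
      intro x hx
      have hker : ∀ x, x < c.N → getT c.rL x = 0 →
          getT c.kappaT x < c.Y.N ∧ getT c.iotaT (getT c.kappaT x) = x := by
        intro x hx h0
        have := allN_spec hka x hx
        simp only [Bool.or_eq_true, Bool.not_eq_true', Bool.and_eq_true] at this
        rcases this with h1 | h1
        · rw [h0] at h1
          exact absurd h1 (by decide)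
        · exact ⟨Nat.le_of_ble_eq_true h1.1, beq_true h1.2⟩
      have hθ0 : ∀ y, y < c.Y.N → (relN θ (getT c.iotaT y) 0 ↔ getT (nth c.Y.labs j) y = 0) := by
        intro y hy
        have h5 : θY ⟨y, hy⟩ ⟨0, hNY⟩ ↔ getT (nth c.Y.labs j) y = getT (nth c.Y.labs j) 0 := by
          rw [e]
          rfl
        rw [hYlab] at h5
        rw [← h5]
        constructor
        · rintro ⟨_, _, h6⟩
          show θ (io _) (io _)
          have : io ⟨0, hNY⟩ = ⟨0, hN⟩ := Fin.ext hio0'
          rw [this]
          exact h6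
        · intro h6
          have h7 : θ (io ⟨y, hy⟩) (io ⟨0, hNY⟩) := h6
          have : io ⟨0, hNY⟩ = ⟨0, hN⟩ := Fin.ext hio0'
          rw [this] at h7
          exact ⟨hiolt y hy, hN, h7⟩
      rw [relN_kerT_zero hN hx hspecC.1]
      constructor
      · intro h0
        have hc0 : getT (nth c.labs (nth c.loMap j)) x = getT (nth c.labs (nth c.loMap j)) 0 := by
          rw [h0, hspecC.1]
        have hle2 : (kerT (nth c.labs (nth c.loMap j)) : Setoid (Fin c.N)) ≤ kerT c.rL :=
          (kerT_le_iff hg (hlab _ hilt)).mpr hlo3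
        have hr0 : getT c.rL x = getT c.rL 0 := @hle2 ⟨x, hx⟩ ⟨0, hN⟩ hc0
        rw [hspecR.1] at hr0
        obtain ⟨k1, k2⟩ := hker x hx hr0
        have h8 := eqB_true_iff (allN_spec hlo4 _ k1)
        rw [k2, beq_zero_iff, beq_zero_iff] at h8
        have h9 := (hθ0 _ k1).mpr (h8.mpr h0)
        rwa [k2] at h9
      · intro h0
        obtain ⟨_, _, h1⟩ := h0
        have hr0 : getT c.rL x = getT c.rL 0 := hle h1
        rw [hspecR.1] at hr0
        obtain ⟨k1, k2⟩ := hker x hx hr0
        have h8 := eqB_true_iff (allN_spec hlo4 _ k1)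
        rw [k2, beq_zero_iff, beq_zero_iff] at h8
        apply h8.mp
        apply (hθ0 _ k1).mp
        rw [k2]
        exact ⟨hx, hN, h1⟩
    · -- above `h`
      have hNQ : 0 < c.Q.N := by
        simp only [PCert.ok, algP, Bool.and_eq_true] at hQ
        exact Nat.le_of_ble_eq_true hQ.1
      let se : Fin c.Q.N → Fin c.N := fun q => ⟨getT c.secT q.val, hseclt q.val q.isLt⟩
      let θQ : Setoid (Fin c.Q.N) := Setoid.comap se θ
      have hsame : ∀ x y : Fin c.N, getT c.piT x.val = getT c.piT y.val → θ x y := by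
        intro x y e
        exact hle e
      have hrQ : ∀ t ∈ c.Q.gens, ∀ x, x < c.Q.N → getT t x < c.Q.N := by
        simp only [PCert.ok, algP, Bool.and_eq_true] at hQ
        have hg' := List.all_eq_true.mp hQ.2.1
        exact fun t ht => (permOK_spec (hg' t ht)).1
      have hglen' : c.gens.length = c.Q.gens.length := beq_true hglen
      have hcQ : IsCongruence (opsT hNQ c.Q.gens) θQ := by
        intro o ho x y hxy
        obtain ⟨t, ht, rfl⟩ := List.mem_map.mp ho
        obtain ⟨i, hi, rfl⟩ := List.mem_iff_getElem.mp ht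
        have hnth : c.Q.gens[i] = nth c.Q.gens i := by
          rw [nth_eq_getElem hi]
        rw [hnth]
        have hi' : i < c.gens.length := by
          rw [hglen']
          exact hi
        have hxl := (x (0 : Fin 1)).isLt
        have hyl := (y (0 : Fin 1)).isLt
        have hnthmem : nth c.Q.gens i ∈ c.Q.gens := nth_mem' hi
        have hlt1 := hrQ _ hnthmem _ hxl
        have hlt2 := hrQ _ hnthmem _ hyl
        -- apply the generator to the section
        have hgm : nth c.gens i ∈ c.gens := nth_mem' hi'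
        have h0 : relN θ (getT c.secT (x (0 : Fin 1)).val) (getT c.secT (y (0 : Fin 1)).val) :=
          ⟨hseclt _ hxl, hseclt _ hyl, hxy (0 : Fin 1)⟩
        obtain ⟨a1, a2, h1⟩ := hC _ hgm _ _ h0
        have e1 : getT c.piT (getT (nth c.gens i) (getT c.secT (x (0 : Fin 1)).val)) =
            getT c.piT (getT c.secT (getT (nth c.Q.gens i) (x (0 : Fin 1)).val)) := by
          rw [hpig i hi' _ (hseclt _ hxl), hsecpi _ hxl, hsecpi _ hlt1]
        have e2 : getT c.piT (getT (nth c.gens i) (getT c.secT (y (0 : Fin 1)).val)) =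
            getT c.piT (getT c.secT (getT (nth c.Q.gens i) (y (0 : Fin 1)).val)) := by
          rw [hpig i hi' _ (hseclt _ hyl), hsecpi _ hyl, hsecpi _ hlt2]
        have h2 := hsame ⟨_, a1⟩ ⟨_, hseclt _ hlt1⟩ e1
        have h3 := hsame ⟨_, a2⟩ ⟨_, hseclt _ hlt2⟩ e2
        have h4 := θ.trans (θ.trans (θ.symm h2) h1) h3
        show θ (se _) (se _)
        simp only [opT, se, Nat.mod_eq_of_lt hlt1, Nat.mod_eq_of_lt hlt2]
        exact h4
      obtain ⟨j, hj, e⟩ := cong_classifyP hQ hNQ θQ hcQ
      have hhi1 := allN_spec hhi j hj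
      simp only [Bool.and_eq_true] at hhi1
      obtain ⟨hhi2, hhi3⟩ := hhi1
      have hilt : nth c.hiMap j < c.labs.length := Nat.le_of_ble_eq_true hhi2
      refine ⟨⟨nth c.hiMap j, hilt⟩, Subtype.ext ?_⟩
      show kerT (nth c.labs (nth c.hiMap j)) = θ
      have hspecC := labOK_spec hg (hlab _ hilt)
      have hQlab : getT (nth c.Q.labs j) 0 = 0 := by
        simp only [PCert.ok, algP, Bool.and_eq_true] at hQ
        exact (labOK_spec (List.all_eq_true.mp hQ.2.1) (allN_spec hQ.2.2.2.2.1 j hj)).1
      apply setoid_eq_of_class hg hmv (compat_kerT hg (hlab _ hilt)) hC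
      intro x hx
      rw [relN_kerT_zero hN hx hspecC.1]
      have h8 := eqB_true_iff (allN_spec hhi3 x hx)
      rw [beq_zero_iff, beq_zero_iff] at h8
      rw [h8]
      have hpx := hpilt x hx
      have h5 : θQ ⟨getT c.piT x, hpx⟩ ⟨0, hNQ⟩ ↔
          getT (nth c.Q.labs j) (getT c.piT x) = getT (nth c.Q.labs j) 0 := by
        rw [e]
        rfl
      rw [hQlab] at h5
      rw [← h5]
      have hs1 : θ ⟨x, hx⟩ (se ⟨getT c.piT x, hpx⟩) := by
        apply hsame
        simp only [se]
        rw [hsecpi _ hpx]
      have hs0 : θ ⟨0, hN⟩ (se ⟨0, hNQ⟩) := by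
        apply hsame
        simp only [se]
        rw [hsecpi _ hNQ, hpi0']
      constructor
      · intro h6
        have h7 : θ (se ⟨getT c.piT x, hpx⟩) (se ⟨0, hNQ⟩) := h6
        exact ⟨hx, hN, θ.trans (θ.trans hs1 h7) (θ.symm hs0)⟩
      · rintro ⟨_, _, h6⟩
        show θ (se _) (se _)
        exact θ.trans (θ.trans (θ.symm hs1) h6) hs0
  · intro a b
    exact kerT_le_iff hg (hlab a.val a.isLt)

/-- The check for a numbered lattice. -/
theorem repG_of_check (i : Nat) (c : GCert) (h1 : c.ok = true) (h2 : checkMatP i c.N c.labs = true) :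
    RepMat (szOf i) (matOf (codeOf i)) := by
  simp only [checkMatP, Bool.and_eq_true] at h2
  have h3 := repMat_of_G h1
  rw [beq_true h2.1] at h3
  exact h3.congr fun a b ha hb => eqB_spec (allN_spec (allN_spec h2.2 a ha) b hb)

end Vale.Agent.Lib.P183
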