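import Vale.Agent.Lib.P183.F64

namespace Vale.Agent.Lib.P183

open Equiv

/-- Bounded universal check on natural numbers. -/
def allB : Nat → (Nat → Bool) → Bool
  | 0, _ => true
  | n + 1, p => and (p n) (allB n p)

theorem allB_spec : ∀ (n : Nat) (p : Nat → Bool), allB n p = true → ∀ i, i < n → p i = true := by
  intro n
  induction n with
  | zero => intro p _ i hi; omega
  | succ n ih =>
    intro p h i hi
    simp only [allB, Bool.and_eq_true] at h
    rcases Nat.lt_succ_iff_lt_or_eq.mp hi with h1 | h1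
    · exact ih p h.2 i h1
    · rw [h1]; exact h.1

theorem perm_ext_val {f g : Perm (Fin 65)} (h : ∀ x : Fin 65, (f x).val = (g x).val) : f = g :=
  Equiv.ext fun x => Fin.ext (h x)

theorem perm_ext_check {f g : Perm (Fin 65)}
    (h : allB 65 (fun x => if hx : x < 65 then Nat.beq (f ⟨x, hx⟩).val (g ⟨x, hx⟩).val else true) = true) :
    f = g := by
  apply perm_ext_val
  intro x
  have := allB_spec _ _ h x.val x.isLt
  simp only [x.isLt, dif_pos] at this
  exact Nat.eq_of_beq_eq_true this

theorem c_beq {a b : Nat} (h : Nat.beq a b = true) : a = b := Nat.eq_of_beq_eq_true h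

theorem blt_spec {a b : Nat} (h : Nat.blt a b = true) : a < b := Nat.le_of_ble_eq_true h

/-! Small table checks. -/

def c1 : Bool := allB 63 fun k => allB 65 fun x =>
  Nat.beq (mN (nz (ex (k + 1))) x) (mN (nz (ex k)) (mN (nz 2) x))
theorem c1_ok : c1 = true := by decide +kernel

def c2 : Bool := allB 64 fun c => allB 65 fun x =>
  Nat.beq (mN (nz 2) (tN (c % 64) x)) (tN (mulN 2 c % 64) (mN (nz 2) x))
theorem c2_ok : c2 = true := by decide +kernel

def c3 : Bool := allB 63 fun k => allB 64 fun c =>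
  Nat.beq (mulN (ex k) (mulN 2 c)) (mulN (ex (k + 1)) c)
theorem c3_ok : c3 = true := by decide +kernel

def c4 : Bool := allB 64 fun d => cond (Nat.beq d 0) true (allB 65 fun x =>
  Nat.beq (mN (nz 2) (mN (nz d) x)) (mN (nz (mulN 2 d)) x))
theorem c4_ok : c4 = true := by decide +kernel

def c5 : Bool := allB 64 fun d => cond (Nat.beq d 0) true (allB 65 fun x =>
  Nat.beq (wN (mN (nz d) x)) (mN (nz (invN d)) (wN x)))
theorem c5_ok : c5 = true := by decide +kernel

def c6 : Bool := allB 64 fun c => cond (Nat.beq c 0) true (allB 65 fun x =>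
  Nat.beq (wN (tN (c % 64) (wN x)))
    (tN (invN c % 64) (mN (nz (mulN (invN c) (invN c))) (wN (tN (invN c % 64) x)))))
theorem c6_ok : c6 = true := by decide +kernel

/-- Facts about values of the arithmetic. -/
def c7 : Bool := allB 64 fun b =>
  and (Nat.ble (mulN 2 b) 63) (and (Nat.ble (invN b) 63) (Nat.ble (lg b) 62))
theorem c7_ok : c7 = true := by decide +kernel

def c8 : Bool := allB 64 fun b => cond (Nat.beq b 0) true
  (and (Nat.beq (ex (lg b)) b)
  (and (Nat.blt 0 (mulN 2 b))
  (and (Nat.blt 0 (invN b))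
  (and (Nat.beq (mulN b 1) b)
  (Nat.beq (nz b) b)))))
theorem c8_ok : c8 = true := by decide +kernel

def c9 : Bool := allB 64 fun k => and (Nat.blt 0 (ex k)) (Nat.ble (ex k) 63)
theorem c9_ok : c9 = true := by decide +kernel

def c10 : Bool := allB 64 fun b => cond (Nat.beq b 0) true (allB 64 fun c =>
  and (Nat.ble (mulN b c) 63)
  (and (Nat.beq (mulN b (mulN (invN b) c)) c)
  (cond (Nat.beq c 0) true (Nat.blt 0 (mulN b c)))))
theorem c10_ok : c10 = true := by decide +kernel

theorem mul2_lt {c : Nat} (hc : c < 64) : mulN 2 c < 64 := by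
  have h := allB_spec _ _ c7_ok c hc
  simp only [Bool.and_eq_true] at h
  have := Nat.le_of_ble_eq_true h.1
  omega

theorem invN_lt {c : Nat} (hc : c < 64) : invN c < 64 := by
  have h := allB_spec _ _ c7_ok c hc
  simp only [Bool.and_eq_true] at h
  have := Nat.le_of_ble_eq_true h.2.1
  omega

theorem lg_lt {b : Nat} (hb : b < 64) : lg b < 63 := by
  have h := allB_spec _ _ c7_ok b hb
  simp only [Bool.and_eq_true] at h
  have := Nat.le_of_ble_eq_true h.2.2
  omega

theorem c8_spec {b : Nat} (hb : b < 64) (h0 : 0 < b) :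
    ex (lg b) = b ∧ 0 < mulN 2 b ∧ 0 < invN b ∧ mulN b 1 = b ∧ nz b = b := by
  have h := allB_spec _ _ c8_ok b hb
  have hne : Nat.beq b 0 = false := by
    cases hh : Nat.beq b 0
    · rfl
    · have := Nat.eq_of_beq_eq_true hh; omega
  simp only [hne, cond_false, Bool.and_eq_true] at h
  exact ⟨c_beq h.1, blt_spec h.2.1, blt_spec h.2.2.1,
    c_beq h.2.2.2.1, c_beq h.2.2.2.2⟩

theorem ex_pos_lt {k : Nat} (hk : k < 64) : 0 < ex k ∧ ex k < 64 := by
  have h := allB_spec _ _ c9_ok k hk
  simp only [Bool.and_eq_true] at h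
  have h1 := blt_spec h.1
  have h2 := Nat.le_of_ble_eq_true h.2
  omega

theorem c10_spec {b c : Nat} (hb : b < 64) (h0 : 0 < b) (hc : c < 64) :
    mulN b c < 64 ∧ mulN b (mulN (invN b) c) = c ∧ (0 < c → 0 < mulN b c) := by
  have h := allB_spec _ _ c10_ok b hb
  have hne : Nat.beq b 0 = false := by
    cases hh : Nat.beq b 0
    · rfl
    · have := Nat.eq_of_beq_eq_true hh; omega
  simp only [hne, cond_false] at h
  have h2 := allB_spec _ _ h c hc
  simp only [Bool.and_eq_true] at h2
  refine ⟨?_, c_beq h2.2.1, ?_⟩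
  · have := Nat.le_of_ble_eq_true h2.1; omega
  · intro hc0
    have hne2 : Nat.beq c 0 = false := by
      cases hh : Nat.beq c 0
      · rfl
      · have := Nat.eq_of_beq_eq_true hh; omega
    have h3 := h2.2.2
    simp only [hne2, cond_false] at h3
    exact blt_spec h3

/-! Identities between the maps. -/

theorem tP_mul_tP (a c : Nat) (ha : a < 64) (hc : c < 64) :
    tP a * tP c = tP (Nat.xor a c) := by
  apply perm_ext_val
  intro x
  have hx : x.val = 64 ∨ x.val < 64 := by have := x.isLt; omega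
  simp only [Perm.mul_apply, tP_val, Nat.mod_eq_of_lt ha, Nat.mod_eq_of_lt hc]
  have hac : Nat.xor a c < 64 := Nat.xor_lt_two_pow (n := 6) ha hc
  rw [Nat.mod_eq_of_lt hac]
  rcases hx with hx | hx
  · simp [tN, hx]
  · have hxc : Nat.xor x.val c < 64 := Nat.xor_lt_two_pow (n := 6) hx hc
    have h1 : Nat.beq x.val 64 = false := by
      cases hh : Nat.beq x.val 64
      · rfl
      · have := Nat.eq_of_beq_eq_true hh; omega
    have h2 : Nat.beq (Nat.xor x.val c) 64 = false := by
      cases hh : Nat.beq (Nat.xor x.val c) 64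
      · rfl
      · have := Nat.eq_of_beq_eq_true hh; omega
    simp only [tN, h1, h2, cond_false]
    show (x.val ^^^ c) ^^^ a = x.val ^^^ (a ^^^ c)
    rw [Nat.xor_assoc, Nat.xor_comm c a]

theorem tP_zero : tP 0 = 1 := by
  apply perm_ext_val
  intro x
  have hx : x.val = 64 ∨ x.val < 64 := by have := x.isLt; omega
  simp only [tP_val, Perm.one_apply]
  rcases hx with hx | hx
  · simp [tN, hx]
  · have h1 : Nat.beq x.val 64 = false := by
      cases hh : Nat.beq x.val 64
      · rfl
      · have := Nat.eq_of_beq_eq_true hh; omega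
    simp only [tN, h1, cond_false]
    show x.val ^^^ 0 = x.val
    simp

theorem tP_inv (a : Nat) : (tP a)⁻¹ = tP a := rfl

theorem wP_inv : wP⁻¹ = wP := rfl

theorem wP_mul_wP : wP * wP = 1 := by
  apply perm_ext_val
  intro x
  exact wN_wN' x

theorem mP_one : mP 1 = 1 := by
  apply perm_ext_check
  decide +kernel

theorem mP_inv' (b : Nat) (hb : b < 64) (h0 : 0 < b) : (mP b)⁻¹ = mP (invN b) := by
  have h1 := (c8_spec hb h0)
  have h2 := (c8_spec (invN_lt hb) h1.2.2.1)
  apply perm_ext_val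
  intro x
  rw [mP_val, h2.2.2.2.2]
  show (mN (invN (nz b)) x.val) = _
  rw [h1.2.2.2.2]

theorem m_step (k : Nat) (hk : k < 63) : mP (ex (k + 1)) = mP (ex k) * mP 2 := by
  apply perm_ext_val
  intro x
  have h := allB_spec _ _ c1_ok k hk
  exact c_beq (allB_spec _ _ h x.val x.isLt)

theorem m_comm_t : ∀ (k : Nat), k ≤ 63 → ∀ c : Nat, c < 64 →
    mP (ex k) * tP c = tP (mulN (ex k) c) * mP (ex k) := by
  intro k
  induction k with
  | zero =>
    intro _ c hc
    have h1 : ex 0 = 1 := by decide +kernel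
    have h2 : mulN 1 c = c := by
      have h3 := allB_spec _ _ (show (allB 64 fun c => Nat.beq (mulN 1 c) c) = true by decide +kernel) c hc
      exact c_beq h3
    rw [h1, h2, mP_one]; simp
  | succ k ih =>
    intro hk c hc
    have h2 : mP 2 * tP c = tP (mulN 2 c) * mP 2 := by
      apply perm_ext_val
      intro x
      exact c_beq (allB_spec _ _ (allB_spec _ _ c2_ok c hc) x.val x.isLt)
    have h3 : mulN (ex k) (mulN 2 c) = mulN (ex (k + 1)) c :=
      c_beq (allB_spec _ _ (allB_spec _ _ c3_ok k (by omega)) c hc)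
    rw [m_step k (by omega), mul_assoc, h2, ← mul_assoc, ih (by omega) _ (mul2_lt hc), h3, mul_assoc]

theorem m_comm_t' (b c : Nat) (hb : b < 64) (h0 : 0 < b) (hc : c < 64) :
    mP b * tP c = tP (mulN b c) * mP b := by
  have h := (c8_spec hb h0).1
  have := m_comm_t (lg b) (by have := lg_lt hb; omega) c hc
  rwa [h] at this

theorem m_mul : ∀ (k : Nat), k ≤ 63 → ∀ d : Nat, d < 64 → 0 < d →
    mP (ex k) * mP d = mP (mulN (ex k) d) := by
  intro k
  induction k with
  | zero =>
    intro _ d hd hd0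
    have h1 : ex 0 = 1 := by decide +kernel
    have h2 : mulN 1 d = d := by
      have h3 := allB_spec _ _ (show (allB 64 fun c => Nat.beq (mulN 1 c) c) = true by decide +kernel) d hd
      exact c_beq h3
    rw [h1, h2, mP_one]; simp
  | succ k ih =>
    intro hk d hd hd0
    have h2 : mP 2 * mP d = mP (mulN 2 d) := by
      apply perm_ext_val
      intro x
      have h4 := allB_spec _ _ c4_ok d hd
      have hne : Nat.beq d 0 = false := by
        cases hh : Nat.beq d 0
        · rfl
        · have := Nat.eq_of_beq_eq_true hh; omega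
      simp only [hne, cond_false] at h4
      exact c_beq (allB_spec _ _ h4 x.val x.isLt)
    have h3 : mulN (ex k) (mulN 2 d) = mulN (ex (k + 1)) d :=
      c_beq (allB_spec _ _ (allB_spec _ _ c3_ok k (by omega)) d hd)
    rw [m_step k (by omega), mul_assoc, h2, ih (by omega) _ (mul2_lt hd) (c8_spec hd hd0).2.1, h3]

theorem m_mul' (b d : Nat) (hb : b < 64) (h0 : 0 < b) (hd : d < 64) (hd0 : 0 < d) :
    mP b * mP d = mP (mulN b d) := by
  have h := (c8_spec hb h0).1
  have := m_mul (lg b) (by have := lg_lt hb; omega) d hd hd0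
  rwa [h] at this

theorem w_m (d : Nat) (hd : d < 64) (hd0 : 0 < d) : wP * mP d = mP (invN d) * wP := by
  apply perm_ext_val
  intro x
  have h4 := allB_spec _ _ c5_ok d hd
  have hne : Nat.beq d 0 = false := by
    cases hh : Nat.beq d 0
    · rfl
    · have := Nat.eq_of_beq_eq_true hh; omega
  simp only [hne, cond_false] at h4
  exact c_beq (allB_spec _ _ h4 x.val x.isLt)

theorem w_t_w (c : Nat) (hc : c < 64) (hc0 : 0 < c) :
    wP * tP c * wP = tP (invN c) * mP (mulN (invN c) (invN c)) * wP * tP (invN c) := by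
  apply perm_ext_val
  intro x
  have h4 := allB_spec _ _ c6_ok c hc
  have hne : Nat.beq c 0 = false := by
    cases hh : Nat.beq c 0
    · rfl
    · have := Nat.eq_of_beq_eq_true hh; omega
  simp only [hne, cond_false] at h4
  exact c_beq (allB_spec _ _ h4 x.val x.isLt)

/-- Normal forms of Moebius maps over the field with 64 elements. -/
def IsMob (f : Perm (Fin 65)) : Prop :=
  (∃ a b, a < 64 ∧ 0 < b ∧ b < 64 ∧ f = tP a * mP b) ∨
  (∃ a b c, a < 64 ∧ 0 < b ∧ b < 64 ∧ c < 64 ∧ f = tP a * mP b * wP * tP c)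

theorem isMob_one : IsMob 1 := by
  left
  refine ⟨0, 1, by norm_num, by norm_num, by norm_num, ?_⟩
  rw [tP_zero, mP_one]; simp

theorem isMob_mul_t1 {f : Perm (Fin 65)} (hf : IsMob f) : IsMob (f * tP 1) := by
  rcases hf with ⟨a, b, ha, hb0, hb, rfl⟩ | ⟨a, b, c, ha, hb0, hb, hc, rfl⟩
  · left
    refine ⟨Nat.xor a b, b, Nat.xor_lt_two_pow (n := 6) ha hb, hb0, hb, ?_⟩
    rw [mul_assoc, m_comm_t' b 1 hb hb0 (by norm_num), (c8_spec hb hb0).2.2.2.1, ← mul_assoc,
      tP_mul_tP a b ha hb]
  · right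
    refine ⟨a, b, Nat.xor c 1, ha, hb0, hb, Nat.xor_lt_two_pow (n := 6) hc (by norm_num), ?_⟩
    rw [mul_assoc, tP_mul_tP c 1 hc (by norm_num)]

theorem isMob_mul_m {f : Perm (Fin 65)} (hf : IsMob f) (d : Nat) (hd : d < 64) (hd0 : 0 < d) :
    IsMob (f * mP d) := by
  have hi := invN_lt hd
  have hi0 := (c8_spec hd hd0).2.2.1
  rcases hf with ⟨a, b, ha, hb0, hb, rfl⟩ | ⟨a, b, c, ha, hb0, hb, hc, rfl⟩
  · left
    have h1 := c10_spec hb hb0 hd
    refine ⟨a, mulN b d, ha, h1.2.2 hd0, h1.1, ?_⟩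
    rw [mul_assoc, m_mul' b d hb hb0 hd hd0]
  · right
    have h1 := c10_spec hb hb0 hi
    have h2 := c10_spec hi hi0 hc
    have h3 := c10_spec hd hd0 hc
    refine ⟨a, mulN b (invN d), mulN (invN d) c, ha, h1.2.2 hi0, h1.1, h2.1, ?_⟩
    have e1 : tP c * mP d = mP d * tP (mulN (invN d) c) := by
      rw [m_comm_t' d (mulN (invN d) c) hd hd0 h2.1, h3.2.1]
    calc tP a * mP b * wP * tP c * mP d
        = tP a * mP b * wP * (tP c * mP d) := by group
      _ = tP a * mP b * (wP * mP d) * tP (mulN (invN d) c) := by rw [e1]; group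
      _ = tP a * (mP b * mP (invN d)) * wP * tP (mulN (invN d) c) := by rw [w_m d hd hd0]; group
      _ = _ := by rw [m_mul' b (invN d) hb hb0 hi hi0]

theorem isMob_mul_w {f : Perm (Fin 65)} (hf : IsMob f) : IsMob (f * wP) := by
  rcases hf with ⟨a, b, ha, hb0, hb, rfl⟩ | ⟨a, b, c, ha, hb0, hb, hc, rfl⟩
  · right
    refine ⟨a, b, 0, ha, hb0, hb, by norm_num, ?_⟩
    rw [tP_zero]; simp
  · rcases Nat.eq_zero_or_pos c with rfl | hc0
    · left
      refine ⟨a, b, ha, hb0, hb, ?_⟩
      rw [tP_zero, mul_one, mul_assoc, wP_mul_wP, mul_one]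
    · right
      have hu := invN_lt hc
      have hu0 := (c8_spec hc hc0).2.2.1
      have h1 := c10_spec hb hb0 hu
      have h2 := c10_spec hu hu0 hu
      have h3 := c10_spec hb hb0 h2.1
      have huu0 : 0 < mulN (invN c) (invN c) := h2.2.2 hu0
      refine ⟨Nat.xor a (mulN b (invN c)), mulN b (mulN (invN c) (invN c)), invN c,
        Nat.xor_lt_two_pow (n := 6) ha h1.1, h3.2.2 huu0, h3.1, hu, ?_⟩
      calc tP a * mP b * wP * tP c * wP
          = tP a * mP b * (wP * tP c * wP) := by group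
        _ = tP a * (mP b * tP (invN c)) * mP (mulN (invN c) (invN c)) * wP * tP (invN c) := by
            rw [w_t_w c hc hc0]; group
        _ = (tP a * tP (mulN b (invN c))) * (mP b * mP (mulN (invN c) (invN c))) * wP * tP (invN c) := by
            rw [m_comm_t' b (invN c) hb hb0 hu]; group
        _ = _ := by rw [tP_mul_tP a _ ha h1.1, m_mul' b _ hb hb0 h2.1 huu0]

/-- The group generated by `x ↦ x + 1`, `x ↦ 2 x` and `x ↦ 1 / x`. -/
def Mob : Subgroup (Perm (Fin 65)) := Subgroup.closure {tP 1, mP 2, wP}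

theorem isMob_of_mem {f : Perm (Fin 65)} (hf : f ∈ Mob) : IsMob f := by
  induction hf using Subgroup.closure_induction_right with
  | one => exact isMob_one
  | mul_right x _ y hy ih =>
    rcases hy with rfl | rfl | rfl
    · exact isMob_mul_t1 ih
    · exact isMob_mul_m ih 2 (by norm_num) (by norm_num)
    · exact isMob_mul_w ih
  | mul_inv_cancel x _ y hy ih =>
    rcases hy with rfl | rfl | rfl
    · rw [tP_inv]; exact isMob_mul_t1 ih
    · rw [mP_inv' 2 (by norm_num) (by norm_num)]
      exact isMob_mul_m ih _ (invN_lt (by norm_num)) (c8_spec (by norm_num) (by norm_num)).2.2.1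
    · rw [wP_inv]; exact isMob_mul_w ih

end Vale.Agent.Lib.P183
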