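import Vale.Agent.Lib.P183.Mob

namespace Vale.Agent.Lib.P183

open Equiv

/-- Three-element subsets of the projective line over the field with 64 elements. -/
abbrev Om : Type := {s : Finset (Fin 65) // s.card = 3}

instance : MulAction (Perm (Fin 65)) Om where
  smul f s := ⟨s.1.map f.toEmbedding, by rw [Finset.card_map]; exact s.2⟩
  one_smul s := by
    apply Subtype.ext
    show s.1.map (1 : Perm (Fin 65)).toEmbedding = s.1
    ext x
    constructor
    · intro h
      obtain ⟨y, hy, rfl⟩ := Finset.mem_map.mp h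
      exact hy
    · intro h
      exact Finset.mem_map.mpr ⟨x, h, rfl⟩
  mul_smul f g s := by
    apply Subtype.ext
    show s.1.map (f * g).toEmbedding = (s.1.map g.toEmbedding).map f.toEmbedding
    rw [Finset.map_map]
    rfl

theorem smul_val (f : Perm (Fin 65)) (s : Om) : (f • s).1 = s.1.map f.toEmbedding := rfl

/-- The base point: the set `{0, 1, ∞}`. -/
def t0 : Om := ⟨{0, 1, 64}, by decide⟩

/-- The set `{x, y, z}` of `Om` (the base point when the three are not distinct). -/
def om (x y z : Fin 65) : Om :=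
  if h : ({x, y, z} : Finset (Fin 65)).card = 3 then ⟨{x, y, z}, h⟩ else t0

theorem card_three {x y z : Fin 65} (h1 : x ≠ y) (h2 : x ≠ z) (h3 : y ≠ z) :
    ({x, y, z} : Finset (Fin 65)).card = 3 := Finset.card_eq_three.mpr ⟨x, y, z, h1, h2, h3, rfl⟩

theorem om_val {x y z : Fin 65} (h1 : x ≠ y) (h2 : x ≠ z) (h3 : y ≠ z) :
    (om x y z).1 = {x, y, z} := by
  unfold om
  rw [dif_pos (card_three h1 h2 h3)]

theorem smul_om (f : Perm (Fin 65)) {x y z : Fin 65} (h1 : x ≠ y) (h2 : x ≠ z) (h3 : y ≠ z) :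
    f • om x y z = om (f x) (f y) (f z) := by
  apply Subtype.ext
  rw [smul_val, om_val h1 h2 h3, om_val (f.injective.ne h1) (f.injective.ne h2) (f.injective.ne h3)]
  ext u
  simp

theorem om_swap12 (x y z : Fin 65) : om x y z = om y x z := by
  unfold om
  have : ({x, y, z} : Finset (Fin 65)) = {y, x, z} := by ext u; simp; tauto
  simp only [this]

theorem om_swap23 (x y z : Fin 65) : om x y z = om x z y := by
  unfold om
  have : ({x, y, z} : Finset (Fin 65)) = {x, z, y} := by ext u; simp; tauto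
  simp only [this]

/-- The element of `Om` given by three natural numbers. -/
def omN (a b c : Nat) : Om := om (Fin.ofNat 65 a) (Fin.ofNat 65 b) (Fin.ofNat 65 c)

theorem fin_ofNat_val {a : Nat} (h : a < 65) : (Fin.ofNat 65 a).val = a := by
  simp [Fin.ofNat, Nat.mod_eq_of_lt h]

theorem ofNat_ne {a b : Nat} (ha : a < 65) (hb : b < 65) (h : a ≠ b) :
    Fin.ofNat 65 a ≠ Fin.ofNat 65 b := by
  intro e
  apply h
  have := congrArg Fin.val e
  rwa [fin_ofNat_val ha, fin_ofNat_val hb] at this

theorem ofNat_val (x : Fin 65) : Fin.ofNat 65 x.val = x := by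
  apply Fin.ext
  exact fin_ofNat_val x.isLt

/-- Action on `omN`, in terms of the values of the permutation on natural numbers. -/
theorem smul_omN (f : Perm (Fin 65)) {a b c : Nat} (ha : a < 65) (hb : b < 65) (hc : c < 65)
    (h1 : a ≠ b) (h2 : a ≠ c) (h3 : b ≠ c) :
    f • omN a b c = omN (f (Fin.ofNat 65 a)).val (f (Fin.ofNat 65 b)).val (f (Fin.ofNat 65 c)).val := by
  unfold omN
  rw [smul_om f (ofNat_ne ha hb h1) (ofNat_ne ha hc h2) (ofNat_ne hb hc h3)]
  simp only [ofNat_val]

theorem t0_eq : t0 = omN 0 1 64 := by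
  apply Subtype.ext
  unfold omN
  rw [om_val (by decide) (by decide) (by decide)]
  rfl

/-- Every element of `Om` is given by a sorted triple. -/
theorem om_sorted (s : Om) : ∃ a b c : Nat, a < b ∧ b < c ∧ c < 65 ∧ s = omN a b c := by
  obtain ⟨x, y, z, h1, h2, h3, hs⟩ := Finset.card_eq_three.mp s.2
  have key : ∀ p q r : Fin 65, p.val < q.val → q.val < r.val → s = om p q r →
      ∃ a b c : Nat, a < b ∧ b < c ∧ c < 65 ∧ s = omN a b c := by
    intro p q r hpq hqr h
    refine ⟨p.val, q.val, r.val, hpq, hqr, r.isLt, ?_⟩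
    unfold omN
    simp only [ofNat_val]
    exact h
  have e : s = om x y z := by
    apply Subtype.ext
    rw [om_val h1 h2 h3, hs]
  have hxy : x.val ≠ y.val := fun h => h1 (Fin.ext h)
  have hxz : x.val ≠ z.val := fun h => h2 (Fin.ext h)
  have hyz : y.val ≠ z.val := fun h => h3 (Fin.ext h)
  rcases Nat.lt_or_gt_of_ne hxy with a1 | a1 <;> rcases Nat.lt_or_gt_of_ne hxz with a2 | a2 <;>
    rcases Nat.lt_or_gt_of_ne hyz with a3 | a3
  · exact key x y z a1 a3 e
  · exact key x z y a2 a3 (e.trans (om_swap23 _ _ _))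
  · omega
  · exact key z x y a2 a1 (e.trans ((om_swap23 _ _ _).trans (om_swap12 _ _ _)))
  · exact key y x z a1 a2 (e.trans (om_swap12 _ _ _))
  · omega
  · exact key y z x a3 a2 (e.trans ((om_swap12 _ _ _).trans (om_swap23 _ _ _)))
  · exact key z y x a3 a1 (e.trans ((om_swap23 _ _ _).trans ((om_swap12 _ _ _).trans (om_swap23 _ _ _))))

end Vale.Agent.Lib.P183
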