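import Vale.Agent.Lib.P183.Defs

namespace Vale.Agent.Lib.P183

/-! Representable lattices are closed under ordinal sums (gluing top to bottom). -/

section ordinal

variable {A B : Type}

/-- The relation on `B × A`: same fibre, and `α`-related in the fibre. -/
def lowerC (α : Setoid A) : Setoid (B × A) where
  r x y := x.1 = y.1 ∧ α x.2 y.2
  iseqv := ⟨fun _ => ⟨rfl, α.refl _⟩, fun h => ⟨h.1.symm, α.symm h.2⟩,
    fun h1 h2 => ⟨h1.1.trans h2.1, α.trans h1.2 h2.2⟩⟩

/-- The relation on `B × A`: `β`-related fibres. -/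
def upperC (β : Setoid B) : Setoid (B × A) where
  r x y := β x.1 y.1
  iseqv := ⟨fun _ => β.refl _, fun h => β.symm h, fun h1 h2 => β.trans h1 h2⟩

/-- Lift of an operation of `A`. -/
def liftA (o : Operation A) : Operation (B × A) :=
  ⟨o.1 + 1, fun x => ((x 0).1, o.2 fun i => (x i.succ).2)⟩

/-- Lift of an operation of `B`. -/
def liftB (o : Operation B) : Operation (B × A) :=
  ⟨o.1 + 1, fun x => (o.2 fun i => (x i.succ).1, (x 0).2)⟩

/-- Transfer to a given fibre. -/
def tau (b : B) : Operation (B × A) := ⟨1, fun x => (b, (x 0).2)⟩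

/-- Collapse to a given fibre, by a map on the fibre indices. -/
def sigmaC (p : B × (B → A)) : Operation (B × A) := ⟨1, fun x => (p.1, p.2 (x 0).1)⟩

/-- The operations of the glued algebra. -/
noncomputable def opsC [Fintype B] [Fintype A] [DecidableEq B] (oa : List (Operation A))
    (ob : List (Operation B)) : List (Operation (B × A)) :=
  oa.map liftA ++ ob.map liftB ++ (Finset.univ : Finset B).toList.map tau ++
    (Finset.univ : Finset (B × (B → A))).toList.map sigmaC

variable [Fintype B] [Fintype A] [DecidableEq B] {oa : List (Operation A)}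
  {ob : List (Operation B)}

theorem cong_lowerC {α : Setoid A} (h : IsCongruence oa α) :
    IsCongruence (opsC oa ob) (lowerC α : Setoid (B × A)) := by
  intro o ho x y hxy
  simp only [opsC, List.mem_append, List.mem_map, Finset.mem_toList, Finset.mem_univ,
    true_and] at ho
  rcases ho with ((⟨f, hf, rfl⟩ | ⟨f, hf, rfl⟩) | ⟨b, rfl⟩) | ⟨p, rfl⟩
  · have hxy' : ∀ i : Fin (f.1 + 1), lowerC α (x i) (y i) := hxy
    exact ⟨(hxy' 0).1, h f hf _ _ fun i => (hxy' i.succ).2⟩
  · have hxy' : ∀ i : Fin (f.1 + 1), lowerC α (x i) (y i) := hxy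
    refine ⟨?_, (hxy' 0).2⟩
    have e : (fun i => (x (Fin.succ i)).1) = fun i => (y (Fin.succ i)).1 :=
      funext fun i => (hxy' i.succ).1
    exact congrArg f.2 e
  · have hxy' : ∀ i : Fin 1, lowerC α (x i) (y i) := hxy
    exact ⟨rfl, (hxy' 0).2⟩
  · have hxy' : ∀ i : Fin 1, lowerC α (x i) (y i) := hxy
    refine ⟨rfl, ?_⟩
    show α (p.2 (x (0 : Fin 1)).1) (p.2 (y (0 : Fin 1)).1)
    rw [(hxy' 0).1]

theorem cong_upperC {β : Setoid B} (h : IsCongruence ob β) :
    IsCongruence (opsC oa ob) (upperC β : Setoid (B × A)) := by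
  intro o ho x y hxy
  simp only [opsC, List.mem_append, List.mem_map, Finset.mem_toList, Finset.mem_univ,
    true_and] at ho
  rcases ho with ((⟨f, hf, rfl⟩ | ⟨f, hf, rfl⟩) | ⟨b, rfl⟩) | ⟨p, rfl⟩
  · have hxy' : ∀ i : Fin (f.1 + 1), upperC β (x i) (y i) := hxy
    exact hxy' 0
  · have hxy' : ∀ i : Fin (f.1 + 1), upperC β (x i) (y i) := hxy
    exact h f hf _ _ fun i => hxy' i.succ
  · exact β.refl _
  · exact β.refl _

theorem lowerC_top_eq : (lowerC (⊤ : Setoid A) : Setoid (B × A)) = upperC (⊥ : Setoid B) := by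
  apply Setoid.ext
  intro x y
  constructor
  · intro h
    exact h.1
  · intro h
    exact ⟨h, trivial⟩

section classify

variable {θ : Setoid (B × A)} (hθ : IsCongruence (opsC oa ob) θ)
include hθ

theorem transfer {b b' : B} {a a' : A} (c : B) (h : θ (b, a) (b', a')) : θ (c, a) (c, a') := by
  have hmem : tau c ∈ opsC oa ob := by
    simp only [opsC, List.mem_append, List.mem_map, Finset.mem_toList, Finset.mem_univ, true_and]
    exact Or.inl (Or.inr ⟨c, rfl⟩)
  exact hθ _ hmem (fun _ => (b, a)) (fun _ => (b', a')) (fun _ => h)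

theorem collapse {b b' : B} {a a' : A} (hne : b ≠ b') (h : θ (b, a) (b', a')) (c : B) (a1 a2 : A) :
    θ (c, a1) (c, a2) := by
  classical
  have hmem : sigmaC (c, fun z => if z = b then a1 else a2) ∈ opsC oa ob := by
    simp only [opsC, List.mem_append, List.mem_map, Finset.mem_toList, Finset.mem_univ, true_and]
    exact Or.inr ⟨_, rfl⟩
  have := hθ _ hmem (fun _ => (b, a)) (fun _ => (b', a')) (fun _ => h)
  simpa [sigmaC, hne.symm] using this

theorem classify_upper [Nonempty A] {b0 b1 : B} {a0 a1 : A} (hne : b0 ≠ b1)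
    (h : θ (b0, a0) (b1, a1)) : ∃ β : Setoid B, IsCongruence ob β ∧ θ = upperC β := by
  have coll := @collapse _ _ _ _ _ _ _ _ hθ _ _ _ _ hne h
  let β : Setoid B :=
    { r := fun b b' => ∃ a a', θ (b, a) (b', a')
      iseqv := ⟨fun b => ⟨a0, a0, θ.refl _⟩, fun ⟨a, a', h⟩ => ⟨a', a, θ.symm h⟩,
        fun {x y z} ⟨a, a', h1⟩ ⟨c, c', h2⟩ =>
          ⟨a, c', θ.trans h1 (θ.trans (coll y a' c) h2)⟩⟩ }
  have key : ∀ b b' a a', β b b' → θ (b, a) (b', a') := by
    rintro b b' a a' ⟨c, c', h⟩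
    exact θ.trans (coll b a c) (θ.trans h (coll b' c' a'))
  refine ⟨β, ?_, ?_⟩
  · intro f hf x y hxy
    have hmem : liftB f ∈ opsC oa ob := by
      simp only [opsC, List.mem_append, List.mem_map, Finset.mem_toList, Finset.mem_univ, true_and]
      exact Or.inl (Or.inl (Or.inr ⟨f, hf, rfl⟩))
    have hrel : ∀ i : Fin (f.1 + 1), θ
        ((Fin.cons (b0, a0) (fun j => (x j, a0)) : Fin (f.1 + 1) → B × A) i)
        ((Fin.cons (b0, a0) (fun j => (y j, a0)) : Fin (f.1 + 1) → B × A) i) := by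
      intro i
      refine Fin.cases ?_ (fun j => ?_) i
      · simpa using θ.refl _
      · simpa using key _ _ _ _ (hxy j)
    have h2 := hθ _ hmem _ _ hrel
    refine ⟨a0, a0, ?_⟩
    simpa [liftB] using h2
  · apply Setoid.ext
    rintro ⟨b, a⟩ ⟨b', a'⟩
    constructor
    · intro h
      exact ⟨a, a', h⟩
    · intro h
      exact key _ _ _ _ h

theorem classify_lower [Nonempty A] (hno : ∀ b b' a a', θ (b, a) (b', a') → b = b') :
    ∃ α : Setoid A, IsCongruence oa α ∧ θ = lowerC α := by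
  let α : Setoid A :=
    { r := fun a a' => ∀ b, θ (b, a) (b, a')
      iseqv := ⟨fun a b => θ.refl _, fun h b => θ.symm (h b),
        fun h1 h2 b => θ.trans (h1 b) (h2 b)⟩ }
  have a0 : A := Classical.arbitrary A
  refine ⟨α, ?_, ?_⟩
  · intro f hf x y hxy b
    have hmem : liftA f ∈ opsC oa ob := by
      simp only [opsC, List.mem_append, List.mem_map, Finset.mem_toList, Finset.mem_univ, true_and]
      exact Or.inl (Or.inl (Or.inl ⟨f, hf, rfl⟩))
    have hrel : ∀ i : Fin (f.1 + 1), θ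
        ((Fin.cons (b, a0) (fun j => (b, x j)) : Fin (f.1 + 1) → B × A) i)
        ((Fin.cons (b, a0) (fun j => (b, y j)) : Fin (f.1 + 1) → B × A) i) := by
      intro i
      refine Fin.cases ?_ (fun j => ?_) i
      · simpa using θ.refl _
      · simpa using hxy j b
    have h2 := hθ _ hmem _ _ hrel
    simpa [liftA] using h2
  · apply Setoid.ext
    rintro ⟨b, a⟩ ⟨b', a'⟩
    constructor
    · intro h
      have e := hno _ _ _ _ h
      exact ⟨e, fun c => transfer hθ c h⟩
    · rintro ⟨e, h⟩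
      have e' : b = b' := e
      subst e'
      exact h b

end classify

theorem lowerC_le_iff [Nonempty B] {α α' : Setoid A} :
    (lowerC α : Setoid (B × A)) ≤ lowerC α' ↔ α ≤ α' := by
  constructor
  · intro h a a' ha
    have b : B := Classical.arbitrary B
    exact (@h (b, a) (b, a') ⟨rfl, ha⟩).2
  · intro h x y hxy
    exact ⟨hxy.1, h hxy.2⟩

theorem upperC_le_iff [Nonempty A] {β β' : Setoid B} :
    (upperC β : Setoid (B × A)) ≤ upperC β' ↔ β ≤ β' := by
  constructor
  · intro h b b' hb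
    have a : A := Classical.arbitrary A
    exact @h (b, a) (b', a) hb
  · intro h x y hxy
    exact h hxy

theorem lowerC_le_upperC {α : Setoid A} {β : Setoid B} :
    (lowerC α : Setoid (B × A)) ≤ upperC β := by
  intro x y hxy
  have e : x.1 = y.1 := hxy.1
  show β x.1 y.1
  rw [e]

theorem upperC_le_lowerC [Nonempty A] {α : Setoid A} {β : Setoid B}
    (h : (upperC β : Setoid (B × A)) ≤ lowerC α) : β ≤ ⊥ := by
  intro b b' hb
  have a : A := Classical.arbitrary A
  exact (@h (b, a) (b', a) hb).1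

end ordinal

theorem cong_top {A : Type} (ops : List (Operation A)) : IsCongruence ops ⊤ :=
  fun _ _ _ _ _ => trivial

theorem cong_bot {A : Type} (ops : List (Operation A)) : IsCongruence ops ⊥ := by
  intro o _ x y h
  have e : x = y := funext h
  rw [e]

/-- Ordinal sums of representable posets are representable. -/
theorem ordinal_rep {L : Type} [PartialOrder L] (c : L) (hc : ∀ x, x ≤ c ∨ c ≤ x)
    (h1 : Representable (Set.Iic c)) (h2 : Representable (Set.Ici c)) : Representable L := by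
  obtain ⟨A, fA, nA, oa, ⟨e1⟩⟩ := h1
  obtain ⟨B, fB, nB, ob, ⟨e2⟩⟩ := h2
  classical
  haveI := Fintype.ofFinite A
  haveI := Fintype.ofFinite B
  have c1 : (e1 ⟨c, le_rfl⟩).1 = ⊤ := by
    apply le_antisymm le_top
    have h : e1.symm ⟨⊤, cong_top oa⟩ ≤ ⟨c, le_rfl⟩ := (e1.symm ⟨⊤, cong_top oa⟩).2
    have h3 := e1.monotone h
    rw [e1.apply_symm_apply] at h3
    exact h3
  have c2 : (e2 ⟨c, le_rfl⟩).1 = ⊥ := by
    apply le_antisymm _ bot_le
    have h : (⟨c, le_rfl⟩ : Set.Ici c) ≤ e2.symm ⟨⊥, cong_bot ob⟩ := (e2.symm ⟨⊥, cong_bot ob⟩).2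
    have h3 := e2.monotone h
    rw [e2.apply_symm_apply] at h3
    exact h3
  let Φ : L → {r : Setoid (B × A) // IsCongruence (opsC oa ob) r} := fun x =>
    if h : x ≤ c then ⟨lowerC (e1 ⟨x, h⟩).1, cong_lowerC (e1 _).2⟩
    else ⟨upperC (e2 ⟨x, (hc x).resolve_left h⟩).1, cong_upperC (e2 _).2⟩
  have hΦ1 : ∀ x (h : x ≤ c), (Φ x).1 = lowerC (e1 ⟨x, h⟩).1 := by
    intro x h
    simp only [Φ, dif_pos h]
  have hΦ2 : ∀ x (h : ¬ x ≤ c), (Φ x).1 = upperC (e2 ⟨x, (hc x).resolve_left h⟩).1 := by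
    intro x h
    simp only [Φ, dif_neg h]
  have hle : ∀ x y, Φ x ≤ Φ y ↔ x ≤ y := by
    intro x y
    show (Φ x).1 ≤ (Φ y).1 ↔ x ≤ y
    by_cases hx : x ≤ c
    · by_cases hy : y ≤ c
      · rw [hΦ1 x hx, hΦ1 y hy, lowerC_le_iff]
        show e1 ⟨x, hx⟩ ≤ e1 ⟨y, hy⟩ ↔ x ≤ y
        rw [e1.le_iff_le]
        rfl
      · rw [hΦ1 x hx, hΦ2 y hy]
        exact ⟨fun _ => hx.trans ((hc y).resolve_left hy), fun _ => lowerC_le_upperC⟩
    · by_cases hy : y ≤ c
      · rw [hΦ2 x hx, hΦ1 y hy]
        constructor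
        · intro h
          have h3 := upperC_le_lowerC h
          exfalso
          have h4 : (e2 ⟨x, (hc x).resolve_left hx⟩) = e2 ⟨c, le_rfl⟩ := by
            apply Subtype.ext
            rw [c2]
            exact le_antisymm h3 bot_le
          have h5 := e2.injective h4
          have h6 : x = c := congrArg Subtype.val h5
          exact hx (le_of_eq h6)
        · intro h
          exact absurd (h.trans hy) hx
      · rw [hΦ2 x hx, hΦ2 y hy, upperC_le_iff]
        show e2 ⟨x, _⟩ ≤ e2 ⟨y, _⟩ ↔ x ≤ y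
        rw [e2.le_iff_le]
        rfl
  have hsurj : Function.Surjective Φ := by
    rintro ⟨θ, hθ⟩
    by_cases hex : ∃ b b' a a', b ≠ b' ∧ θ (b, a) (b', a')
    · obtain ⟨b, b', a, a', hne, hr⟩ := hex
      obtain ⟨β, hβ, rfl⟩ := classify_upper hθ hne hr
      let z := e2.symm ⟨β, hβ⟩
      have hz : e2 z = ⟨β, hβ⟩ := e2.apply_symm_apply _
      refine ⟨z.1, Subtype.ext ?_⟩
      by_cases hx : z.1 ≤ c
      · rw [hΦ1 _ hx]
        have hzc : z.1 = c := le_antisymm hx z.2
        have e3 : z = ⟨c, le_rfl⟩ := Subtype.ext hzc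
        have e4 : ⊥ = β := by
          have := congrArg Subtype.val hz
          rw [e3, c2] at this
          exact this
        have e5 : (e1 ⟨z.1, hx⟩) = e1 ⟨c, le_rfl⟩ := by
          congr 1
          exact Subtype.ext hzc
        rw [e5, c1]
        show lowerC ⊤ = upperC β
        rw [← e4]
        exact lowerC_top_eq
      · rw [hΦ2 _ hx]
        have := congrArg Subtype.val hz
        exact congrArg upperC this
    · have hno : ∀ b b' a a', θ (b, a) (b', a') → b = b' := by
        intro b b' a a' h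
        by_contra hne
        exact hex ⟨b, b', a, a', hne, h⟩
      obtain ⟨α, hα, rfl⟩ := classify_lower hθ hno
      let z := e1.symm ⟨α, hα⟩
      have hz : e1 z = ⟨α, hα⟩ := e1.apply_symm_apply _
      refine ⟨z.1, Subtype.ext ?_⟩
      rw [hΦ1 _ z.2]
      have := congrArg Subtype.val hz
      exact congrArg lowerC this
  refine ⟨B × A, inferInstance, inferInstance, opsC oa ob, ⟨?_⟩⟩
  exact RelIso.ofSurjective (OrderEmbedding.ofMapLEIff Φ hle) hsurj

end Vale.Agent.Lib.P183
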