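import Vale.Agent.Lib.P183.Glue

namespace Vale.Agent.Lib.P183

/-! From a family of partitions of `Ω` that contains every partition invariant under the
automorphisms of the family, an algebra whose congruences are copies of the members of the family
and two more congruences: a new atom `hh` and a new top `tt`. The new algebra has as its elements
the pairs of a copy of the family under a permutation of `Ω` and a point of `Ω`. -/

section ParExt

variable {Ω : Type} {k : Nat} (S0 : Fin k → Setoid Ω)

/-- A structure: a family of relations on `Ω`. -/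
abbrev Str (Ω : Type) (k : Nat) : Type := Ω → Ω → Fin k → Prop

/-- The given family as a structure. -/
def baseStr : Str Ω k := fun x y j => S0 j x y

/-- A permutation acts on structures. -/
def actStr (σ : Equiv.Perm Ω) (S : Str Ω k) : Str Ω k := fun x y j => S (σ.symm x) (σ.symm y) j

theorem actStr_mul (σ τ : Equiv.Perm Ω) (S : Str Ω k) :
    actStr σ (actStr τ S) = actStr (σ * τ) S := by
  funext x y j
  rfl

theorem actStr_one (S : Str Ω k) : actStr (1 : Equiv.Perm Ω) S = S := by
  funext x y j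
  rfl

/-- The structures obtained from the given one. -/
def Orb : Type := {S : Str Ω k // ∃ σ : Equiv.Perm Ω, S = actStr σ (baseStr S0)}

/-- The elements of the new algebra. -/
abbrev ParA : Type := Orb S0 × Ω

/-- The base structure, as a member of the orbit. -/
def orb0 : Orb S0 := ⟨baseStr S0, 1, (actStr_one _).symm⟩

/-- The action on the new algebra. -/
def actA (σ : Equiv.Perm Ω) (p : ParA S0) : ParA S0 :=
  (⟨actStr σ p.1.1, by
    obtain ⟨τ, hτ⟩ := p.1.2
    exact ⟨σ * τ, by rw [hτ, actStr_mul]⟩⟩, σ p.2)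

theorem orb_spec (S : Orb S0) : ∃ σ : Equiv.Perm Ω, ∀ x y j, S.1 x y j ↔ S0 j (σ.symm x) (σ.symm y) := by
  obtain ⟨σ, hσ⟩ := S.2
  refine ⟨σ, fun x y j => ?_⟩
  rw [hσ]
  rfl

/-- The copy of a partition on the new algebra. -/
def theta (j : Fin k) : Setoid (ParA S0) where
  r p q := p.1 = q.1 ∧ p.1.1 p.2 q.2 j
  iseqv := by
    refine ⟨fun p => ⟨rfl, ?_⟩, ?_, ?_⟩
    · obtain ⟨σ, hσ⟩ := orb_spec S0 p.1
      exact (hσ _ _ _).mpr ((S0 j).refl _)
    · rintro p q ⟨h1, h2⟩
      refine ⟨h1.symm, ?_⟩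
      rw [← h1]
      obtain ⟨σ, hσ⟩ := orb_spec S0 p.1
      exact (hσ _ _ _).mpr ((S0 j).symm ((hσ _ _ _).mp h2))
    · rintro p q s ⟨h1, h2⟩ ⟨h3, h4⟩
      refine ⟨h1.trans h3, ?_⟩
      rw [← h1] at h4
      obtain ⟨σ, hσ⟩ := orb_spec S0 p.1
      exact (hσ _ _ _).mpr ((S0 j).trans ((hσ _ _ _).mp h2) ((hσ _ _ _).mp h4))

/-- Same structure. -/
def rS : Setoid (ParA S0) := Setoid.ker Prod.fst

/-- Same point. -/
def hS : Setoid (ParA S0) := Setoid.ker Prod.snd

theorem actA_mul (σ τ : Equiv.Perm Ω) (p : ParA S0) : actA S0 σ (actA S0 τ p) = actA S0 (σ * τ) p := by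
  apply Prod.ext
  · exact Subtype.ext (actStr_mul σ τ _)
  · rfl

theorem actA_one (p : ParA S0) : actA S0 1 p = p := by
  apply Prod.ext
  · exact Subtype.ext (actStr_one _)
  · rfl

theorem actStr_symm_self (σ : Equiv.Perm Ω) (S : Str Ω k) : actStr σ⁻¹ (actStr σ S) = S := by
  rw [actStr_mul, inv_mul_cancel, actStr_one]

variable [Finite Ω]

instance : Finite (Orb S0) := Subtype.finite

/-- The operations given by all the permutations. -/
noncomputable def permOps : List (Operation (ParA S0)) :=
  ((Set.toFinite (Set.univ : Set (Equiv.Perm Ω))).toFinset.toList).map fun σ => unOp (actA S0 σ)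

theorem permOps_cong {θ : Setoid (ParA S0)} :
    IsCongruence (permOps S0) θ ↔ ∀ σ p q, θ p q → θ (actA S0 σ p) (actA S0 σ q) := by
  constructor
  · intro h σ p q hpq
    have hm : unOp (actA S0 σ) ∈ permOps S0 := by
      unfold permOps
      refine List.mem_map.mpr ⟨σ, ?_, rfl⟩
      rw [Finset.mem_toList, Set.Finite.mem_toFinset]
      exact Set.mem_univ _
    exact h _ hm (fun _ => p) (fun _ => q) (fun _ => hpq)
  · intro h o ho
    unfold permOps at ho
    obtain ⟨σ, _, rfl⟩ := List.mem_map.mp ho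
    exact unOp_cong (h σ)

omit [Finite Ω] in
theorem theta_act (j : Fin k) (σ : Equiv.Perm Ω) (p q : ParA S0) (h : theta S0 j p q) :
    theta S0 j (actA S0 σ p) (actA S0 σ q) := by
  obtain ⟨h1, h2⟩ := h
  refine ⟨?_, ?_⟩
  · apply Subtype.ext
    show actStr σ p.1.1 = actStr σ q.1.1
    rw [h1]
  · show actStr σ p.1.1 (σ p.2) (σ q.2) j
    show p.1.1 (σ.symm (σ p.2)) (σ.symm (σ q.2)) j
    simpa using h2

omit [Finite Ω] in
theorem theta_le_r (j : Fin k) : theta S0 j ≤ rS S0 := fun _ _ h => h.1

omit [Finite Ω] in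
theorem exists_perm_two {x y x' y' : Ω} (hxy : x ≠ y) (hxy' : x' ≠ y') :
    ∃ σ : Equiv.Perm Ω, σ x = x' ∧ σ y = y' := by
  classical
  let σ1 := Equiv.swap x x'
  have h1 : σ1 x = x' := Equiv.swap_apply_left _ _
  have h2 : σ1 y ≠ x' := by
    intro e
    rw [← h1] at e
    exact hxy (σ1.injective e).symm
  refine ⟨Equiv.swap (σ1 y) y' * σ1, ?_, ?_⟩
  · show Equiv.swap (σ1 y) y' (σ1 x) = x'
    rw [h1]
    exact Equiv.swap_apply_of_ne_of_ne h2.symm hxy'
  · show Equiv.swap (σ1 y) y' (σ1 y) = y'
    exact Equiv.swap_apply_left _ _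

/-- The classification of the congruences. -/
theorem parExt_classify
    (hK : ∀ c : Setoid Ω, (∀ ρ : Equiv.Perm Ω, (∀ j x y, S0 j x y ↔ S0 j (ρ x) (ρ y)) →
      ∀ x y, c x y → c (ρ x) (ρ y)) → ∃ j, c = S0 j)
    {θ : Setoid (ParA S0)} (hθ : IsCongruence (permOps S0 ++ pruneOps (rS S0) (hS S0)) θ) :
    θ = hS S0 ∨ θ = ⊤ ∨ ∃ j, θ = theta S0 j := by
  have hb : ∀ σ p q, θ p q → θ (actA S0 σ p) (actA S0 σ q) := (permOps_cong S0).mp (prune_base hθ)
  rcases prune_dich hθ with hle | hle
  · -- below `r`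
    right; right
    let c : Setoid Ω := Setoid.comap (fun x => (orb0 S0, x)) θ
    obtain ⟨j, hj⟩ := hK c (by
      intro ρ hρ x y hxy
      have h1 := hb ρ _ _ hxy
      have h2 : actStr ρ (baseStr S0) = baseStr S0 := by
        funext a b i
        apply propext
        show S0 i (ρ.symm a) (ρ.symm b) ↔ S0 i a b
        rw [hρ i (ρ.symm a) (ρ.symm b)]
        simp
      have h3 : actA S0 ρ (orb0 S0, x) = (orb0 S0, ρ x) :=
        Prod.ext (Subtype.ext h2) rfl
      have h4 : actA S0 ρ (orb0 S0, y) = (orb0 S0, ρ y) :=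
        Prod.ext (Subtype.ext h2) rfl
      rw [h3, h4] at h1
      exact h1)
    refine ⟨j, ?_⟩
    have hc : ∀ x y, θ (orb0 S0, x) (orb0 S0, y) ↔ S0 j x y := by
      intro x y
      rw [← hj]
      rfl
    -- moving a fibre to the base
    have hmove : ∀ (S : Orb S0) (σ : Equiv.Perm Ω), S.1 = actStr σ (baseStr S0) → ∀ x,
        actA S0 σ⁻¹ (S, x) = (orb0 S0, σ⁻¹ x) := by
      intro S σ hσ x
      apply Prod.ext
      · apply Subtype.ext
        show actStr σ⁻¹ S.1 = baseStr S0
        rw [hσ, actStr_symm_self]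
      · rfl
    apply Setoid.ext
    rintro ⟨S, x⟩ ⟨S', y⟩
    obtain ⟨σ, hσ⟩ := S.2
    constructor
    · intro h
      have hSS : S = S' := hle h
      subst hSS
      refine ⟨rfl, ?_⟩
      have h1 := hb σ⁻¹ _ _ h
      rw [hmove S σ hσ, hmove S σ hσ] at h1
      have h2 := (hc _ _).mp h1
      show S.1 x y j
      rw [hσ]
      exact h2
    · rintro ⟨hSS, h⟩
      have hSS' : S = S' := hSS
      subst hSS'
      have h0 : S.1 x y j := h
      rw [hσ] at h0
      have h2 : S0 j (σ⁻¹ x) (σ⁻¹ y) := h0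
      have h3 := (hc _ _).mpr h2
      rw [← hmove S σ hσ, ← hmove S σ hσ] at h3
      have h4 := hb σ _ _ h3
      rw [actA_mul, actA_mul, mul_inv_cancel, actA_one, actA_one] at h4
      exact h4
  · -- above `h`
    by_cases hle2 : θ ≤ hS S0
    · exact Or.inl (le_antisymm hle2 hle)
    · right; left
      have h1 : ¬ ∀ p q, θ p q → hS S0 p q := fun hh => hle2 (fun p q hpq => hh p q hpq)
      obtain ⟨p, hp⟩ := not_forall.mp h1
      obtain ⟨q, hq⟩ := not_forall.mp hp
      obtain ⟨hpq, hne⟩ := Classical.not_imp.mp hq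
      apply Setoid.ext
      intro p' q'
      constructor
      · intro _
        trivial
      · intro _
        by_cases he : p'.2 = q'.2
        · exact hle he
        · obtain ⟨σ, h2, h3⟩ := exists_perm_two (x := p.2) (y := q.2) hne he
          have h4 := hb σ _ _ hpq
          have h5 : θ p' (actA S0 σ p) := hle h2.symm
          have h6 : θ (actA S0 σ q) q' := hle h3
          exact θ.trans (θ.trans h5 h4) h6

/-- The main statement. -/
theorem parExt_core [Nonempty Ω]
    (hK : ∀ c : Setoid Ω, (∀ ρ : Equiv.Perm Ω, (∀ j x y, S0 j x y ↔ S0 j (ρ x) (ρ y)) →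
      ∀ x y, c x y → c (ρ x) (ρ y)) → ∃ j, c = S0 j)
    (hne : ∃ ρ : Equiv.Perm Ω, actStr ρ (baseStr S0) ≠ baseStr S0) :
    ∃ (A : Type) (_ : Finite A) (_ : Nonempty A) (ops : List (Operation A))
      (Θ : Fin k → {r : Setoid A // IsCongruence ops r}) (hh tt : {r : Setoid A // IsCongruence ops r}),
      (∀ ρ, ρ = hh ∨ ρ = tt ∨ ∃ j, ρ = Θ j) ∧ (∀ i j, Θ i ≤ Θ j ↔ S0 i ≤ S0 j) ∧
      (∀ j, Θ j ≤ hh ↔ S0 j ≤ ⊥) ∧ (∀ j, Θ j ≤ tt) ∧ hh ≤ tt ∧ ¬ tt ≤ hh ∧
      (∀ j, ¬ hh ≤ Θ j) ∧ (∀ j, ¬ tt ≤ Θ j) := by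
  obtain ⟨ρ, hρ⟩ := hne
  have hne2 : (⟨actStr ρ (baseStr S0), ρ, rfl⟩ : Orb S0) ≠ orb0 S0 := by
    intro e
    exact hρ (congrArg Subtype.val e)
  obtain ⟨ω⟩ := (inferInstance : Nonempty Ω)
  have htwo : ∃ x y : Ω, x ≠ y := by
    by_contra hcon
    have hall : ∀ x y : Ω, x = y := by
      intro x y
      by_contra hxy
      exact hcon ⟨x, y, hxy⟩
    apply hρ
    funext a b j
    apply propext
    show S0 j (ρ.symm a) (ρ.symm b) ↔ S0 j a b
    rw [hall (ρ.symm a) a, hall (ρ.symm b) b]
  obtain ⟨u, v, huv⟩ := htwo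
  let ops := permOps S0 ++ pruneOps (rS S0) (hS S0)
  have hΘ : ∀ j, IsCongruence ops (theta S0 j) := fun j =>
    prune_cong_of ((permOps_cong S0).mpr (theta_act S0 j)) (Or.inl (theta_le_r S0 j))
  have hhh : IsCongruence ops (hS S0) := by
    apply prune_cong_of ((permOps_cong S0).mpr _) (Or.inr le_rfl)
    intro σ p q h
    show σ p.2 = σ q.2
    exact congrArg σ h
  have htt : IsCongruence ops (⊤ : Setoid (ParA S0)) := by
    apply prune_cong_of ((permOps_cong S0).mpr _) (Or.inr le_top)
    intro σ p q _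
    trivial
  refine ⟨ParA S0, inferInstance, ⟨(orb0 S0, ω)⟩, ops, fun j => ⟨theta S0 j, hΘ j⟩,
    ⟨hS S0, hhh⟩, ⟨⊤, htt⟩, ?_, ?_, ?_, ?_, ?_, ?_, ?_, ?_⟩
  · rintro ⟨θ, hθ⟩
    rcases parExt_classify S0 hK hθ with h | h | ⟨j, h⟩
    · exact Or.inl (Subtype.ext h)
    · exact Or.inr (Or.inl (Subtype.ext h))
    · exact Or.inr (Or.inr ⟨j, Subtype.ext h⟩)
  · intro i j
    constructor
    · intro h x y hxy
      have h1 : theta S0 i (orb0 S0, x) (orb0 S0, y) := ⟨rfl, hxy⟩
      exact (h h1).2
    · rintro h ⟨S, x⟩ ⟨S', y⟩ ⟨h1, h2⟩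
      refine ⟨h1, ?_⟩
      obtain ⟨σ, hσ⟩ := orb_spec S0 S
      exact (hσ _ _ _).mpr (h ((hσ _ _ _).mp h2))
  · intro j
    constructor
    · intro h x y hxy
      have h1 : theta S0 j (orb0 S0, x) (orb0 S0, y) := ⟨rfl, hxy⟩
      exact h h1
    · rintro h ⟨S, x⟩ ⟨S', y⟩ ⟨_, h2⟩
      obtain ⟨σ, hσ⟩ := orb_spec S0 S
      have h3 := h ((hσ _ _ _).mp h2)
      exact σ.symm.injective h3
  · intro j p q _
    trivial
  · intro p q _
    trivial
  · intro h
    have h1 : (orb0 S0, u) = (orb0 S0, u) := rfl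
    have h2 : hS S0 (orb0 S0, u) (orb0 S0, v) := @h (orb0 S0, u) (orb0 S0, v) trivial
    exact huv h2
  · intro j h
    have h1 : hS S0 (⟨actStr ρ (baseStr S0), ρ, rfl⟩, ω) (orb0 S0, ω) := rfl
    exact hne2 (h h1).1
  · intro j h
    have h1 : theta S0 j (⟨actStr ρ (baseStr S0), ρ, rfl⟩, ω) (orb0 S0, ω) := @h _ _ trivial
    exact hne2 h1.1

end ParExt

/-! The application to a checked permutation algebra. -/

/-- The order of the new lattice. -/
def parM (c : PCert) (a b : Nat) : Bool :=
  cond (Nat.blt a c.labs.length)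
    (cond (Nat.blt b c.labs.length) (refT c.N (nth c.labs a) (nth c.labs b))
      (cond (Nat.beq b c.labs.length) (refT c.N (nth c.labs a) (nth c.labs 0)) true))
    (cond (Nat.beq a c.labs.length) (Nat.ble c.labs.length b) (Nat.blt c.labs.length b))

/-- A witness that the family is not invariant under all permutations. -/
def parW (c : PCert) (i x y z : Nat) : Bool :=
  and (Nat.blt i c.labs.length) (and (Nat.blt x c.N) (and (Nat.blt y c.N) (and (Nat.blt z c.N)
  (and (not (Nat.beq x y)) (and (not (Nat.beq x z)) (and (not (Nat.beq y z))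
  (and (Nat.beq (getT (nth c.labs i) x) (getT (nth c.labs i) y))
    (not (Nat.beq (getT (nth c.labs i) x) (getT (nth c.labs i) z))))))))))

theorem repMat_par {c : PCert} (hc : c.ok = true) {wi wx wy wz : Nat} (hw : parW c wi wx wy wz = true) :
    RepMat (c.labs.length + 2) (parM c) := by
  have hc0 := hc
  simp only [PCert.ok, algP, Bool.and_eq_true] at hc0
  obtain ⟨hN0, hgens, hlen, _, hlabs, hbot, _⟩ := hc0
  have hN : 0 < c.N := Nat.le_of_ble_eq_true hN0
  have hlen' : 0 < c.labs.length := Nat.le_of_ble_eq_true hlen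
  have hg : ∀ t ∈ c.gens, permOK c.N t = true := List.all_eq_true.mp hgens
  have hlab : ∀ j, j < c.labs.length → labOK c.N c.gens (nth c.labs j) (nth c.bms j) = true :=
    fun j hj => allN_spec hlabs j hj
  have hne0 : Nonempty (Fin c.N) := ⟨⟨0, hN⟩⟩
  let S0 : Fin c.labs.length → Setoid (Fin c.N) := fun j => kerT (nth c.labs j.val)
  -- the permutation of a generator
  have hperm : ∀ t ∈ c.gens, ∃ ρ : Equiv.Perm (Fin c.N), (∀ x : Fin c.N, (ρ x).val = getT t x.val) ∧
      ∀ (j : Fin c.labs.length) x y, S0 j x y ↔ S0 j (ρ x) (ρ y) := by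
    intro t ht
    obtain ⟨h1, h2⟩ := permOK_spec (hg t ht)
    let f : Fin c.N → Fin c.N := fun x => ⟨getT t x.val, h1 x.val x.isLt⟩
    have hf : Function.Injective f := by
      intro a b e
      exact Fin.ext (h2 _ _ a.isLt b.isLt (congrArg Fin.val e))
    refine ⟨Equiv.ofBijective f ⟨hf, Finite.surjective_of_injective hf⟩, fun x => rfl, ?_⟩
    intro j x y
    obtain ⟨i, hi, rfl⟩ := List.mem_iff_getElem.mp ht
    have hnth : c.gens[i] = nth c.gens i := by rw [nth_eq_getElem hi]
    have hC := compat_kerT hg (hlab j.val j.isLt)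
    constructor
    · intro h
      obtain ⟨_, _, h3⟩ := hC _ ht _ _ ⟨x.isLt, y.isLt, h⟩
      exact h3
    · intro h
      have hw : wordOK c.gens [i] = true := by
        simp only [wordOK, List.all_cons, List.all_nil, Bool.and_true]
        exact Nat.ble_eq_true_of_le hi
      have h4 : relN (kerT (nth c.labs j.val) : Setoid (Fin c.N)) (evalW c.gens [i] x.val)
          (evalW c.gens [i] y.val) := by
        show relN _ (getT (nth c.gens i) x.val) (getT (nth c.gens i) y.val)
        rw [← hnth]
        exact ⟨h1 _ x.isLt, h1 _ y.isLt, h⟩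
      obtain ⟨_, _, h5⟩ := reflect hg hC hw x.isLt y.isLt h4
      exact h5
  have hK : ∀ c' : Setoid (Fin c.N), (∀ ρ : Equiv.Perm (Fin c.N),
      (∀ j x y, S0 j x y ↔ S0 j (ρ x) (ρ y)) → ∀ x y, c' x y → c' (ρ x) (ρ y)) → ∃ j, c' = S0 j := by
    intro c' hinv
    have hcong : IsCongruence (opsT hN c.gens) c' := by
      intro o ho x y hxy
      obtain ⟨t, ht, rfl⟩ := List.mem_map.mp ho
      obtain ⟨ρ, hρ1, hρ2⟩ := hperm t ht
      have h1 := hinv ρ hρ2 _ _ (hxy (0 : Fin 1))
      have hr := (permOK_spec (hg t ht)).1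
      have e1 : ρ (x (0 : Fin 1)) = (opT hN t).2 x := by
        apply Fin.ext
        rw [hρ1]
        simp only [opT, Nat.mod_eq_of_lt (hr _ (x (0 : Fin 1)).isLt)]
      have e2 : ρ (y (0 : Fin 1)) = (opT hN t).2 y := by
        apply Fin.ext
        rw [hρ1]
        simp only [opT, Nat.mod_eq_of_lt (hr _ (y (0 : Fin 1)).isLt)]
      rw [e1, e2] at h1
      exact h1
    obtain ⟨j, hj, e⟩ := cong_classifyP hc hN c' hcong
    exact ⟨⟨j, hj⟩, e⟩
  simp only [parW, Bool.and_eq_true, Bool.not_eq_true'] at hw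
  obtain ⟨w1, w2, w3, w4, w5, w6, w7, w8, w9⟩ := hw
  have hwi : wi < c.labs.length := Nat.le_of_ble_eq_true w1
  have hwx : wx < c.N := Nat.le_of_ble_eq_true w2
  have hwy : wy < c.N := Nat.le_of_ble_eq_true w3
  have hwz : wz < c.N := Nat.le_of_ble_eq_true w4
  have hne : ∃ ρ : Equiv.Perm (Fin c.N), actStr ρ (baseStr S0) ≠ baseStr S0 := by
    classical
    refine ⟨Equiv.swap ⟨wy, hwy⟩ ⟨wz, hwz⟩, fun e => ?_⟩
    have hxy : wx ≠ wy := fun h => by rw [h] at w5; simp at w5
    have hxz : wx ≠ wz := fun h => by rw [h] at w6; simp at w6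
    have e1 := congrFun (congrFun (congrFun e ⟨wx, hwx⟩) ⟨wy, hwy⟩) ⟨wi, hwi⟩
    have e2 : baseStr S0 ⟨wx, hwx⟩ ⟨wy, hwy⟩ ⟨wi, hwi⟩ := beq_true w8
    rw [← e1] at e2
    have e3 : baseStr S0 ((Equiv.swap (⟨wy, hwy⟩ : Fin c.N) ⟨wz, hwz⟩).symm ⟨wx, hwx⟩)
      ((Equiv.swap (⟨wy, hwy⟩ : Fin c.N) ⟨wz, hwz⟩).symm ⟨wy, hwy⟩) ⟨wi, hwi⟩ := e2
    rw [Equiv.symm_swap, Equiv.swap_apply_left,
      Equiv.swap_apply_of_ne_of_ne (by simp [Fin.ext_iff, hxy]) (by simp [Fin.ext_iff, hxz])] at e3
    have e4 : getT (nth c.labs wi) wx = getT (nth c.labs wi) wz := e3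
    rw [e4] at w9
    simp at w9
  obtain ⟨A, h1, h2, ops, Θ, hh, tt, hall, h3, h4, h5, h6, h7, h8, h9⟩ := parExt_core S0 hK hne
  let k := c.labs.length
  let φ : Fin (k + 2) → {r : Setoid A // IsCongruence ops r} := fun a =>
    if ha : a.val < k then Θ ⟨a.val, ha⟩ else if a.val = k then hh else tt
  have hφ1 : ∀ (a : Fin (k + 2)) (ha : a.val < k), φ a = Θ ⟨a.val, ha⟩ := fun a ha => dif_pos ha
  have hφ2 : ∀ a : Fin (k + 2), a.val = k → φ a = hh := by
    intro a ha
    have h1 : ¬ a.val < k := by omega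
    show (if ha : a.val < k then Θ ⟨a.val, ha⟩ else if a.val = k then hh else tt) = hh
    rw [dif_neg h1, if_pos ha]
  have hφ3 : ∀ a : Fin (k + 2), k < a.val → φ a = tt := by
    intro a ha
    have h1 : ¬ a.val < k := by omega
    have h2 : ¬ a.val = k := by omega
    show (if ha : a.val < k then Θ ⟨a.val, ha⟩ else if a.val = k then hh else tt) = tt
    rw [dif_neg h1, if_neg h2]
  have hbotS : ∀ j : Fin k, S0 j ≤ ⊥ ↔ refT c.N (nth c.labs j.val) (nth c.labs 0) = true := by
    intro j
    rw [← kerT_le_iff hg (hlab j.val j.isLt)]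
    have hb0 : (kerT (nth c.labs 0) : Setoid (Fin c.N)) = ⊥ := by
      apply Setoid.ext
      intro x y
      show getT _ x.val = getT _ y.val ↔ x = y
      rw [beq_true (allN_spec hbot x.val x.isLt), beq_true (allN_spec hbot y.val y.isLt)]
      exact Fin.ext_iff.symm
    rw [hb0]
  refine ⟨A, h1, h2, ops, φ, ?_, ?_⟩
  · intro ρ
    rcases hall ρ with h | h | ⟨j, h⟩
    · exact ⟨⟨k, by omega⟩, by rw [h]; exact hφ2 _ rfl⟩
    · exact ⟨⟨k + 1, by omega⟩, by rw [h]; exact hφ3 _ (by show k < k + 1; omega)⟩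
    · exact ⟨⟨j.val, by have := j.isLt; omega⟩, by rw [h]; exact hφ1 ⟨j.val, _⟩ j.isLt⟩
  · intro a b
    have hk : c.labs.length = k := rfl
    by_cases ha : a.val < k
    · have ea : Nat.blt a.val c.labs.length = true := Nat.ble_eq_true_of_le ha
      by_cases hb : b.val < k
      · have eb : Nat.blt b.val c.labs.length = true := Nat.ble_eq_true_of_le hb
        rw [hφ1 a ha, hφ1 b hb, h3]
        simp only [parM, ea, eb, cond_true]
        exact kerT_le_iff hg (hlab a.val ha)
      · have eb : Nat.blt b.val c.labs.length = false := by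
          apply Bool.eq_false_iff.mpr
          intro e
          exact hb (Nat.le_of_ble_eq_true e)
        by_cases hb2 : b.val = k
        · rw [hφ1 a ha, hφ2 b hb2, h4]
          simp only [parM, ea, eb, cond_true, cond_false]
          have : Nat.beq b.val c.labs.length = true := by
            rw [hb2]; simp [hk]
          rw [this]
          simp only [cond_true]
          exact hbotS ⟨a.val, ha⟩
        · have hb3 : k < b.val := by omega
          rw [hφ1 a ha, hφ3 b hb3]
          simp only [parM, ea, eb, cond_true, cond_false]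
          have : Nat.beq b.val c.labs.length = false := by
            apply Bool.eq_false_iff.mpr
            intro e
            exact hb2 (beq_true e)
          rw [this]
          simp only [cond_false, iff_true]
          exact h5 _
    · have ea : Nat.blt a.val c.labs.length = false := by
        apply Bool.eq_false_iff.mpr
        intro e
        exact ha (Nat.le_of_ble_eq_true e)
      by_cases ha2 : a.val = k
      · have ea2 : Nat.beq a.val c.labs.length = true := by
          rw [ha2]; simp [hk]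
        simp only [parM, ea, ea2, cond_false, cond_true]
        rw [hφ2 a ha2]
        by_cases hb : b.val < k
        · rw [hφ1 b hb]
          have : Nat.ble c.labs.length b.val = false := by
            apply Bool.eq_false_iff.mpr
            intro e
            have := Nat.le_of_ble_eq_true e
            omega
          rw [this]
          simp only [Bool.false_eq_true, iff_false]
          exact h8 _
        · have e1 : Nat.ble c.labs.length b.val = true := Nat.ble_eq_true_of_le (by omega)
          rw [e1]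
          simp only [iff_true]
          by_cases hb2 : b.val = k
          · rw [hφ2 b hb2]
          · rw [hφ3 b (by omega)]
            exact h6
      · have ha3 : k < a.val := by omega
        have ea2 : Nat.beq a.val c.labs.length = false := by
          apply Bool.eq_false_iff.mpr
          intro e
          exact ha2 (beq_true e)
        simp only [parM, ea, ea2, cond_false]
        rw [hφ3 a ha3]
        by_cases hb : b.val < k
        · rw [hφ1 b hb]
          have : Nat.blt c.labs.length b.val = false := by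
            apply Bool.eq_false_iff.mpr
            intro e
            have := Nat.le_of_ble_eq_true e
            omega
          rw [this]
          simp only [Bool.false_eq_true, iff_false]
          exact h9 _
        · by_cases hb2 : b.val = k
          · rw [hφ2 b hb2]
            have : Nat.blt c.labs.length b.val = false := by
              apply Bool.eq_false_iff.mpr
              intro e
              have := Nat.le_of_ble_eq_true e
              omega
            rw [this]
            simp only [Bool.false_eq_true, iff_false]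
            exact h7
          · rw [hφ3 b (by omega)]
            have : Nat.blt c.labs.length b.val = true := Nat.ble_eq_true_of_le (by omega)
            rw [this]
            simp

/-- Relabelling the elements of a representation. -/
theorem RepMat.relabel {n : Nat} {M : Nat → Nat → Bool} (h : RepMat n M) {s : List Nat}
    (hs : permB n s = true) : RepMat n fun a b => M (nth s a) (nth s b) := by
  obtain ⟨A, h1, h2, ops, φ, hφ, ho⟩ := h
  simp only [permB, Bool.and_eq_true] at hs
  have hlt : ∀ a, a < n → nth s a < n := fun a ha => Nat.le_of_ble_eq_true (allN_spec hs.1 a ha)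
  let f : Fin n → Fin n := fun a => ⟨nth s a.val, hlt a.val a.isLt⟩
  have hf : Function.Injective f := by
    intro a b e
    have e' : nth s a.val = nth s b.val := congrArg Fin.val e
    by_contra hne
    have hne' : a.val ≠ b.val := fun h => hne (Fin.ext h)
    rcases Nat.lt_or_gt_of_ne hne' with hl | hl
    · have := allN_spec (allN_spec hs.2 b.val b.isLt) a.val hl
      rw [e'] at this
      simp at this
    · have := allN_spec (allN_spec hs.2 a.val a.isLt) b.val hl
      rw [e'] at this
      simp at this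
  have hfs : Function.Surjective f := Finite.surjective_of_injective hf
  refine ⟨A, h1, h2, ops, φ ∘ f, hφ.comp hfs, fun a b => ?_⟩
  exact ho (f a) (f b)

/-- The check for a numbered lattice. -/
theorem repPar_of_check (i : Nat) (c : PCert) (wi wx wy wz : Nat) (s : List Nat)
    (h1 : c.ok = true) (h2 : parW c wi wx wy wz = true)
    (h3 : and (Nat.beq (szOf i) (c.labs.length + 2)) (permB (szOf i) s) = true)
    (h4 : (allN (szOf i) fun a => allN (szOf i) fun b =>
      eqB (parM c (nth s a) (nth s b)) (matOf (codeOf i) a b)) = true) :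
    RepMat (szOf i) (matOf (codeOf i)) := by
  simp only [Bool.and_eq_true] at h3
  have h5 := repMat_par h1 h2
  rw [← beq_true h3.1] at h5
  exact (h5.relabel h3.2).congr fun a b ha hb => eqB_spec (allN_spec (allN_spec h4 a ha) b hb)

end Vale.Agent.Lib.P183
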