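import Vale.Agent.Lib.P183.Tbl
import Vale.Agent.Lib.P183.Ordinal

namespace Vale.Agent.Lib.P183

/-- A representation of the order given by a matrix on `{0, ..., n - 1}`. -/
def RepMat (n : Nat) (M : Nat → Nat → Bool) : Prop :=
  ∃ (A : Type) (_ : Finite A) (_ : Nonempty A) (ops : List (Operation A))
    (φ : Fin n → {r : Setoid A // IsCongruence ops r}),
    Function.Surjective φ ∧ ∀ a b : Fin n, φ a ≤ φ b ↔ M a.val b.val = true

theorem RepMat.congr {n : Nat} {M M' : Nat → Nat → Bool} (h : RepMat n M)
    (he : ∀ a b, a < n → b < n → M a b = M' a b) : RepMat n M' := by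
  obtain ⟨A, h1, h2, ops, φ, hs, ho⟩ := h
  refine ⟨A, h1, h2, ops, φ, hs, fun a b => ?_⟩
  rw [ho, he _ _ a.isLt b.isLt]

/-- An algebra passing the checks gives a representation. -/
theorem repMat_of_algOK {m : Nat} {ops parts : List (List Nat)} (hok : algOK m ops parts = true) :
    RepMat parts.length fun a b => refinesB m (nthL parts a) (nthL parts b) := by
  have hok2 := hok
  simp only [algOK, Bool.and_eq_true] at hok2
  obtain ⟨hm, hops, hpart, hcomp, _⟩ := hok2
  have hm' : 0 < m := Nat.le_of_ble_eq_true hm
  haveI : Nonempty (Fin m) := ⟨⟨0, hm'⟩⟩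
  refine ⟨Fin m, inferInstance, inferInstance, opsU hm' ops,
    fun j => ⟨kerL (nthL parts j.val), cong_kerL hm' hops hpart hcomp (nthL_mem j.isLt)⟩, ?_, ?_⟩
  · rintro ⟨θ, hθ⟩
    obtain ⟨j, hj, e⟩ := cong_classify hm' hok θ hθ
    exact ⟨⟨j, hj⟩, Subtype.ext e.symm⟩
  · intro a b
    exact kerL_le_iff hok a.isLt b.isLt

theorem Representable.of_repMat {L : Type} [PartialOrder L] {n : Nat} {M : Nat → Nat → Bool}
    (h : RepMat n M) (e : L → Fin n) (hs : Function.Surjective e)
    (he : ∀ x y, x ≤ y ↔ M (e x).val (e y).val = true) : Representable L := by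
  obtain ⟨A, h1, h2, ops, φ, hφ, ho⟩ := h
  refine ⟨A, h1, h2, ops, ⟨?_⟩⟩
  have hle : ∀ x y, φ (e x) ≤ φ (e y) ↔ x ≤ y := by
    intro x y
    rw [ho, he]
  exact RelIso.ofSurjective (OrderEmbedding.ofMapLEIff (fun x => φ (e x)) hle) (hφ.comp hs)

/-! The patterns. -/

def bitIdx (a b : Nat) : Nat := (b - 1) * (b - 2) / 2 + (a - 1)
def bitsOf (n : Nat) : Nat := (n - 2) * (n - 3) / 2

/-- The order with code `p` on `{0, ..., n - 1}`: `0` is the least and `n - 1` the greatest element,
and every other relation is given by a bit of `p`. -/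
def pat (n p a b : Nat) : Bool :=
  or (Nat.beq a b) (or (Nat.beq a 0) (or (Nat.beq b (n - 1))
    (and (Nat.blt a b) (Nat.testBit p (bitIdx a b)))))

def transB (n p : Nat) : Bool := allN n fun a => allN n fun b => allN n fun c =>
  or (not (and (pat n p a b) (pat n p b c))) (pat n p a c)

def joinB (n p : Nat) : Bool := allN n fun a => allN n fun b => anyN n fun c =>
  and (pat n p a c) (and (pat n p b c) (allN n fun d =>
    or (not (and (pat n p a d) (pat n p b d))) (pat n p c d)))

def cutB (n p : Nat) : Bool := anyN n fun c => and (Nat.blt 0 c) (and (Nat.blt c (n - 1))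
  (allN n fun x => or (pat n p c x) (pat n p x c)))

def matOf (code a b : Nat) : Bool := Nat.testBit code (a * 7 + b)

def szOf (i : Nat) : Nat := (latList.getD i (0, 0)).1
def codeOf (i : Nat) : Nat := (latList.getD i (0, 0)).2

/-- The entry of a table for a key. -/
def tblFind (key : Nat) : List (Nat × Nat × List Nat) → Nat × List Nat
  | [] => (0, [])
  | e :: l => cond (Nat.beq e.1 key) e.2 (tblFind key l)

def permB (n : Nat) (s : List Nat) : Bool :=
  and (allN n fun a => Nat.blt (nth s a) n)
    (allN n fun a => allN a fun b => not (Nat.beq (nth s a) (nth s b)))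

def checkEntry (n p i : Nat) (s : List Nat) : Bool :=
  and (Nat.blt i latList.length) (and (Nat.beq (szOf i) n) (and (permB n s)
    (allN n fun a => allN n fun b =>
      Nat.beq (cond (pat n p a b) 1 0) (cond (matOf (codeOf i) (nth s a) (nth s b)) 1 0))))

def tableB (n p : Nat) : Bool :=
  checkEntry n p (tblFind (n * 2048 + p) tbl).1 (tblFind (n * 2048 + p) tbl).2

def chkPat (n p : Nat) : Bool :=
  or (not (transB n p)) (or (not (joinB n p)) (or (cutB n p) (tableB n p)))

def chkAll : Bool := allN 8 fun n => or (Nat.beq n 0) (allN (2 ^ bitsOf n) fun p => chkPat n p)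

theorem chkAll_ok : chkAll = true := by decide +kernel

theorem bitIdx_lt : ∀ k : Fin 8, ∀ a b : Fin 8, 0 < a.val → a.val < b.val → b.val < k.val - 1 →
    bitIdx a.val b.val < bitsOf k.val := by decide +kernel

theorem bitIdx_inj : ∀ a b c d : Fin 7, 0 < a.val → a.val < b.val → 0 < c.val → c.val < d.val →
    bitIdx a.val b.val = bitIdx c.val d.val → a = c ∧ b = d := by decide +kernel

theorem exists_bits (g : Nat → Bool) : ∀ t : Nat, ∃ p, p < 2 ^ t ∧ ∀ i, i < t → p.testBit i = g i := by
  intro t
  induction t with
  | zero => exact ⟨0, by norm_num, fun i hi => by omega⟩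
  | succ t ih =>
    obtain ⟨p, hp, hg⟩ := ih
    refine ⟨2 ^ t * (g t).toNat + p, ?_, ?_⟩
    · have : (g t).toNat ≤ 1 := Bool.toNat_le _
      rw [pow_succ]
      nlinarith [Nat.pos_of_ne_zero (pow_ne_zero t (show 2 ≠ 0 by norm_num))]
    · intro i hi
      rw [Nat.testBit_two_pow_mul_add _ hp]
      by_cases h : i < t
      · simp only [h, if_true]
        exact hg i h
      · have e : i = t := by omega
        subst e
        simp only [lt_irrefl, if_false, Nat.sub_self, Nat.testBit_zero]
        cases g i <;> rfl

/-- The main induction. -/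
theorem rep_le7 (hall : ∀ i, i < latList.length → RepMat (szOf i) (matOf (codeOf i))) :
    ∀ (k : Nat) (L : Type) [Lattice L] [Fintype L] [Nonempty L], Fintype.card L = k → k ≤ 7 →
    Representable L := by
  intro k
  induction k using Nat.strong_induction_on with
  | _ k IH =>
  intro L _ _ _ hcard hk7
  classical
  have hkpos : 0 < k := by
    rw [← hcard]
    exact Fintype.card_pos
  letI : BoundedOrder L := Fintype.toBoundedOrder L
  -- a linear extension
  letI : Fintype (LinearExtension L) := inferInstanceAs (Fintype L)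
  let g : Fin k ≃o LinearExtension L := Fintype.orderIsoFinOfCardEq (LinearExtension L) hcard
  let f : L ≃ Fin k := (Equiv.refl L : L ≃ LinearExtension L).trans g.symm.toEquiv
  have hmono : ∀ x y : L, x ≤ y → f x ≤ f y := by
    intro x y h
    exact g.symm.monotone (toLinearExtension.monotone h)
  let z : Fin k := ⟨0, hkpos⟩
  let o : Fin k := ⟨k - 1, by omega⟩
  have hz : f.symm z = ⊥ := by
    have h1 : f ⊥ ≤ z := by
      have := hmono ⊥ (f.symm z) bot_le
      simpa using this
    have h2 : f ⊥ = z := by
      apply le_antisymm h1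
      exact Nat.zero_le _
    rw [← h2]
    simp
  have ho : f.symm o = ⊤ := by
    have h1 : o ≤ f ⊤ := by
      have := hmono (f.symm o) ⊤ le_top
      simpa using this
    have h2 : f ⊤ = o := by
      apply le_antisymm _ h1
      show (f ⊤).val ≤ k - 1
      have := (f ⊤).isLt
      omega
    rw [← h2]
    simp
  -- the relation on numbers
  let r : Nat → Nat → Prop := fun a b => ∃ (ha : a < k) (hb : b < k), f.symm ⟨a, ha⟩ ≤ f.symm ⟨b, hb⟩
  have hr_lt : ∀ a b, r a b → a ≤ b := by
    rintro a b ⟨ha, hb, h⟩
    have := hmono _ _ h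
    simpa using this
  -- the code of the relation
  obtain ⟨p, hpl, hp⟩ := exists_bits
    (fun i => decide (∃ a b, 0 < a ∧ a < b ∧ b < 7 ∧ bitIdx a b = i ∧ r a b)) (bitsOf k)
  have hpbit : ∀ a b, 0 < a → a < b → b < k - 1 → (p.testBit (bitIdx a b) = true ↔ r a b) := by
    intro a b h1 h2 h3
    have hb : bitIdx a b < bitsOf k :=
      bitIdx_lt ⟨k, by omega⟩ ⟨a, by omega⟩ ⟨b, by omega⟩ h1 h2 h3
    rw [hp _ hb]
    simp only [decide_eq_true_eq]
    constructor
    · rintro ⟨c, d, h4, h5, h6, h7, h8⟩
      obtain ⟨e1, e2⟩ := bitIdx_inj ⟨a, by omega⟩ ⟨b, by omega⟩ ⟨c, by omega⟩ ⟨d, h6⟩ h1 h2 h4 h5 h7.symm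
      have e1' : a = c := congrArg Fin.val e1
      have e2' : b = d := congrArg Fin.val e2
      rw [e1', e2']
      exact h8
    · intro h
      exact ⟨a, b, h1, h2, by omega, rfl, h⟩
  have hpat : ∀ a b, a < k → b < k → (pat k p a b = true ↔ r a b) := by
    intro a b ha hb
    constructor
    · intro h
      simp only [pat, Bool.or_eq_true, Bool.and_eq_true] at h
      rcases h with h | h | h | h
      · have e : a = b := beq_true h
        subst e
        exact ⟨ha, ha, le_refl _⟩
      · have e : a = 0 := beq_true h
        subst e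
        refine ⟨ha, hb, ?_⟩
        have : f.symm ⟨0, ha⟩ = ⊥ := hz
        rw [this]
        exact bot_le
      · have e : b = k - 1 := beq_true h
        subst e
        refine ⟨ha, hb, ?_⟩
        have : f.symm ⟨k - 1, hb⟩ = ⊤ := ho
        rw [this]
        exact le_top
      · have h1 : a < b := Nat.le_of_ble_eq_true h.1
        by_cases h2 : a = 0
        · subst h2
          refine ⟨ha, hb, ?_⟩
          have : f.symm ⟨0, ha⟩ = ⊥ := hz
          rw [this]
          exact bot_le
        · by_cases h3 : b = k - 1
          · subst h3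
            refine ⟨ha, hb, ?_⟩
            have : f.symm ⟨k - 1, hb⟩ = ⊤ := ho
            rw [this]
            exact le_top
          · exact (hpbit a b (by omega) h1 (by omega)).mp h.2
    · intro h
      have hle := hr_lt a b h
      simp only [pat, Bool.or_eq_true, Bool.and_eq_true]
      by_cases h1 : a = b
      · left; subst h1; simp
      · by_cases h2 : a = 0
        · right; left; subst h2; simp
        · by_cases h3 : b = k - 1
          · right; right; left; subst h3; simp
          · right; right; right
            exact ⟨Nat.ble_eq_true_of_le (by omega), (hpbit a b (by omega) (by omega) (by omega)).mpr h⟩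
  have hfull : ∀ x y : L, x ≤ y ↔ pat k p (f x).val (f y).val = true := by
    intro x y
    rw [hpat _ _ (f x).isLt (f y).isLt]
    constructor
    · intro h
      refine ⟨(f x).isLt, (f y).isLt, ?_⟩
      simpa using h
    · rintro ⟨_, _, h⟩
      simpa using h
  -- the main check
  have hchk : chkPat k p = true := by
    have h1 := allN_spec chkAll_ok k (by omega)
    simp only [Bool.or_eq_true] at h1
    rcases h1 with h1 | h1
    · have := beq_true h1; omega
    · exact allN_spec h1 p hpl
  have htrans : transB k p = true := by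
    apply allN_of; intro a ha
    apply allN_of; intro b hb
    apply allN_of; intro c hc
    simp only [Bool.or_eq_true, Bool.not_eq_true', Bool.and_eq_false_iff]
    by_cases h1 : pat k p a b = true
    · by_cases h2 : pat k p b c = true
      · right
        obtain ⟨_, _, h3⟩ := (hpat a b ha hb).mp h1
        obtain ⟨_, _, h4⟩ := (hpat b c hb hc).mp h2
        exact (hpat a c ha hc).mpr ⟨ha, hc, le_trans h3 h4⟩
      · left; right; simpa using h2
    · left; left; simpa using h1
  have hjoin : joinB k p = true := by
    apply allN_of; intro a ha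
    apply allN_of; intro b hb
    let c := f (f.symm ⟨a, ha⟩ ⊔ f.symm ⟨b, hb⟩)
    have hcs : f.symm c = f.symm ⟨a, ha⟩ ⊔ f.symm ⟨b, hb⟩ := by simp [c]
    apply anyN_of c.isLt
    simp only [Bool.and_eq_true]
    refine ⟨(hpat _ _ ha c.isLt).mpr ⟨ha, c.isLt, ?_⟩, (hpat _ _ hb c.isLt).mpr ⟨hb, c.isLt, ?_⟩, ?_⟩
    · show f.symm ⟨a, ha⟩ ≤ f.symm c
      rw [hcs]
      exact le_sup_left
    · show f.symm ⟨b, hb⟩ ≤ f.symm c
      rw [hcs]
      exact le_sup_right
    · apply allN_of; intro d hd
      simp only [Bool.or_eq_true, Bool.not_eq_true', Bool.and_eq_false_iff]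
      by_cases h1 : pat k p a d = true
      · by_cases h2 : pat k p b d = true
        · right
          obtain ⟨_, _, h3⟩ := (hpat a d ha hd).mp h1
          obtain ⟨_, _, h4⟩ := (hpat b d hb hd).mp h2
          refine (hpat _ _ c.isLt hd).mpr ⟨c.isLt, hd, ?_⟩
          show f.symm c ≤ _
          rw [hcs]
          exact sup_le h3 h4
        · left; right; simpa using h2
      · left; left; simpa using h1
  simp only [chkPat, htrans, hjoin, Bool.not_true, Bool.false_or, Bool.or_eq_true] at hchk
  rcases hchk with hcut | htab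
  · -- a cut element
    obtain ⟨c, hc, hc2⟩ := anyN_spec hcut
    simp only [Bool.and_eq_true] at hc2
    have c0 : 0 < c := Nat.le_of_ble_eq_true hc2.1
    have c1 : c < k - 1 := Nat.le_of_ble_eq_true hc2.2.1
    let cc : L := f.symm ⟨c, hc⟩
    have hcomp : ∀ x : L, x ≤ cc ∨ cc ≤ x := by
      intro x
      have h1 := allN_spec hc2.2.2 (f x).val (f x).isLt
      simp only [Bool.or_eq_true] at h1
      rcases h1 with h1 | h1
      · right
        obtain ⟨_, _, h2⟩ := (hpat _ _ hc (f x).isLt).mp h1
        simpa using h2
      · left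
        obtain ⟨_, _, h2⟩ := (hpat _ _ (f x).isLt hc).mp h1
        simpa using h2
    have hnetop : cc ≠ ⊤ := by
      intro e
      have : f.symm ⟨c, hc⟩ = f.symm o := by
        rw [ho]
        exact e
      have := congrArg Fin.val (f.symm.injective this)
      simp only [o] at this
      omega
    have hnebot : cc ≠ ⊥ := by
      intro e
      have : f.symm ⟨c, hc⟩ = f.symm z := by
        rw [hz]
        exact e
      have := congrArg Fin.val (f.symm.injective this)
      simp only [z] at this
      omega
    have h1 : Representable (Set.Iic cc) := by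
      letI : Fintype (Set.Iic cc) := Fintype.ofFinite _
      haveI : Nonempty (Set.Iic cc) := ⟨⟨cc, le_rfl⟩⟩
      have hlt : Fintype.card (Set.Iic cc) < k := by
        rw [← hcard]
        apply Fintype.card_subtype_lt (x := (⊤ : L))
        intro hle
        exact hnetop (top_le_iff.mp hle)
      exact IH _ hlt (Set.Iic cc) rfl (by omega)
    have h2 : Representable (Set.Ici cc) := by
      letI : Fintype (Set.Ici cc) := Fintype.ofFinite _
      haveI : Nonempty (Set.Ici cc) := ⟨⟨cc, le_rfl⟩⟩
      have hlt : Fintype.card (Set.Ici cc) < k := by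
        rw [← hcard]
        apply Fintype.card_subtype_lt (x := (⊥ : L))
        intro hle
        exact hnebot (le_bot_iff.mp hle)
      exact IH _ hlt (Set.Ici cc) rfl (by omega)
    exact ordinal_rep cc hcomp h1 h2
  · -- an entry of the table
    simp only [tableB, checkEntry, Bool.and_eq_true] at htab
    set i := (tblFind (k * 2048 + p) tbl).1
    set s := (tblFind (k * 2048 + p) tbl).2
    obtain ⟨h1, h2, h3, h4⟩ := htab
    have hi : i < latList.length := Nat.le_of_ble_eq_true h1
    have hsz : szOf i = k := beq_true h2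
    have hrep := hall i hi
    rw [hsz] at hrep
    simp only [permB, Bool.and_eq_true] at h3
    have hslt : ∀ a, a < k → nth s a < k := fun a ha => Nat.le_of_ble_eq_true (allN_spec h3.1 a ha)
    have hsinj : ∀ a b, a < k → b < k → nth s a = nth s b → a = b := by
      have key : ∀ a b, b < a → a < k → nth s a ≠ nth s b := by
        intro a b hba hak e
        have := allN_spec (allN_spec h3.2 a hak) b hba
        simp only [Bool.not_eq_true', e] at this
        simp at this
      intro a b ha hb e
      by_contra hne
      rcases Nat.lt_or_gt_of_ne hne with hlt | hgt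
      · exact key b a hlt hb e.symm
      · exact key a b hgt ha e
    let sf : Fin k → Fin k := fun a => ⟨nth s a.val, hslt a.val a.isLt⟩
    have hsfinj : Function.Injective sf := by
      intro a b e
      apply Fin.ext
      exact hsinj _ _ a.isLt b.isLt (congrArg Fin.val e)
    have hsfsurj : Function.Surjective sf := Finite.surjective_of_injective hsfinj
    refine Representable.of_repMat hrep (fun x => sf (f x)) (hsfsurj.comp f.surjective) ?_
    intro x y
    rw [hfull]
    have h5 := beq_true (allN_spec (allN_spec h4 _ (f x).isLt) _ (f y).isLt)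
    cases h6 : pat k p (f x).val (f y).val <;>
      cases h7 : matOf (codeOf i) (nth s (f x).val) (nth s (f y).val) <;>
      simp [h6, h7] at h5 ⊢

end Vale.Agent.Lib.P183
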