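import Vale.Agent.Lib.P183.RepBase

namespace Vale.Agent.Lib.P183

/-! Adding to an algebra all the maps that are constant on the classes of `r` and have image inside
a class of `h` leaves exactly the congruences `θ` with `θ ≤ r` or `h ≤ θ`. -/

/-- A unary operation. -/
def unOp {A : Type} (f : A → A) : Operation A := ⟨1, fun x => f (x 0)⟩

/-- The maps constant on the classes of `r` with image inside one class of `h`. -/
def PruneMap {A : Type} (r h : Setoid A) (f : A → A) : Prop :=
  (∀ x y, r x y → f x = f y) ∧ ∀ x y, h (f x) (f y)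

/-- All these maps, as a list of operations. -/
noncomputable def pruneOps {A : Type} [Finite A] (r h : Setoid A) : List (Operation A) :=
  ((Set.toFinite {f : A → A | PruneMap r h f}).toFinset.toList).map unOp

section

variable {A : Type} [Finite A] {r h θ : Setoid A} {ops0 : List (Operation A)}

theorem unOp_mem_pruneOps {f : A → A} (hf : PruneMap r h f) : unOp f ∈ pruneOps r h := by
  unfold pruneOps
  refine List.mem_map.mpr ⟨f, ?_, rfl⟩
  rw [Finset.mem_toList, Set.Finite.mem_toFinset]
  exact hf

theorem of_mem_pruneOps {o : Operation A} (ho : o ∈ pruneOps r h) :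
    ∃ f, PruneMap r h f ∧ o = unOp f := by
  unfold pruneOps at ho
  obtain ⟨f, hf, rfl⟩ := List.mem_map.mp ho
  rw [Finset.mem_toList, Set.Finite.mem_toFinset] at hf
  exact ⟨f, hf, rfl⟩

omit [Finite A] in
theorem unOp_cong {f : A → A} (hθ : ∀ x y, θ x y → θ (f x) (f y)) :
    ∀ x y : Fin (unOp f).1 → A, (∀ i, θ (x i) (y i)) → θ ((unOp f).2 x) ((unOp f).2 y) := by
  intro x y hxy
  exact hθ _ _ (hxy (0 : Fin 1))

theorem prune_cong_of (h0 : IsCongruence ops0 θ) (hd : θ ≤ r ∨ h ≤ θ) :
    IsCongruence (ops0 ++ pruneOps r h) θ := by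
  intro o ho
  rcases List.mem_append.mp ho with ho | ho
  · exact h0 o ho
  · obtain ⟨f, hf, rfl⟩ := of_mem_pruneOps ho
    apply unOp_cong
    intro x y hxy
    rcases hd with hd | hd
    · rw [hf.1 x y (hd hxy)]
    · exact hd (hf.2 x y)

theorem prune_base (hθ : IsCongruence (ops0 ++ pruneOps r h) θ) : IsCongruence ops0 θ :=
  fun o ho => hθ o (List.mem_append_left _ ho)

theorem prune_dich (hθ : IsCongruence (ops0 ++ pruneOps r h) θ) : θ ≤ r ∨ h ≤ θ := by
  classical
  by_cases hle : θ ≤ r
  · exact Or.inl hle
  · refine Or.inr ?_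
    have hle' : ¬ ∀ x y, θ x y → r x y := fun hh => hle (fun x y hxy => hh x y hxy)
    obtain ⟨x, hx⟩ := not_forall.mp hle'
    obtain ⟨y, hy⟩ := not_forall.mp hx
    obtain ⟨hxy, hnr⟩ := Classical.not_imp.mp hy
    intro u v huv
    let f : A → A := fun z => if r z x then u else v
    have hf : PruneMap r h f := by
      constructor
      · intro a b hab
        have : r a x ↔ r b x := ⟨fun e => r.trans (r.symm hab) e, fun e => r.trans hab e⟩
        simp only [f, this]
      · intro a b
        simp only [f]
        split_ifs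
        · exact h.refl _
        · exact huv
        · exact h.symm huv
        · exact h.refl _
    have h1 := hθ (unOp f) (List.mem_append_right _ (unOp_mem_pruneOps hf)) (fun _ => x) (fun _ => y)
      (fun _ => hxy)
    have h2 : θ (f x) (f y) := h1
    have h3 : f x = u := by simp [f]
    have h4 : f y = v := by
      have : ¬ r y x := fun e => hnr (r.symm e)
      simp [f, this]
    rwa [h3, h4] at h2

end

end Vale.Agent.Lib.P183
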