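import Vale.Agent.Lib.P183.TypeP

namespace Vale.Agent.Lib.P183

/-- Equality of truth values. -/
def eqB (a b : Bool) : Bool := cond a b (not b)

theorem eqB_spec {a b : Bool} (h : eqB a b = true) : a = b := by
  cases a <;> cases b <;> simp_all [eqB]

def checkMatU (i m : Nat) (parts : List (List Nat)) : Bool :=
  and (Nat.beq parts.length (szOf i)) (allN (szOf i) fun a => allN (szOf i) fun b =>
    eqB (refinesB m (nthL parts a) (nthL parts b)) (matOf (codeOf i) a b))

theorem repU_of_check (i m : Nat) (ops parts : List (List Nat)) (h1 : algOK m ops parts = true)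
    (h2 : checkMatU i m parts = true) : RepMat (szOf i) (matOf (codeOf i)) := by
  simp only [checkMatU, Bool.and_eq_true] at h2
  have h3 := repMat_of_algOK h1
  rw [beq_true h2.1] at h3
  exact h3.congr fun a b ha hb => eqB_spec (allN_spec (allN_spec h2.2 a ha) b hb)

def checkMatP (i N : Nat) (labs : List Nat) : Bool :=
  and (Nat.beq labs.length (szOf i)) (allN (szOf i) fun a => allN (szOf i) fun b =>
    eqB (refT N (nth labs a) (nth labs b)) (matOf (codeOf i) a b))

theorem repP_of_check (i N : Nat) (gens labs bms : List Nat) (stabW : List (List Nat))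
    (roots : List RootData) (joinT : List Nat) (mvT frT : Nat)
    (h1 : algP N gens labs bms stabW roots joinT mvT frT = true)
    (h2 : checkMatP i N labs = true) : RepMat (szOf i) (matOf (codeOf i)) := by
  simp only [checkMatP, Bool.and_eq_true] at h2
  have h3 := repMat_of_algP h1
  rw [beq_true h2.1] at h3
  exact h3.congr fun a b ha hb => eqB_spec (allN_spec (allN_spec h2.2 a ha) b hb)

end Vale.Agent.Lib.P183
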