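import Vale.Agent.Lib.P183.Data

namespace Vale.Agent.Lib.P183

open Equiv

/-- On numbers: the map sending `(∞, 0, 1)` to `(c, a, b)`, for a sorted triple `a < b < c`. -/
def gN (a b c x : Nat) : Nat :=
  cond (Nat.beq c 64) (tN (a % 64) (mN (nz (Nat.xor a b)) x))
    (tN (c % 64) (wN (tN (invN (Nat.xor a c) % 64)
      (mN (nz (Nat.xor (invN (Nat.xor a c)) (invN (Nat.xor b c)))) x))))

/-- The same map, as a permutation of the projective line. -/
def gP (a b c : Nat) : Perm (Fin 65) :=
  cond (Nat.beq c 64) (tP a * mP (Nat.xor a b))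
    (tP c * wP * tP (invN (Nat.xor a c))
      * mP (Nat.xor (invN (Nat.xor a c)) (invN (Nat.xor b c))))

theorem gP_val (a b c : Nat) (x : Fin 65) : (gP a b c x).val = gN a b c x.val := by
  unfold gP gN
  cases Nat.beq c 64 <;> rfl

/-- The six elements of the stabilizer of `{0, 1, ∞}`, on numbers. -/
def hN (h x : Nat) : Nat :=
  match h with
  | 0 => x
  | 1 => tN 1 x
  | 2 => wN x
  | 3 => wN (tN 1 x)
  | 4 => tN 1 (wN (tN 1 x))
  | _ => tN 1 (wN x)

def hP (h : Nat) : Perm (Fin 65) :=
  match h with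
  | 0 => 1
  | 1 => tP 1
  | 2 => wP
  | 3 => wP * tP 1
  | 4 => tP 1 * wP * tP 1
  | _ => tP 1 * wP

theorem hP_val (h : Nat) (x : Fin 65) : (hP h x).val = hN h x.val := by
  match h with
  | 0 => rfl
  | 1 => rfl
  | 2 => rfl
  | 3 => rfl
  | 4 => rfl
  | _ + 5 => rfl

def idx (a b c : Nat) : Nat :=
  Nat.add (Nat.add (Nat.div (Nat.mul (Nat.mul c (Nat.sub c 1)) (Nat.sub c 2)) 6)
    (Nat.div (Nat.mul b (Nat.sub b 1)) 2)) a

def sortApply (f : Nat → Nat → Nat → Nat) (x y z : Nat) : Nat :=
  cond (Nat.ble x y)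
    (cond (Nat.ble y z) (f x y z) (cond (Nat.ble x z) (f x z y) (f z x y)))
    (cond (Nat.ble x z) (f y x z) (cond (Nat.ble y z) (f y z x) (f z y x)))

def idxU (x y z : Nat) : Nat := sortApply idx x y z

def entry (i : Nat) : Nat := Nat.land (Nat.shiftRight forestTab (Nat.mul 10 i)) 1023

def lvE (e : Nat) : Nat := Nat.land e 15
def hE (e : Nat) : Nat := Nat.land (Nat.shiftRight e 4) 7
def rE (e : Nat) : Nat := Nat.shiftRight e 7

def code3 (a b c : Nat) : Nat := Nat.add (Nat.add (Nat.mul a 4225) (Nat.mul b 65)) c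

def memN (k : Nat) : List Nat → Bool
  | [] => false
  | x :: l => or (Nat.beq k x) (memN k l)

theorem memN_spec {k : Nat} : ∀ {l : List Nat}, memN k l = true → k ∈ l := by
  intro l
  induction l with
  | nil => intro h; simp [memN] at h
  | cons x l ih =>
    intro h
    simp only [memN, Bool.or_eq_true] at h
    rcases h with h | h
    · rw [Nat.eq_of_beq_eq_true h]; exact List.mem_cons_self
    · exact List.mem_cons_of_mem _ (ih h)

/-- Blocks, as lists of codes `a * 4225 + b * 65 + c` of sorted triples. -/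
def blk3 : List Nat := [129, 60670, 64829]
def blk7 : List Nat := [129, 27344, 31635, 44123, 48412, 86290, 90449]
def blk10 : List Nat := [123, 124, 129, 3829, 3834, 3899, 8054, 8059, 8124, 248949]
def blk21 : List Nat := [129, 10592, 14883, 19743, 23904, 27344, 31635, 36261, 40422, 44123, 48412, 53347, 57636, 60670, 64829, 71170, 75461, 78635, 82796, 86290, 90449]
def blk84 : List Nat := [79, 80, 87, 88, 89, 90, 129, 925, 932, 933, 934, 935, 974, 997, 998, 999, 1000, 1039, 1453, 1454, 1455, 1494, 1519, 1520, 1559, 1585, 1624, 1689, 5150, 5157, 5158, 5159, 5160, 5199, 5222, 5223, 5224, 5225, 5264, 5678, 5679, 5680, 5719, 5744, 5745, 5784, 5810, 5849, 5914, 60147, 60148, 60149, 60150, 60189, 60603, 60604, 60605, 60644, 60669, 60670, 60709, 60735, 60774, 60839, 64828, 64829, 64830, 64869, 64894, 64895, 64934, 64960, 64999, 65064, 94469, 94470, 94509, 94535, 94574, 94639, 98760, 98799, 98864, 103089]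
def rootList : Nat → List Nat
  | 1 => [194]
  | 2 => [1624]
  | 3 => [3899]
  | 4 => [14883, 19743, 36261, 53347, 71170, 78635]
  | 5 => [31635, 44123, 90449]
  | 6 => [64829]
  | _ => []

def blockOf : Nat → List Nat
  | 2 => blk84
  | 3 => blk10
  | 4 => blk21
  | 5 => blk7
  | 6 => blk3
  | _ => []

/-- The check made for one sorted triple. -/
def checkE (a b c e lv r : Nat) : Bool :=
  cond (Nat.beq lv 15) (and (Nat.beq a 0) (and (Nat.beq b 1) (Nat.beq c 64)))
    (and (cond (Nat.beq r 1) true (memN (code3 a b c) (blockOf r)))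
      (cond (Nat.beq lv 0) (memN (code3 a b c) (rootList r))
        (and (Nat.blt (lvE (entry (idxU (gN a b c (hN (hE e) a)) (gN a b c (hN (hE e) b))
              (gN a b c (hN (hE e) c))))) lv)
          (Nat.beq (rE (entry (idxU (gN a b c (hN (hE e) a)) (gN a b c (hN (hE e) b))
              (gN a b c (hN (hE e) c))))) r))))

def checkOne (a b c e : Nat) : Bool := checkE a b c e (lvE e) (rE e)

def loopA (b c : Nat) : Nat → Bool
  | 0 => true
  | a + 1 => and (checkOne a b c (entry (idx a b c))) (loopA b c a)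

def loopB (c : Nat) : Nat → Bool
  | 0 => true
  | b + 1 => and (loopA b c b) (loopB c b)

def loopC : Nat → Bool
  | 0 => true
  | c + 1 => and (loopB c c) (loopC c)

end Vale.Agent.Lib.P183
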