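import Vale.Agent.Lib.P183.PatLogic

namespace Vale.Agent.Lib.P183

/-! A verified check for transitive permutation algebras given by tables coded in big numbers. -/

/-- Entry `x` of a table with entries of 16 bits. -/
def getT (t x : Nat) : Nat := Nat.land (Nat.shiftRight t (Nat.mul 16 x)) 65535

/-- The word `[g1, ..., gk]` acts as `g1 (g2 (... (gk x)))`. -/
def evalW (gens : List Nat) : List Nat → Nat → Nat
  | [], x => x
  | g :: w, x => getT (nth gens g) (evalW gens w x)

/-- Add an element to a bit set. -/
def setB (m y : Nat) : Nat := Nat.lor m (Nat.shiftLeft 1 y)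

theorem testBit_setB (m y z : Nat) :
    Nat.testBit (setB m y) z = (Nat.testBit m z || decide (z = y)) := by
  show Nat.testBit (m ||| (1 <<< y)) z = _
  rw [Nat.testBit_or]
  congr 1
  rw [Nat.one_shiftLeft, Nat.testBit_two_pow]
  by_cases h : z = y
  · simp [h]
  · have h2 : ¬ y = z := fun e => h e.symm
    simp [h, h2]

/-- The image of a table, as a bit set. -/
def imgMask (t : Nat) : Nat → Nat
  | 0 => 0
  | n + 1 => setB (imgMask t n) (getT t n)

theorem imgMask_spec (t : Nat) : ∀ n y, Nat.testBit (imgMask t n) y = true → ∃ x, x < n ∧ getT t x = y := by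
  intro n
  induction n with
  | zero => intro y h; simp [imgMask] at h
  | succ n ih =>
    intro y h
    simp only [imgMask, testBit_setB, Bool.or_eq_true, decide_eq_true_eq] at h
    rcases h with h | h
    · obtain ⟨x, hx, e⟩ := ih y h
      exact ⟨x, by omega, e⟩
    · exact ⟨n, by omega, h.symm⟩

/-- A table of a permutation of `{0, ..., N - 1}`. -/
def permOK (N t : Nat) : Bool :=
  and (allN N fun x => Nat.blt (getT t x) N) (allN N fun y => Nat.testBit (imgMask t N) y)

def subMask (N a b : Nat) : Bool := allN N fun x => or (not (Nat.testBit a x)) (Nat.testBit b x)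

theorem subMask_spec {N a b x : Nat} (h : subMask N a b = true) (hx : x < N)
    (ha : Nat.testBit a x = true) : Nat.testBit b x = true := by
  have h1 := allN_spec h x hx
  simp only [Bool.or_eq_true, Bool.not_eq_true'] at h1
  rcases h1 with h1 | h1
  · rw [ha] at h1; exact absurd h1 (by decide)
  · exact h1

/-- Breadth-first search. -/
def stepG (gens : List Nat) (x : Nat) : List (List Nat) → Nat → List Nat → Nat × List Nat
  | [], m, fr => (m, fr)
  | w :: ws, m, fr =>
    cond (Nat.testBit m (evalW gens w x)) (stepG gens x ws m fr)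
      (stepG gens x ws (setB m (evalW gens w x)) (evalW gens w x :: fr))

def bfs (gens : List Nat) (gs : List (List Nat)) : Nat → Nat → List Nat → Nat
  | 0, m, _ => m
  | _ + 1, m, [] => m
  | f + 1, m, x :: fr =>
    bfs gens gs f (stepG gens x gs m fr).1 (stepG gens x gs m fr).2

/-- The bit set of a list. -/
def maskOf : List Nat → Nat
  | [] => 0
  | x :: l => setB (maskOf l) x

theorem maskOf_spec : ∀ (l : List Nat) (z : Nat), Nat.testBit (maskOf l) z = true → z ∈ l := by
  intro l
  induction l with
  | nil => intro z h; simp [maskOf] at h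
  | cons x l ih =>
    intro z h
    simp only [maskOf, testBit_setB, Bool.or_eq_true, decide_eq_true_eq] at h
    rcases h with h | h
    · exact List.mem_cons_of_mem _ (ih z h)
    · rw [h]; exact List.mem_cons_self

def closeB (gens : List Nat) (N : Nat) (gs : List (List Nat)) (l : List Nat) : Nat :=
  bfs gens gs (N + 1) (maskOf l) l

/-- The elements of a union of two bit sets below `n`. -/
def listUnion (a b : Nat) : Nat → List Nat
  | 0 => []
  | n + 1 => cond (or (Nat.testBit a n) (Nat.testBit b n)) (n :: listUnion a b n) (listUnion a b n)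

theorem listUnion_spec (a b : Nat) : ∀ n z, z ∈ listUnion a b n →
    z < n ∧ (Nat.testBit a z = true ∨ Nat.testBit b z = true) := by
  intro n
  induction n with
  | zero => intro z h; simp [listUnion] at h
  | succ n ih =>
    intro z h
    simp only [listUnion] at h
    cases h1 : or (Nat.testBit a n) (Nat.testBit b n)
    · rw [h1] at h
      simp only [cond_false] at h
      have := ih z h
      exact ⟨by omega, this.2⟩
    · rw [h1] at h
      simp only [cond_true, List.mem_cons] at h
      rcases h with rfl | h
      · simp only [Bool.or_eq_true] at h1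
        exact ⟨by omega, h1⟩
      · have := ih z h
        exact ⟨by omega, this.2⟩

/-- The data of a root: the point, a word sending the base point to it, and its region. -/
abbrev RootData := Nat × List Nat × Nat

section checks

variable (N : Nat) (gens labs bms : List Nat) (stabW : List (List Nat)) (roots : List RootData)
  (joinT : List Nat) (mvT frT : Nat)

def wordOK (w : List Nat) : Bool := w.all fun g => Nat.blt g gens.length

/-- The labelling `c` is by representatives of classes, and the class of `0` is given by `b`. -/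
def labOK (c b : Nat) : Bool :=
  and (Nat.beq (getT c 0) 0) (allN N fun x =>
    and (Nat.blt (getT c x) N) (and (Nat.beq (getT c (getT c x)) (getT c x))
    (and (Nat.beq (cond (Nat.testBit b x) 1 0) (cond (Nat.beq (getT c x) 0) 1 0))
    (gens.all fun t => Nat.beq (getT c (getT t x)) (getT c (getT t (getT c x)))))))

def levelOf (e : Nat) : Nat := e / 256
def indexOf (e : Nat) : Nat := e % 256

/-- The table that moves every point towards `0`. -/
def mvOK : Bool := allN N fun x => or (Nat.beq x 0)
  (and (Nat.blt (indexOf (getT mvT x)) gens.length)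
    (or (Nat.beq (getT (nth gens (indexOf (getT mvT x))) x) 0)
      (Nat.blt (levelOf (getT mvT (getT (nth gens (indexOf (getT mvT x))) x))) (levelOf (getT mvT x)))))

/-- The table that moves every point towards a root under the stabilizer of `0`. -/
def frOK : Bool := allN N fun x => or (Nat.beq x 0)
  (cond (Nat.beq (levelOf (getT frT x)) 0) (roots.any fun r => Nat.beq r.1 x)
    (and (Nat.blt (indexOf (getT frT x)) stabW.length)
      (Nat.blt (levelOf (getT frT (evalW gens (stabW.getD (indexOf (getT frT x)) []) x)))
        (levelOf (getT frT x)))))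

def rootOK (r : RootData) : Bool :=
  and (wordOK gens r.2.1) (and (Nat.beq (evalW gens r.2.1 0) r.1) (and (Nat.blt r.1 N)
  (and (Nat.testBit (nth bms r.2.2) r.1) (and (Nat.blt r.2.2 labs.length)
  (subMask N (nth bms r.2.2) (closeB gens N (r.2.1 :: stabW) [0, r.1]))))))

/-- The words of all roots in a union of two blocks. -/
def wordsIn (a b : Nat) : List (List Nat) :=
  roots.filterMap fun r => cond (or (Nat.testBit a r.1) (Nat.testBit b r.1)) (some r.2.1) none

def joinIdx (a b : Nat) : Nat := nth joinT (a * 8 + b)

def joinOK (a b : Nat) : Bool :=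
  and (Nat.blt (joinIdx joinT a b) labs.length)
  (and (subMask N (nth bms a) (nth bms (joinIdx joinT a b)))
  (and (subMask N (nth bms b) (nth bms (joinIdx joinT a b)))
  (and (Nat.ble a (joinIdx joinT a b))
  (or (or (Nat.beq (joinIdx joinT a b) a) (Nat.beq (joinIdx joinT a b) b))
    (subMask N (nth bms (joinIdx joinT a b))
      (closeB gens N (wordsIn roots (nth bms a) (nth bms b) ++ stabW)
        (listUnion (nth bms a) (nth bms b) N)))))))

/-- All checks. -/
def algP : Bool :=
  and (Nat.blt 0 N) (and (gens.all fun t => permOK N t)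
  (and (Nat.blt 0 labs.length)
  (and (Nat.beq bms.length labs.length)
  (and (allN labs.length fun j => labOK N gens (nth labs j) (nth bms j))
  (and (allN N fun x => Nat.beq (getT (nth labs 0) x) x)
  (and (mvOK N gens mvT)
  (and (stabW.all fun w => and (wordOK gens w) (Nat.beq (evalW gens w 0) 0))
  (and (frOK N gens stabW roots frT)
  (and (roots.all (rootOK N gens labs bms stabW))
  (allN labs.length fun a => allN labs.length fun b =>
    joinOK N gens labs bms stabW roots joinT a b))))))))))

/-- Refinement of labellings. -/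
def refT (c d : Nat) : Bool := allN N fun x => Nat.beq (getT d x) (getT d (getT c x))

end checks


section proofs

theorem nth_mem' : ∀ {l : List Nat} {j : Nat}, j < l.length → nth l j ∈ l := by
  intro l
  induction l with
  | nil => intro j hj; simp at hj
  | cons a l ih =>
    intro j hj
    cases j with
    | zero => exact List.mem_cons_self
    | succ j => exact List.mem_cons_of_mem _ (ih (by simpa using hj))

variable {N : Nat} {gens : List Nat}

/-- The operations of the algebra on `Fin N`. -/
def opT (hN : 0 < N) (t : Nat) : Operation (Fin N) :=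
  ⟨1, fun x => ⟨getT t (x 0).val % N, Nat.mod_lt _ hN⟩⟩

def opsT (hN : 0 < N) (gens : List Nat) : List (Operation (Fin N)) := gens.map (opT hN)

/-- The partition given by a labelling in a table. -/
def kerT (c : Nat) : Setoid (Fin N) := Setoid.ker fun x : Fin N => getT c x.val

theorem permOK_spec {t : Nat} (h : permOK N t = true) :
    (∀ x, x < N → getT t x < N) ∧ ∀ x y, x < N → y < N → getT t x = getT t y → x = y := by
  simp only [permOK, Bool.and_eq_true] at h
  have hr : ∀ x, x < N → getT t x < N := fun x hx => Nat.le_of_ble_eq_true (allN_spec h.1 x hx)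
  refine ⟨hr, ?_⟩
  let f : Fin N → Fin N := fun x => ⟨getT t x.val, hr x.val x.isLt⟩
  have hs : Function.Surjective f := by
    intro y
    obtain ⟨x, hx, e⟩ := imgMask_spec t N y.val (allN_spec h.2 y.val y.isLt)
    exact ⟨⟨x, hx⟩, Fin.ext e⟩
  have hi : Function.Injective f := Finite.injective_iff_surjective.mpr hs
  intro x y hx hy e
  have : f ⟨x, hx⟩ = f ⟨y, hy⟩ := Fin.ext e
  exact congrArg Fin.val (hi this)

theorem iterate_id (f : Fin N → Fin N) (hf : Function.Injective f) :
    ∃ n, 0 < n ∧ ∀ x, f^[n] x = x := by
  let p : Equiv.Perm (Fin N) := Equiv.ofBijective f ⟨hf, Finite.surjective_of_injective hf⟩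
  refine ⟨orderOf p, orderOf_pos p, fun x => ?_⟩
  have h1 : (p : Fin N → Fin N)^[orderOf p] = ((p ^ orderOf p : Equiv.Perm (Fin N)) : Fin N → Fin N) :=
    (Equiv.Perm.iterate_eq_pow p (orderOf p))
  rw [pow_orderOf_eq_one] at h1
  have h2 : (p : Fin N → Fin N) = f := rfl
  rw [h2] at h1
  rw [h1]
  rfl

variable (hg : ∀ t ∈ gens, permOK N t = true)
include hg

theorem evalW_lt {w : List Nat} (hw : wordOK gens w = true) {x : Nat} (hx : x < N) :
    evalW gens w x < N := by
  induction w with
  | nil => exact hx
  | cons g w ih =>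
    simp only [wordOK, List.all_cons, Bool.and_eq_true] at hw
    have hg' : g < gens.length := Nat.le_of_ble_eq_true hw.1
    exact (permOK_spec (hg _ (nth_mem' hg'))).1 _ (ih hw.2)

theorem evalW_inj {w : List Nat} (hw : wordOK gens w = true) {x y : Nat} (hx : x < N) (hy : y < N)
    (e : evalW gens w x = evalW gens w y) : x = y := by
  induction w with
  | nil => exact e
  | cons g w ih =>
    simp only [wordOK, List.all_cons, Bool.and_eq_true] at hw
    have hg' : g < gens.length := Nat.le_of_ble_eq_true hw.1
    have hw2 : wordOK gens w = true := hw.2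
    exact ih hw2 ((permOK_spec (hg _ (nth_mem' hg'))).2 _ _ (evalW_lt hg hw2 hx) (evalW_lt hg hw2 hy) e)

/-- The setoid is preserved by the generators. -/
def CompatS (gens : List Nat) (θ : Setoid (Fin N)) : Prop :=
  ∀ t ∈ gens, ∀ u v, relN θ u v → relN θ (getT t u) (getT t v)

omit hg in
theorem compat_word {θ : Setoid (Fin N)} (hθ : CompatS gens θ) {w : List Nat}
    (hw : wordOK gens w = true) {x y : Nat} (h : relN θ x y) :
    relN θ (evalW gens w x) (evalW gens w y) := by
  induction w with
  | nil => exact h
  | cons g w ih =>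
    simp only [wordOK, List.all_cons, Bool.and_eq_true] at hw
    have hg' : g < gens.length := Nat.le_of_ble_eq_true hw.1
    exact hθ _ (nth_mem' hg') _ _ (ih hw.2)

theorem reflect {θ : Setoid (Fin N)} (hθ : CompatS gens θ) {w : List Nat}
    (hw : wordOK gens w = true) {x y : Nat} (hx : x < N) (hy : y < N)
    (h : relN θ (evalW gens w x) (evalW gens w y)) : relN θ x y := by
  let f : Fin N → Fin N := fun x => ⟨evalW gens w x.val, evalW_lt hg hw x.isLt⟩
  have hf : Function.Injective f := by
    intro a b e
    exact Fin.ext (evalW_inj hg hw a.isLt b.isLt (congrArg Fin.val e))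
  obtain ⟨n, hn, hid⟩ := iterate_id f hf
  have key : ∀ k (a b : Fin N), relN θ a.val b.val → relN θ (f^[k] a).val (f^[k] b).val := by
    intro k
    induction k with
    | zero => intro a b h; exact h
    | succ k ih =>
      intro a b h
      rw [Function.iterate_succ_apply, Function.iterate_succ_apply]
      exact ih _ _ (compat_word hθ hw h)
  obtain ⟨m, rfl⟩ : ∃ m, n = m + 1 := ⟨n - 1, by omega⟩
  have h1 := key m (f ⟨x, hx⟩) (f ⟨y, hy⟩) h
  rw [← Function.iterate_succ_apply, ← Function.iterate_succ_apply, hid, hid] at h1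
  exact h1

omit hg in
theorem evalW_append (w w' : List Nat) (x : Nat) :
    evalW gens (w ++ w') x = evalW gens w (evalW gens w' x) := by
  induction w with
  | nil => rfl
  | cons g w ih => simp only [List.cons_append, evalW, ih]

omit hg in
theorem wordOK_append {w w' : List Nat} (h : wordOK gens w = true) (h' : wordOK gens w' = true) :
    wordOK gens (w ++ w') = true := by
  simp only [wordOK, List.all_append, Bool.and_eq_true]
  exact ⟨h, h'⟩

theorem move_to_zero {mvT : Nat} (hmv : mvOK N gens mvT = true) :
    ∀ n x, x < N → levelOf (getT mvT x) = n → ∃ w, wordOK gens w = true ∧ evalW gens w x = 0 := by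
  intro n
  induction n using Nat.strong_induction_on with
  | _ n ih =>
    intro x hx hl
    have h1 := allN_spec hmv x hx
    simp only [Bool.or_eq_true, Bool.and_eq_true] at h1
    rcases h1 with h1 | ⟨h2, h3⟩
    · exact ⟨[], rfl, beq_true h1⟩
    · have hgl : indexOf (getT mvT x) < gens.length := Nat.le_of_ble_eq_true h2
      have hw1 : wordOK gens [indexOf (getT mvT x)] = true := by
        simp only [wordOK, List.all_cons, List.all_nil, Bool.and_true]
        exact Nat.ble_eq_true_of_le hgl
      rcases h3 with h3 | h3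
      · exact ⟨[indexOf (getT mvT x)], hw1, beq_true h3⟩
      · have hlt : levelOf (getT mvT (getT (nth gens (indexOf (getT mvT x))) x)) < n := by
          rw [← hl]
          exact Nat.le_of_ble_eq_true h3
        have hy := (permOK_spec (hg _ (nth_mem' hgl))).1 _ hx
        obtain ⟨w, hw, e⟩ := ih _ hlt _ hy rfl
        exact ⟨w ++ [indexOf (getT mvT x)], wordOK_append hw hw1, by rw [evalW_append]; exact e⟩

omit hg in
/-- Soundness of the search. -/
theorem stepG_sound {P : Nat → Prop} {gs : List (List Nat)}
    (hgs : ∀ w ∈ gs, ∀ z, P z → P (evalW gens w z)) {x : Nat} (hx : P x) :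
    ∀ (l : List (List Nat)) (m : Nat) (fr : List Nat), (∀ w ∈ l, w ∈ gs) →
      (∀ z, Nat.testBit m z = true → P z) → (∀ z ∈ fr, P z) →
      (∀ z, Nat.testBit (stepG gens x l m fr).1 z = true → P z) ∧
        ∀ z ∈ (stepG gens x l m fr).2, P z := by
  intro l
  induction l with
  | nil => intro m fr _ h1 h2; exact ⟨h1, h2⟩
  | cons w l ih =>
    intro m fr hl h1 h2
    have hw : w ∈ gs := hl w List.mem_cons_self
    have hl' : ∀ w ∈ l, w ∈ gs := fun v hv => hl v (List.mem_cons_of_mem _ hv)
    have hy := hgs w hw x hx
    simp only [stepG]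
    cases Nat.testBit m (evalW gens w x)
    · simp only [cond_false]
      apply ih _ _ hl'
      · intro z hz
        simp only [testBit_setB, Bool.or_eq_true, decide_eq_true_eq] at hz
        rcases hz with hz | hz
        · exact h1 z hz
        · rw [hz]; exact hy
      · intro z hz
        rcases List.mem_cons.mp hz with rfl | hz
        · exact hy
        · exact h2 z hz
    · simp only [cond_true]
      exact ih _ _ hl' h1 h2

omit hg in
theorem bfs_sound {P : Nat → Prop} {gs : List (List Nat)}
    (hgs : ∀ w ∈ gs, ∀ z, P z → P (evalW gens w z)) :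
    ∀ (f m : Nat) (fr : List Nat), (∀ z, Nat.testBit m z = true → P z) → (∀ z ∈ fr, P z) →
      ∀ z, Nat.testBit (bfs gens gs f m fr) z = true → P z := by
  intro f
  induction f with
  | zero => intro m fr h1 _; exact h1
  | succ f ih =>
    intro m fr h1 h2
    cases fr with
    | nil => exact h1
    | cons x fr =>
      have hx : P x := h2 x List.mem_cons_self
      have hfr : ∀ z ∈ fr, P z := fun z hz => h2 z (List.mem_cons_of_mem _ hz)
      obtain ⟨h3, h4⟩ := stepG_sound hgs hx gs m fr (fun _ h => h) h1 hfr
      exact ih _ _ h3 h4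

omit hg in
theorem closeB_sound {P : Nat → Prop} {gs : List (List Nat)}
    (hgs : ∀ w ∈ gs, ∀ z, P z → P (evalW gens w z)) {l : List Nat} (hl : ∀ z ∈ l, P z) :
    ∀ z, Nat.testBit (closeB gens N gs l) z = true → P z :=
  bfs_sound hgs _ _ _ (fun z hz => hl z (maskOf_spec l z hz)) hl

omit hg in
theorem relN_symm {θ : Setoid (Fin N)} {u v : Nat} (h : relN θ u v) : relN θ v u := by
  obtain ⟨hu, hv, h⟩ := h
  exact ⟨hv, hu, θ.symm h⟩

omit hg in
theorem relN_trans {θ : Setoid (Fin N)} {u v w : Nat} (h1 : relN θ u v) (h2 : relN θ v w) :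
    relN θ u w := by
  obtain ⟨hu, hv, h⟩ := h1
  obtain ⟨_, hw, h'⟩ := h2
  exact ⟨hu, hw, θ.trans h h'⟩

omit hg in
theorem relN_refl {θ : Setoid (Fin N)} {u : Nat} (h : u < N) : relN θ u u := ⟨h, h, θ.refl _⟩

/-- The facts about a labelling. -/
theorem labOK_spec {c b : Nat} (h : labOK N gens c b = true) :
    getT c 0 = 0 ∧ (∀ x, x < N → getT c x < N) ∧ (∀ x, x < N → getT c (getT c x) = getT c x) ∧
    (∀ x, x < N → (Nat.testBit b x = true ↔ getT c x = 0)) ∧
    ∀ t ∈ gens, ∀ x, x < N → getT c (getT t x) = getT c (getT t (getT c x)) := by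
  simp only [labOK, Bool.and_eq_true] at h
  refine ⟨beq_true h.1, ?_, ?_, ?_, ?_⟩
  · intro x hx
    have := allN_spec h.2 x hx
    simp only [Bool.and_eq_true] at this
    exact Nat.le_of_ble_eq_true this.1
  · intro x hx
    have := allN_spec h.2 x hx
    simp only [Bool.and_eq_true] at this
    exact beq_true this.2.1
  · intro x hx
    have := allN_spec h.2 x hx
    simp only [Bool.and_eq_true] at this
    have h3 := beq_true this.2.2.1
    cases h4 : Nat.testBit b x <;> cases h5 : Nat.beq (getT c x) 0 <;> simp only [h4, h5] at h3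
    · simp only [Bool.false_eq_true, false_iff]
      intro e
      rw [e] at h5
      exact absurd h5 (by decide)
    · simp at h3
    · simp at h3
    · simp only [true_iff]
      exact beq_true h5
  · intro t ht x hx
    have := allN_spec h.2 x hx
    simp only [Bool.and_eq_true] at this
    exact beq_true (List.all_eq_true.mp this.2.2.2 t ht)

theorem compat_kerT {c b : Nat} (h : labOK N gens c b = true) : CompatS gens (kerT c : Setoid (Fin N)) := by
  obtain ⟨_, _, _, _, h5⟩ := labOK_spec hg h
  rintro t ht u v ⟨hu, hv, e⟩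
  have hr := (permOK_spec (hg t ht)).1
  refine ⟨hr u hu, hr v hv, ?_⟩
  have e' : getT c u = getT c v := e
  show getT c (getT t u) = getT c (getT t v)
  rw [h5 t ht u hu, h5 t ht v hv, e']

theorem cong_kerT (hN : 0 < N) {c b : Nat} (h : labOK N gens c b = true) :
    IsCongruence (opsT hN gens) (kerT c) := by
  intro o ho x y hxy
  obtain ⟨t, ht, rfl⟩ := List.mem_map.mp ho
  have hr := (permOK_spec (hg t ht)).1
  have hxl := (x (0 : Fin 1)).isLt
  have hyl := (y (0 : Fin 1)).isLt
  obtain ⟨_, _, e⟩ := compat_kerT hg h t ht _ _ ⟨hxl, hyl, hxy (0 : Fin 1)⟩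
  show getT c (getT t (x (0 : Fin 1)).val % N) = getT c (getT t (y (0 : Fin 1)).val % N)
  rw [Nat.mod_eq_of_lt (hr _ hxl), Nat.mod_eq_of_lt (hr _ hyl)]
  exact e

omit hg in
theorem compat_of_cong (hN : 0 < N) (hr : ∀ t ∈ gens, ∀ x, x < N → getT t x < N) {θ : Setoid (Fin N)}
    (hθ : IsCongruence (opsT hN gens) θ) : CompatS gens θ := by
  rintro t ht u v ⟨hu, hv, h⟩
  have h1 := hr t ht u hu
  have h2 := hr t ht v hv
  refine ⟨h1, h2, ?_⟩
  have := hθ (opT hN t) (List.mem_map.mpr ⟨t, ht, rfl⟩) (fun _ => ⟨u, hu⟩) (fun _ => ⟨v, hv⟩)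
    (fun _ => h)
  simpa [opT, Nat.mod_eq_of_lt h1, Nat.mod_eq_of_lt h2] using this

end proofs

section main

variable {N : Nat} {gens labs bms : List Nat} {stabW : List (List Nat)} {roots : List RootData}
  {joinT : List Nat} {mvT frT : Nat}

/-- Every congruence is one of the partitions. -/
theorem cong_classifyP (hok : algP N gens labs bms stabW roots joinT mvT frT = true) (hN : 0 < N)
    (θ : Setoid (Fin N)) (hθ : IsCongruence (opsT hN gens) θ) :
    ∃ j, j < labs.length ∧ θ = kerT (nth labs j) := by
  simp only [algP, Bool.and_eq_true] at hok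
  obtain ⟨_, hgens, hlen, _, hlabs, hbot, hmv, hstab, hfr, hroots, hjoin⟩ := hok
  have hg : ∀ t ∈ gens, permOK N t = true := List.all_eq_true.mp hgens
  have hlen' : 0 < labs.length := Nat.le_of_ble_eq_true hlen
  have hrange : ∀ t ∈ gens, ∀ x, x < N → getT t x < N := fun t ht => (permOK_spec (hg t ht)).1
  have hC : CompatS gens θ := compat_of_cong hN hrange hθ
  have hlab : ∀ j, j < labs.length → labOK N gens (nth labs j) (nth bms j) = true :=
    fun j hj => allN_spec hlabs j hj
  have hspec := fun j hj => labOK_spec hg (hlab j hj)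
  -- the class of the base point
  let P : Nat → Prop := fun z => relN θ z 0
  have P0 : P 0 := relN_refl hN
  have Plt : ∀ z, P z → z < N := fun z hz => hz.1
  have hpres : ∀ w, wordOK gens w = true → P (evalW gens w 0) → ∀ z, P z → P (evalW gens w z) := by
    intro w hw h0 z hz
    exact relN_trans (compat_word hC hw hz) h0
  have hstab' : ∀ w ∈ stabW, wordOK gens w = true ∧ evalW gens w 0 = 0 := by
    intro w hw
    have := List.all_eq_true.mp hstab w hw
    simp only [Bool.and_eq_true] at this
    exact ⟨this.1, beq_true this.2⟩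
  have hstabP : ∀ w ∈ stabW, ∀ z, P z → P (evalW gens w z) := by
    intro w hw
    obtain ⟨h1, h2⟩ := hstab' w hw
    exact hpres w h1 (by rw [h2]; exact P0)
  have hroot' : ∀ r ∈ roots, wordOK gens r.2.1 = true ∧ evalW gens r.2.1 0 = r.1 ∧ r.1 < N ∧
      Nat.testBit (nth bms r.2.2) r.1 = true ∧ r.2.2 < labs.length ∧
      subMask N (nth bms r.2.2) (closeB gens N (r.2.1 :: stabW) [0, r.1]) = true := by
    intro r hr
    have := List.all_eq_true.mp hroots r hr
    simp only [rootOK, Bool.and_eq_true] at this
    exact ⟨this.1, beq_true this.2.1, Nat.le_of_ble_eq_true this.2.2.1, this.2.2.2.1,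
      Nat.le_of_ble_eq_true this.2.2.2.2.1, this.2.2.2.2.2⟩
  have hrootP : ∀ r ∈ roots, P r.1 → ∀ w, w = r.2.1 → ∀ z, P z → P (evalW gens w z) := by
    intro r hr hp w hw
    obtain ⟨h1, h2, _⟩ := hroot' r hr
    subst hw
    exact hpres _ h1 (by rw [h2]; exact hp)
  have hrootB : ∀ r ∈ roots, P r.1 → ∀ x, x < N → Nat.testBit (nth bms r.2.2) x = true → P x := by
    intro r hr hp x hx hb
    obtain ⟨_, _, _, _, _, h6⟩ := hroot' r hr
    have h7 := subMask_spec h6 hx hb
    refine closeB_sound (P := P) (gs := r.2.1 :: stabW) (l := [0, r.1]) ?_ ?_ x h7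
    · intro w hw
      rcases List.mem_cons.mp hw with rfl | hw
      · exact hrootP r hr hp _ rfl
      · exact hstabP w hw
    · intro z hz
      simp only [List.mem_cons, List.not_mem_nil, or_false] at hz
      rcases hz with rfl | rfl
      · exact P0
      · exact hp
  -- the forest
  have hforest : ∀ n x, x < N → x ≠ 0 → levelOf (getT frT x) = n → P x →
      ∃ r ∈ roots, P r.1 ∧ ∀ j, j < labs.length →
        Nat.testBit (nth bms j) r.1 = true → Nat.testBit (nth bms j) x = true := by
    intro n
    induction n using Nat.strong_induction_on with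
    | _ n ih =>
      intro x hx hne hl hp
      have h1 := allN_spec hfr x hx
      simp only [Bool.or_eq_true] at h1
      rcases h1 with h1 | h1
      · exact absurd (beq_true h1) hne
      · cases h2 : Nat.beq (levelOf (getT frT x)) 0
        · rw [h2] at h1
          simp only [cond_false, Bool.and_eq_true] at h1
          have hidx : indexOf (getT frT x) < stabW.length := Nat.le_of_ble_eq_true h1.1
          set s := stabW.getD (indexOf (getT frT x)) [] with hs
          have hsm : s ∈ stabW := by
            rw [hs, List.getD_eq_getElem _ _ hidx]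
            exact List.getElem_mem hidx
          obtain ⟨s1, s2⟩ := hstab' s hsm
          have hy : evalW gens s x < N := evalW_lt hg s1 hx
          have hy0 : evalW gens s x ≠ 0 := by
            intro e
            rw [← s2] at e
            exact hne (evalW_inj hg s1 hx hN e)
          have hlt : levelOf (getT frT (evalW gens s x)) < n := by
            rw [← hl]
            exact Nat.le_of_ble_eq_true h1.2
          obtain ⟨r, hr, hpr, hrb⟩ := ih _ hlt _ hy hy0 rfl (hstabP s hsm x hp)
          refine ⟨r, hr, hpr, fun j hj hb => ?_⟩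
          have h3 := hrb j hj hb
          obtain ⟨l0, _, _, l4, _⟩ := hspec j hj
          have h4 : getT (nth labs j) (evalW gens s x) = 0 := (l4 _ hy).mp h3
          have h5 : relN (kerT (nth labs j) : Setoid (Fin N)) (evalW gens s x) (evalW gens s 0) := by
            rw [s2]
            exact ⟨hy, hN, by show getT _ _ = getT _ _; rw [h4, l0]⟩
          obtain ⟨_, _, h6⟩ := reflect hg (compat_kerT hg (hlab j hj)) s1 hx hN h5
          have h7 : getT (nth labs j) x = getT (nth labs j) 0 := h6
          exact (l4 x hx).mpr (by rw [h7, l0])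
        · rw [h2] at h1
          simp only [cond_true, List.any_eq_true] at h1
          obtain ⟨r, hr, e⟩ := h1
          have e' : r.1 = x := beq_true e
          exact ⟨r, hr, by rw [e']; exact hp, fun j _ hb => by rw [← e']; exact hb⟩
  -- the largest block inside the class
  classical
  let J : Nat → Prop := fun l => l < labs.length ∧ ∀ x, x < N → Nat.testBit (nth bms l) x = true → P x
  have J0 : J 0 := by
    refine ⟨hlen', fun x hx hb => ?_⟩
    obtain ⟨_, _, _, l4, _⟩ := hspec 0 hlen'
    have h1 := (l4 x hx).mp hb
    rw [beq_true (allN_spec hbot x hx)] at h1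
    rw [h1]
    exact P0
  let j := Nat.findGreatest J labs.length
  have Jj : J j := Nat.findGreatest_spec (Nat.zero_le _) J0
  have jmax : ∀ l, J l → l ≤ j := fun l hl => Nat.le_findGreatest (le_of_lt hl.1) hl
  have hjlt : j < labs.length := Jj.1
  obtain ⟨l0, l1, l2, l4, l5⟩ := hspec j hjlt
  have hsub : ∀ x, x < N → P x → Nat.testBit (nth bms j) x = true := by
    intro x hx hp
    by_cases hx0 : x = 0
    · rw [hx0]
      exact (l4 0 hN).mpr l0
    obtain ⟨r, hr, hpr, hrb⟩ := hforest _ x hx hx0 rfl hp
    apply hrb j hjlt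
    obtain ⟨_, _, r3, r4, r5, _⟩ := hroot' r hr
    have Jr : J r.2.2 := ⟨r5, hrootB r hr hpr⟩
    have hjo := allN_spec (allN_spec hjoin j hjlt) r.2.2 r5
    simp only [joinOK, Bool.and_eq_true, Bool.or_eq_true] at hjo
    obtain ⟨j1, j2, j3, j4, j5⟩ := hjo
    set c := joinIdx joinT j r.2.2 with hc
    have hclt : c < labs.length := Nat.le_of_ble_eq_true j1
    have Jc : J c := by
      rcases j5 with (j5 | j5) | j5
      · rw [beq_true j5]; exact Jj
      · rw [beq_true j5]; exact Jr
      · refine ⟨hclt, fun y hy hb => ?_⟩
        have h7 := subMask_spec j5 hy hb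
        refine closeB_sound (P := P) ?_ ?_ y h7
        · intro w hw
          rcases List.mem_append.mp hw with hw | hw
          · simp only [wordsIn, List.mem_filterMap] at hw
            obtain ⟨r', hr', e⟩ := hw
            cases h8 : or (Nat.testBit (nth bms j) r'.1) (Nat.testBit (nth bms r.2.2) r'.1)
            · rw [h8] at e
              simp at e
            · rw [h8] at e
              simp only [cond_true, Option.some.injEq] at e
              have hpr' : P r'.1 := by
                obtain ⟨_, _, r3', _⟩ := hroot' r' hr'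
                simp only [Bool.or_eq_true] at h8
                rcases h8 with h8 | h8
                · exact Jj.2 _ r3' h8
                · exact Jr.2 _ r3' h8
              exact hrootP r' hr' hpr' w e.symm
          · exact hstabP w hw
        · intro z hz
          obtain ⟨z1, z2⟩ := listUnion_spec _ _ _ _ hz
          rcases z2 with z2 | z2
          · exact Jj.2 _ z1 z2
          · exact Jr.2 _ z1 z2
    have hcj : c = j := le_antisymm (jmax c Jc) (Nat.le_of_ble_eq_true j4)
    rw [hcj] at j3
    exact subMask_spec j3 r3 r4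
  -- conclusion
  refine ⟨j, hjlt, ?_⟩
  have hCk := compat_kerT hg (hlab j hjlt)
  apply Setoid.ext
  intro x y
  obtain ⟨w, hw, e⟩ := move_to_zero hg hmv _ x.val x.isLt rfl
  have hwy := evalW_lt hg hw y.isLt
  constructor
  · intro h
    have h1 : relN θ (evalW gens w x.val) (evalW gens w y.val) :=
      compat_word hC hw ⟨x.isLt, y.isLt, h⟩
    rw [e] at h1
    have h2 : P (evalW gens w y.val) := relN_symm h1
    have h3 := (l4 _ hwy).mp (hsub _ hwy h2)
    have h4 : relN (kerT (nth labs j) : Setoid (Fin N)) (evalW gens w x.val) (evalW gens w y.val) := by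
      rw [e]
      exact ⟨hN, hwy, by show getT _ _ = getT _ _; rw [h3, l0]⟩
    obtain ⟨_, _, h5⟩ := reflect hg hCk hw x.isLt y.isLt h4
    exact h5
  · intro h
    have h1 : relN (kerT (nth labs j) : Setoid (Fin N)) (evalW gens w x.val) (evalW gens w y.val) :=
      compat_word hCk hw ⟨x.isLt, y.isLt, h⟩
    rw [e] at h1
    obtain ⟨_, _, h2⟩ := h1
    have h3 : getT (nth labs j) 0 = getT (nth labs j) (evalW gens w y.val) := h2
    have h4 : Nat.testBit (nth bms j) (evalW gens w y.val) = true := (l4 _ hwy).mpr (by rw [← h3, l0])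
    have h5 : P (evalW gens w y.val) := Jj.2 _ hwy h4
    have h6 : relN θ (evalW gens w x.val) (evalW gens w y.val) := by
      rw [e]
      exact relN_symm h5
    obtain ⟨_, _, h7⟩ := reflect hg hC hw x.isLt y.isLt h6
    exact h7

theorem kerT_le_iff {c d b : Nat} (hg : ∀ t ∈ gens, permOK N t = true)
    (h : labOK N gens c b = true) :
    (kerT c : Setoid (Fin N)) ≤ kerT d ↔ refT N c d = true := by
  obtain ⟨_, l1, l2, _, _⟩ := labOK_spec hg h
  constructor
  · intro hle
    apply allN_of
    intro x hx
    have h1 : kerT c (⟨x, hx⟩ : Fin N) ⟨getT c x, l1 x hx⟩ := (l2 x hx).symm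
    have h2 : getT d x = getT d (getT c x) := hle h1
    rw [← h2]
    simp
  · intro hr x y hxy
    have h1 := beq_true (allN_spec hr x.val x.isLt)
    have h2 := beq_true (allN_spec hr y.val y.isLt)
    have h3 : getT c x.val = getT c y.val := hxy
    show getT d x.val = getT d y.val
    rw [h1, h2, h3]

/-- A transitive permutation algebra passing the checks gives a representation. -/
theorem repMat_of_algP (hok : algP N gens labs bms stabW roots joinT mvT frT = true) :
    RepMat labs.length fun a b => refT N (nth labs a) (nth labs b) := by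
  have hok2 := hok
  simp only [algP, Bool.and_eq_true] at hok2
  obtain ⟨hN0, hgens, _, _, hlabs, _⟩ := hok2
  have hN : 0 < N := Nat.le_of_ble_eq_true hN0
  have hg : ∀ t ∈ gens, permOK N t = true := List.all_eq_true.mp hgens
  have hlab : ∀ j, j < labs.length → labOK N gens (nth labs j) (nth bms j) = true :=
    fun j hj => allN_spec hlabs j hj
  haveI : Nonempty (Fin N) := ⟨⟨0, hN⟩⟩
  refine ⟨Fin N, inferInstance, inferInstance, opsT hN gens,
    fun j => ⟨kerT (nth labs j.val), cong_kerT hg hN (hlab j.val j.isLt)⟩, ?_, ?_⟩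
  · rintro ⟨θ, hθ⟩
    obtain ⟨j, hj, e⟩ := cong_classifyP hok hN θ hθ
    exact ⟨⟨j, hj⟩, Subtype.ext e.symm⟩
  · intro a b
    exact kerT_le_iff hg (hlab a.val a.isLt)

end main

end Vale.Agent.Lib.P183
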