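import Vale.Agent.Lib.P183.Defs

namespace Vale.Agent.Lib.P183

/-! A verified check for small unary algebras given by tables. -/

/-- Entry of a list of numbers. -/
def nth : List Nat → Nat → Nat
  | [], _ => 0
  | a :: _, 0 => a
  | _ :: l, n + 1 => nth l n

/-- Entry of a list of lists. -/
def nthL : List (List Nat) → Nat → List Nat
  | [], _ => []
  | a :: _, 0 => a
  | _ :: l, n + 1 => nthL l n

def allN : Nat → (Nat → Bool) → Bool
  | 0, _ => true
  | n + 1, p => and (p n) (allN n p)

def anyN : Nat → (Nat → Bool) → Bool
  | 0, _ => false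
  | n + 1, p => or (p n) (anyN n p)

theorem allN_spec : ∀ {n : Nat} {p : Nat → Bool}, allN n p = true → ∀ i, i < n → p i = true := by
  intro n
  induction n with
  | zero => intro p _ i hi; omega
  | succ n ih =>
    intro p h i hi
    simp only [allN, Bool.and_eq_true] at h
    rcases Nat.lt_succ_iff_lt_or_eq.mp hi with h1 | h1
    · exact ih h.2 i h1
    · rw [h1]; exact h.1

theorem anyN_spec : ∀ {n : Nat} {p : Nat → Bool}, anyN n p = true → ∃ i, i < n ∧ p i = true := by
  intro n
  induction n with
  | zero => intro p h; simp [anyN] at h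
  | succ n ih =>
    intro p h
    simp only [anyN, Bool.or_eq_true] at h
    rcases h with h | h
    · exact ⟨n, Nat.lt_succ_self n, h⟩
    · obtain ⟨i, hi, h2⟩ := ih h
      exact ⟨i, Nat.lt_succ_of_lt hi, h2⟩

theorem allN_of : ∀ {n : Nat} {p : Nat → Bool}, (∀ i, i < n → p i = true) → allN n p = true := by
  intro n
  induction n with
  | zero => intro p _; rfl
  | succ n ih =>
    intro p h
    simp only [allN, Bool.and_eq_true]
    exact ⟨h n (Nat.lt_succ_self n), ih fun i hi => h i (Nat.lt_succ_of_lt hi)⟩

theorem anyN_of {n : Nat} {p : Nat → Bool} {i : Nat} (hi : i < n) (h : p i = true) :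
    anyN n p = true := by
  induction n with
  | zero => omega
  | succ n ih =>
    simp only [anyN, Bool.or_eq_true]
    rcases Nat.lt_succ_iff_lt_or_eq.mp hi with h1 | h1
    · exact Or.inr (ih h1)
    · rw [h1] at h; exact Or.inl h

theorem beq_true {a b : Nat} (h : Nat.beq a b = true) : a = b := Nat.eq_of_beq_eq_true h
theorem beq_refl' (a : Nat) : Nat.beq a a = true := by simp

theorem nth_map (f : Nat → Nat) : ∀ (l : List Nat) (i : Nat), i < l.length →
    nth (l.map f) i = f (nth l i) := by
  intro l
  induction l with
  | nil => intro i hi; simp at hi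
  | cons a l ih =>
    intro i hi
    cases i with
    | zero => rfl
    | succ i =>
      simp only [List.map_cons, nth]
      exact ih i (by simpa using hi)

/-- Merge the classes of `a` and `b`, keeping the smaller label. -/
def mergeL (c : List Nat) (a b : Nat) : List Nat :=
  cond (Nat.beq (nth c a) (nth c b)) c
    (cond (Nat.ble (nth c a) (nth c b))
      (c.map fun z => cond (Nat.beq z (nth c b)) (nth c a) z)
      (c.map fun z => cond (Nat.beq z (nth c a)) (nth c b) z))

def stepOp (m : Nat) (u : Nat) (c : List Nat) (t : List Nat) : List Nat :=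
  cond (and (Nat.blt (nth c u) m) (Nat.beq (nth c (nth c u)) (nth c u)))
    (mergeL c (nth t u) (nth t (nth c u))) c

def passU (m : Nat) (ops : List (List Nat)) (c : List Nat) (u : Nat) : List Nat :=
  ops.foldl (stepOp m u) c

def passAll (m : Nat) (ops : List (List Nat)) : Nat → List Nat → List Nat
  | 0, c => c
  | n + 1, c => passAll m ops n (passU m ops c n)

def eqL : List Nat → List Nat → Bool
  | [], [] => true
  | a :: l, b :: k => and (Nat.beq a b) (eqL l k)
  | _, _ => false

theorem eqL_spec : ∀ {l k : List Nat}, eqL l k = true → l = k := by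
  intro l
  induction l with
  | nil =>
    intro k h
    cases k with
    | nil => rfl
    | cons b k => simp [eqL] at h
  | cons a l ih =>
    intro k h
    cases k with
    | nil => simp [eqL] at h
    | cons b k =>
      simp only [eqL, Bool.and_eq_true] at h
      rw [beq_true h.1, ih h.2]

/-- Repeat the passes until nothing changes. -/
def closeLoop (m : Nat) (ops : List (List Nat)) : Nat → List Nat → List Nat
  | 0, c => c
  | n + 1, c =>
    cond (eqL (passAll m ops m c) c) c (closeLoop m ops n (passAll m ops m c))

/-- The congruence generated by a partition and a pair. -/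
def closureL (m : Nat) (ops : List (List Nat)) (c : List Nat) (x y : Nat) : List Nat :=
  closeLoop m ops m (mergeL c x y)

section sound

variable {m : Nat} (T : Nat → Nat → Prop)

/-- The list `c` of length `m` has all its classes inside `T`. -/
def SubL (c : List Nat) : Prop :=
  c.length = m ∧ ∀ u v, u < m → v < m → nth c u = nth c v → T u v

variable {T}

theorem mergeL_sub (hsymm : ∀ u v, T u v → T v u) (htrans : ∀ u v w, T u v → T v w → T u w)
    {c : List Nat} (h : SubL (m := m) T c) {a b : Nat} (ha : a < m) (hb : b < m) (hT : T a b) :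
    SubL (m := m) T (mergeL c a b) := by
  unfold mergeL
  cases h1 : Nat.beq (nth c a) (nth c b)
  · simp only [cond_false]
    have key : ∀ (lo hi pl ph : Nat), nth c pl = lo → nth c ph = hi → T pl ph → pl < m → ph < m →
        SubL (m := m) T (c.map fun z => cond (Nat.beq z hi) lo z) := by
      intro lo hi pl ph hl hh hT' hpl hph
      refine ⟨by simp [h.1], ?_⟩
      intro u v hu hv huv
      rw [nth_map _ _ _ (by rw [h.1]; exact hu), nth_map _ _ _ (by rw [h.1]; exact hv)] at huv
      cases h2 : Nat.beq (nth c u) hi <;> cases h3 : Nat.beq (nth c v) hi <;>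
        simp only [h2, h3, cond_false, cond_true] at huv
      · exact h.2 u v hu hv huv
      · have e1 : nth c u = nth c pl := by rw [huv, hl]
        have e2 : nth c v = nth c ph := by rw [beq_true h3, hh]
        exact htrans _ _ _ (h.2 u pl hu hpl e1) (htrans _ _ _ hT' (hsymm _ _ (h.2 v ph hv hph e2)))
      · have e1 : nth c u = nth c ph := by rw [beq_true h2, hh]
        have e2 : nth c v = nth c pl := by rw [← huv, hl]
        exact htrans _ _ _ (h.2 u ph hu hph e1) (htrans _ _ _ (hsymm _ _ hT') (hsymm _ _ (h.2 v pl hv hpl e2)))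
      · have e : nth c u = nth c v := by rw [beq_true h2, beq_true h3]
        exact h.2 u v hu hv e
    cases h2 : Nat.ble (nth c a) (nth c b)
    · exact key _ _ b a rfl rfl (hsymm _ _ hT) hb ha
    · exact key _ _ a b rfl rfl hT ha hb
  · simpa using h

variable {ops : List (List Nat)}

theorem stepOp_sub (hsymm : ∀ u v, T u v → T v u) (htrans : ∀ u v w, T u v → T v w → T u w)
    (hops : ∀ t ∈ ops, ∀ x, x < m → nth t x < m) (hcomp : ∀ t ∈ ops, ∀ u v, T u v → T (nth t u) (nth t v))
    {c : List Nat} (h : SubL (m := m) T c) {u : Nat} (hu : u < m) {t : List Nat} (ht : t ∈ ops) :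
    SubL (m := m) T (stepOp m u c t) := by
  unfold stepOp
  cases h1 : and (Nat.blt (nth c u) m) (Nat.beq (nth c (nth c u)) (nth c u))
  · simpa using h
  · simp only [cond_true]
    simp only [Bool.and_eq_true] at h1
    have hlt : nth c u < m := Nat.le_of_ble_eq_true h1.1
    have e : nth c u = nth c (nth c u) := (beq_true h1.2).symm
    have hT := h.2 u (nth c u) hu hlt e
    exact mergeL_sub hsymm htrans h (hops t ht _ hu) (hops t ht _ hlt) (hcomp t ht _ _ hT)

theorem passU_sub (hsymm : ∀ u v, T u v → T v u) (htrans : ∀ u v w, T u v → T v w → T u w)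
    (hops : ∀ t ∈ ops, ∀ x, x < m → nth t x < m) (hcomp : ∀ t ∈ ops, ∀ u v, T u v → T (nth t u) (nth t v))
    {c : List Nat} (h : SubL (m := m) T c) {u : Nat} (hu : u < m) :
    SubL (m := m) T (passU m ops c u) := by
  unfold passU
  have : ∀ (l : List (List Nat)) (c : List Nat), (∀ t ∈ l, t ∈ ops) → SubL (m := m) T c →
      SubL (m := m) T (l.foldl (stepOp m u) c) := by
    intro l
    induction l with
    | nil => intro c _ hc; exact hc
    | cons t l ih =>
      intro c hl hc
      simp only [List.foldl_cons]
      exact ih _ (fun s hs => hl s (List.mem_cons_of_mem _ hs))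
        (stepOp_sub hsymm htrans hops hcomp hc hu (hl t List.mem_cons_self))
  exact this ops c (fun _ h => h) h

theorem passAll_sub (hsymm : ∀ u v, T u v → T v u) (htrans : ∀ u v w, T u v → T v w → T u w)
    (hops : ∀ t ∈ ops, ∀ x, x < m → nth t x < m) (hcomp : ∀ t ∈ ops, ∀ u v, T u v → T (nth t u) (nth t v)) :
    ∀ (n : Nat), n ≤ m → ∀ {c : List Nat}, SubL (m := m) T c → SubL (m := m) T (passAll m ops n c) := by
  intro n
  induction n with
  | zero => intro _ c h; exact h
  | succ n ih =>
    intro hn c h
    exact ih (by omega) (passU_sub hsymm htrans hops hcomp h (by omega))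

theorem closeLoop_sub (hsymm : ∀ u v, T u v → T v u) (htrans : ∀ u v w, T u v → T v w → T u w)
    (hops : ∀ t ∈ ops, ∀ x, x < m → nth t x < m) (hcomp : ∀ t ∈ ops, ∀ u v, T u v → T (nth t u) (nth t v)) :
    ∀ (n : Nat) {c : List Nat}, SubL (m := m) T c → SubL (m := m) T (closeLoop m ops n c) := by
  intro n
  induction n with
  | zero => intro c h; exact h
  | succ n ih =>
    intro c h
    unfold closeLoop
    cases eqL (passAll m ops m c) c
    · exact ih (passAll_sub hsymm htrans hops hcomp m (le_refl m) h)
    · simpa using h

theorem closureL_sub (hsymm : ∀ u v, T u v → T v u) (htrans : ∀ u v w, T u v → T v w → T u w)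
    (hops : ∀ t ∈ ops, ∀ x, x < m → nth t x < m) (hcomp : ∀ t ∈ ops, ∀ u v, T u v → T (nth t u) (nth t v))
    {c : List Nat} (h : SubL (m := m) T c) {x y : Nat} (hx : x < m) (hy : y < m) (hT : T x y) :
    SubL (m := m) T (closureL m ops c x y) :=
  closeLoop_sub hsymm htrans hops hcomp m (mergeL_sub hsymm htrans h hx hy hT)

end sound

/-! The checks. -/

/-- One table of a unary operation. -/
def tableOK (m : Nat) (t : List Nat) : Bool :=
  and (Nat.beq t.length m) (allN m fun x => Nat.blt (nth t x) m)

/-- One labelling of a partition, by the representatives of the classes. -/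
def partOK (m : Nat) (c : List Nat) : Bool :=
  and (tableOK m c) (allN m fun x => Nat.beq (nth c (nth c x)) (nth c x))

def compatOK (m : Nat) (c t : List Nat) : Bool :=
  allN m fun x => Nat.beq (nth c (nth t x)) (nth c (nth t (nth c x)))

/-- The check that the closure of a partition and a pair of representatives is a later partition. -/
def completeOK (m : Nat) (ops parts : List (List Nat)) : Bool :=
  allN parts.length fun j =>
    allN m fun y => allN y fun x =>
      or (or (Nat.beq (nth (nthL parts j) x) (nth (nthL parts j) y))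
          (not (and (Nat.beq (nth (nthL parts j) x) x) (Nat.beq (nth (nthL parts j) y) y))))
        (anyN parts.length fun l => and (Nat.blt j l)
          (eqL (closureL m ops (nthL parts j) x y) (nthL parts l)))

/-- All checks for an algebra. -/
def algOK (m : Nat) (ops parts : List (List Nat)) : Bool :=
  and (Nat.blt 0 m) (and (ops.all (tableOK m)) (and (parts.all (partOK m))
    (and (parts.all fun c => ops.all fun t => compatOK m c t)
    (and (Nat.blt 0 parts.length)
    (and (allN m fun x => Nat.beq (nth (nthL parts 0) x) x)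
    (completeOK m ops parts))))))

/-- `c` refines `d`. -/
def refinesB (m : Nat) (c d : List Nat) : Bool :=
  allN m fun x => Nat.beq (nth d x) (nth d (nth c x))

section main

variable {m : Nat} {ops parts : List (List Nat)}

/-- The algebra on `Fin m`. -/
def opU (hm : 0 < m) (t : List Nat) : Operation (Fin m) :=
  ⟨1, fun x => ⟨nth t (x 0).val % m, Nat.mod_lt _ hm⟩⟩

def opsU (hm : 0 < m) (ops : List (List Nat)) : List (Operation (Fin m)) := ops.map (opU hm)

/-- The partition given by a labelling. -/
def kerL (c : List Nat) : Setoid (Fin m) := Setoid.ker fun x : Fin m => nth c x.val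

theorem kerL_iff {c : List Nat} {x y : Fin m} : kerL c x y ↔ nth c x.val = nth c y.val := Iff.rfl

theorem nthL_mem : ∀ {l : List (List Nat)} {j : Nat}, j < l.length → nthL l j ∈ l := by
  intro l
  induction l with
  | nil => intro j hj; simp at hj
  | cons a l ih =>
    intro j hj
    cases j with
    | zero => exact List.mem_cons_self
    | succ j => exact List.mem_cons_of_mem _ (ih (by simpa using hj))

theorem tableOK_spec {t : List Nat} (h : tableOK m t = true) :
    t.length = m ∧ ∀ x, x < m → nth t x < m := by
  simp only [tableOK, Bool.and_eq_true] at h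
  exact ⟨beq_true h.1, fun x hx => Nat.le_of_ble_eq_true (allN_spec h.2 x hx)⟩

theorem partOK_spec {c : List Nat} (h : partOK m c = true) :
    c.length = m ∧ (∀ x, x < m → nth c x < m) ∧ ∀ x, x < m → nth c (nth c x) = nth c x := by
  simp only [partOK, Bool.and_eq_true] at h
  have h1 := tableOK_spec h.1
  exact ⟨h1.1, h1.2, fun x hx => beq_true (allN_spec h.2 x hx)⟩

theorem cong_kerL (hm : 0 < m) (hops : ops.all (tableOK m) = true)
    (hpart : parts.all (partOK m) = true)
    (hcomp : (parts.all fun c => ops.all fun t => compatOK m c t) = true)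
    {c : List Nat} (hc : c ∈ parts) : IsCongruence (opsU hm ops) (kerL c) := by
  intro o ho x y hxy
  obtain ⟨t, ht, rfl⟩ := List.mem_map.mp ho
  have hxy0 : nth c (x (0 : Fin 1)).val = nth c (y (0 : Fin 1)).val := hxy (0 : Fin 1)
  show nth c (nth t (x (0 : Fin 1)).val % m) = nth c (nth t (y (0 : Fin 1)).val % m)
  have ht1 := tableOK_spec (List.all_eq_true.mp hops t ht)
  have hc1 := partOK_spec (List.all_eq_true.mp hpart c hc)
  have hcc : compatOK m c t = true :=
    List.all_eq_true.mp (List.all_eq_true.mp hcomp c hc) t ht
  have hxl := (x (0 : Fin 1)).isLt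
  have hyl := (y (0 : Fin 1)).isLt
  rw [Nat.mod_eq_of_lt (ht1.2 _ hxl), Nat.mod_eq_of_lt (ht1.2 _ hyl)]
  rw [beq_true (allN_spec hcc _ hxl), beq_true (allN_spec hcc _ hyl), hxy0]

/-- From a congruence to a relation on numbers. -/
def relN (θ : Setoid (Fin m)) (u v : Nat) : Prop := ∃ (hu : u < m) (hv : v < m), θ ⟨u, hu⟩ ⟨v, hv⟩

/-- Every congruence is one of the partitions. -/
theorem cong_classify (hm : 0 < m) (hok : algOK m ops parts = true) (θ : Setoid (Fin m))
    (hθ : IsCongruence (opsU hm ops) θ) : ∃ j, j < parts.length ∧ θ = kerL (nthL parts j) := by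
  simp only [algOK, Bool.and_eq_true] at hok
  obtain ⟨_, hops, hpart, hcomp, hlen, hbot, hcompl⟩ := hok
  have hlen' : 0 < parts.length := Nat.le_of_ble_eq_true hlen
  have hsymm : ∀ u v, relN θ u v → relN θ v u := by
    rintro u v ⟨hu, hv, h⟩
    exact ⟨hv, hu, θ.symm h⟩
  have htrans : ∀ u v w, relN θ u v → relN θ v w → relN θ u w := by
    rintro u v w ⟨hu, hv, h⟩ ⟨_, hw, h2⟩
    exact ⟨hu, hw, θ.trans h h2⟩
  have hopsR : ∀ t ∈ ops, ∀ x, x < m → nth t x < m := fun t ht =>
    (tableOK_spec (List.all_eq_true.mp hops t ht)).2
  have hcompR : ∀ t ∈ ops, ∀ u v, relN θ u v → relN θ (nth t u) (nth t v) := by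
    rintro t ht u v ⟨hu, hv, h⟩
    have h1 := hopsR t ht u hu
    have h2 := hopsR t ht v hv
    refine ⟨h1, h2, ?_⟩
    have := hθ (opU hm t) (List.mem_map.mpr ⟨t, ht, rfl⟩) (fun _ => ⟨u, hu⟩) (fun _ => ⟨v, hv⟩)
      (fun _ => h)
    simpa [opU, Nat.mod_eq_of_lt h1, Nat.mod_eq_of_lt h2] using this
  -- induction on the index of the partition
  have key : ∀ d j, j + d = parts.length → j < parts.length →
      SubL (m := m) (relN θ) (nthL parts j) → ∃ j', j' < parts.length ∧ θ = kerL (nthL parts j') := by
    intro d
    induction d using Nat.strong_induction_on with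
    | _ d ih =>
      intro j hd hj hsub
      by_cases hle : θ ≤ kerL (nthL parts j)
      · refine ⟨j, hj, le_antisymm hle ?_⟩
        intro x y hxy
        obtain ⟨_, _, h⟩ := hsub.2 x.val y.val x.isLt y.isLt hxy
        exact h
      · -- a pair outside
        have hex : ∃ x y : Fin m, θ x y ∧ ¬ kerL (nthL parts j) x y := by
          by_contra hno
          apply hle
          intro x y hxy
          by_contra h2
          exact hno ⟨x, y, hxy, h2⟩
        obtain ⟨x, y, hxy, hnot⟩ := hex
        have hc := partOK_spec (List.all_eq_true.mp hpart _ (nthL_mem hj))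
        set c := nthL parts j with hcdef
        -- pass to the representatives
        have hxr := hc.2.1 _ x.isLt
        have hyr := hc.2.1 _ y.isLt
        have r1 : relN θ (nth c x.val) x.val :=
          hsub.2 _ _ hxr x.isLt (hc.2.2 _ x.isLt)
        have r2 : relN θ y.val (nth c y.val) :=
          hsub.2 _ _ y.isLt hyr (hc.2.2 _ y.isLt).symm
        have r0 : relN θ x.val y.val := ⟨x.isLt, y.isLt, hxy⟩
        have r3 : relN θ (nth c x.val) (nth c y.val) := htrans _ _ _ r1 (htrans _ _ _ r0 r2)
        have hneq : nth c x.val ≠ nth c y.val := hnot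
        -- the check for an ordered pair of representatives
        have final : ∀ p q, p < q → q < m → nth c p = p → nth c q = q → relN θ p q →
            ∃ j', j' < parts.length ∧ θ = kerL (nthL parts j') := by
          intro p q hpq hq hp' hq' hr
          have h1 := allN_spec (allN_spec (allN_spec hcompl j hj) q hq) p hpq
          simp only [Bool.or_eq_true, Bool.not_eq_true', Bool.and_eq_false_iff] at h1
          rw [← hcdef] at h1
          rcases h1 with (h1 | h1 | h1) | h1
          · exfalso
            have := beq_true h1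
            rw [hp', hq'] at this
            omega
          · rw [hp'] at h1
            simp at h1
          · rw [hq'] at h1
            simp at h1
          · obtain ⟨l, hl, hl2⟩ := anyN_spec h1
            simp only [Bool.and_eq_true] at hl2
            have hjl : j < l := Nat.le_of_ble_eq_true hl2.1
            have e := eqL_spec hl2.2
            have hsubl : SubL (m := m) (relN θ) (nthL parts l) := by
              rw [← e]
              exact closureL_sub hsymm htrans hopsR hcompR hsub (by omega) hq hr
            exact ih (parts.length - l) (by omega) l (by omega) hl hsubl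
        have hrep1 : nth c (nth c x.val) = nth c x.val := hc.2.2 _ x.isLt
        have hrep2 : nth c (nth c y.val) = nth c y.val := hc.2.2 _ y.isLt
        rcases Nat.lt_or_gt_of_ne hneq with hlt | hgt
        · exact final _ _ hlt hyr hrep1 hrep2 r3
        · exact final _ _ hgt hxr hrep2 hrep1 (hsymm _ _ r3)
  refine key parts.length 0 (by omega) hlen' ⟨?_, ?_⟩
  · exact (partOK_spec (List.all_eq_true.mp hpart _ (nthL_mem hlen'))).1
  · intro u v hu hv h
    rw [beq_true (allN_spec hbot u hu), beq_true (allN_spec hbot v hv)] at h
    subst h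
    exact ⟨hu, hu, θ.refl _⟩

theorem kerL_le_iff (hok : algOK m ops parts = true) {a b : Nat} (ha : a < parts.length)
    (hb : b < parts.length) :
    (kerL (nthL parts a) : Setoid (Fin m)) ≤ kerL (nthL parts b) ↔
      refinesB m (nthL parts a) (nthL parts b) = true := by
  simp only [algOK, Bool.and_eq_true] at hok
  obtain ⟨_, _, hpart, _⟩ := hok
  have hca := partOK_spec (List.all_eq_true.mp hpart _ (nthL_mem ha))
  constructor
  · intro h
    apply allN_of
    intro x hx
    have h1 : kerL (nthL parts a) (⟨x, hx⟩ : Fin m) ⟨nth (nthL parts a) x, hca.2.1 x hx⟩ :=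
      (hca.2.2 x hx).symm
    have h2 : nth (nthL parts b) x = nth (nthL parts b) (nth (nthL parts a) x) := h h1
    rw [← h2]
    simp
  · intro h x y hxy
    have h1 := beq_true (allN_spec h x.val x.isLt)
    have h2 := beq_true (allN_spec h y.val y.isLt)
    have h3 : nth (nthL parts a) x.val = nth (nthL parts a) y.val := hxy
    show nth (nthL parts b) x.val = nth (nthL parts b) y.val
    rw [h1, h2, h3]

end main

end Vale.Agent.Lib.P183
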