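import Vale.Agent.Lib.P183.TypeP

namespace Vale.Agent.Lib.P183

/-! A variant of the check for permutation algebras in which most of the roots are reduced to a few
roots by short paths. -/

section main

variable {N : Nat} {gens labs bms : List Nat} {stabW : List (List Nat)} {roots : List RootData}
  {joinT : List Nat} {mvT frT : Nat}

/-- Every congruence is one of the partitions, given the regions of the roots. -/
theorem cong_classify_core (hgens : (gens.all fun t => permOK N t) = true) (hlen : Nat.blt 0 labs.length = true)
    (hlabs : (allN labs.length fun j => labOK N gens (nth labs j) (nth bms j)) = true)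
    (hbot : (allN N fun x => Nat.beq (getT (nth labs 0) x) x) = true)
    (hmv : mvOK N gens mvT = true)
    (hstab : (stabW.all fun w => and (wordOK gens w) (Nat.beq (evalW gens w 0) 0)) = true)
    (hfr : frOK N gens stabW roots frT = true)
    (hroots : ∀ r ∈ roots, wordOK gens r.2.1 = true ∧ evalW gens r.2.1 0 = r.1 ∧ r.1 < N ∧
      Nat.testBit (nth bms r.2.2) r.1 = true ∧ r.2.2 < labs.length)
    (hN : 0 < N) (θ : Setoid (Fin N)) (hθ : IsCongruence (opsT hN gens) θ)
    (hB : ∀ r ∈ roots, relN θ r.1 0 → ∀ x, x < N → Nat.testBit (nth bms r.2.2) x = true → relN θ x 0)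
    (hJ : ∀ a b, a < labs.length → b < labs.length →
      (∀ x, x < N → Nat.testBit (nth bms a) x = true → relN θ x 0) →
      (∀ x, x < N → Nat.testBit (nth bms b) x = true → relN θ x 0) →
      ∃ c, c < labs.length ∧ a ≤ c ∧ subMask N (nth bms b) (nth bms c) = true ∧
        ∀ x, x < N → Nat.testBit (nth bms c) x = true → relN θ x 0) :
    ∃ j, j < labs.length ∧ θ = kerT (nth labs j) := by
  have hg : ∀ t ∈ gens, permOK N t = true := List.all_eq_true.mp hgens
  have hlen' : 0 < labs.length := Nat.le_of_ble_eq_true hlen
  have hrange : ∀ t ∈ gens, ∀ x, x < N → getT t x < N := fun t ht => (permOK_spec (hg t ht)).1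
  have hC : CompatS gens θ := compat_of_cong hN hrange hθ
  have hlab : ∀ j, j < labs.length → labOK N gens (nth labs j) (nth bms j) = true :=
    fun j hj => allN_spec hlabs j hj
  have hspec := fun j hj => labOK_spec hg (hlab j hj)
  -- the class of the base point
  let P : Nat → Prop := fun z => relN θ z 0
  have P0 : P 0 := relN_refl hN
  have Plt : ∀ z, P z → z < N := fun z hz => hz.1
  have hpres : ∀ w, wordOK gens w = true → P (evalW gens w 0) → ∀ z, P z → P (evalW gens w z) := by
    intro w hw h0 z hz
    exact relN_trans (compat_word hC hw hz) h0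
  have hstab' : ∀ w ∈ stabW, wordOK gens w = true ∧ evalW gens w 0 = 0 := by
    intro w hw
    have := List.all_eq_true.mp hstab w hw
    simp only [Bool.and_eq_true] at this
    exact ⟨this.1, beq_true this.2⟩
  have hstabP : ∀ w ∈ stabW, ∀ z, P z → P (evalW gens w z) := by
    intro w hw
    obtain ⟨h1, h2⟩ := hstab' w hw
    exact hpres w h1 (by rw [h2]; exact P0)
  have hroot' : ∀ r ∈ roots, wordOK gens r.2.1 = true ∧ evalW gens r.2.1 0 = r.1 ∧ r.1 < N ∧
      Nat.testBit (nth bms r.2.2) r.1 = true ∧ r.2.2 < labs.length := hroots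
  have hrootP : ∀ r ∈ roots, P r.1 → ∀ w, w = r.2.1 → ∀ z, P z → P (evalW gens w z) := by
    intro r hr hp w hw
    obtain ⟨h1, h2, _⟩ := hroot' r hr
    subst hw
    exact hpres _ h1 (by rw [h2]; exact hp)
  have hrootB : ∀ r ∈ roots, P r.1 → ∀ x, x < N → Nat.testBit (nth bms r.2.2) x = true → P x := hB
  -- the forest
  have hforest : ∀ n x, x < N → x ≠ 0 → levelOf (getT frT x) = n → P x →
      ∃ r ∈ roots, P r.1 ∧ ∀ j, j < labs.length →
        Nat.testBit (nth bms j) r.1 = true → Nat.testBit (nth bms j) x = true := by
    intro n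
    induction n using Nat.strong_induction_on with
    | _ n ih =>
      intro x hx hne hl hp
      have h1 := allN_spec hfr x hx
      simp only [Bool.or_eq_true] at h1
      rcases h1 with h1 | h1
      · exact absurd (beq_true h1) hne
      · cases h2 : Nat.beq (levelOf (getT frT x)) 0
        · rw [h2] at h1
          simp only [cond_false, Bool.and_eq_true] at h1
          have hidx : indexOf (getT frT x) < stabW.length := Nat.le_of_ble_eq_true h1.1
          set s := stabW.getD (indexOf (getT frT x)) [] with hs
          have hsm : s ∈ stabW := by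
            rw [hs, List.getD_eq_getElem _ _ hidx]
            exact List.getElem_mem hidx
          obtain ⟨s1, s2⟩ := hstab' s hsm
          have hy : evalW gens s x < N := evalW_lt hg s1 hx
          have hy0 : evalW gens s x ≠ 0 := by
            intro e
            rw [← s2] at e
            exact hne (evalW_inj hg s1 hx hN e)
          have hlt : levelOf (getT frT (evalW gens s x)) < n := by
            rw [← hl]
            exact Nat.le_of_ble_eq_true h1.2
          obtain ⟨r, hr, hpr, hrb⟩ := ih _ hlt _ hy hy0 rfl (hstabP s hsm x hp)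
          refine ⟨r, hr, hpr, fun j hj hb => ?_⟩
          have h3 := hrb j hj hb
          obtain ⟨l0, _, _, l4, _⟩ := hspec j hj
          have h4 : getT (nth labs j) (evalW gens s x) = 0 := (l4 _ hy).mp h3
          have h5 : relN (kerT (nth labs j) : Setoid (Fin N)) (evalW gens s x) (evalW gens s 0) := by
            rw [s2]
            exact ⟨hy, hN, by show getT _ _ = getT _ _; rw [h4, l0]⟩
          obtain ⟨_, _, h6⟩ := reflect hg (compat_kerT hg (hlab j hj)) s1 hx hN h5
          have h7 : getT (nth labs j) x = getT (nth labs j) 0 := h6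
          exact (l4 x hx).mpr (by rw [h7, l0])
        · rw [h2] at h1
          simp only [cond_true, List.any_eq_true] at h1
          obtain ⟨r, hr, e⟩ := h1
          have e' : r.1 = x := beq_true e
          exact ⟨r, hr, by rw [e']; exact hp, fun j _ hb => by rw [← e']; exact hb⟩
  -- the largest block inside the class
  classical
  let J : Nat → Prop := fun l => l < labs.length ∧ ∀ x, x < N → Nat.testBit (nth bms l) x = true → P x
  have J0 : J 0 := by
    refine ⟨hlen', fun x hx hb => ?_⟩
    obtain ⟨_, _, _, l4, _⟩ := hspec 0 hlen'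
    have h1 := (l4 x hx).mp hb
    rw [beq_true (allN_spec hbot x hx)] at h1
    rw [h1]
    exact P0
  let j := Nat.findGreatest J labs.length
  have Jj : J j := Nat.findGreatest_spec (Nat.zero_le _) J0
  have jmax : ∀ l, J l → l ≤ j := fun l hl => Nat.le_findGreatest (le_of_lt hl.1) hl
  have hjlt : j < labs.length := Jj.1
  obtain ⟨l0, l1, l2, l4, l5⟩ := hspec j hjlt
  have hsub : ∀ x, x < N → P x → Nat.testBit (nth bms j) x = true := by
    intro x hx hp
    by_cases hx0 : x = 0
    · rw [hx0]
      exact (l4 0 hN).mpr l0
    obtain ⟨r, hr, hpr, hrb⟩ := hforest _ x hx hx0 rfl hp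
    apply hrb j hjlt
    obtain ⟨_, _, r3, r4, r5⟩ := hroot' r hr
    have Jr : J r.2.2 := ⟨r5, hrootB r hr hpr⟩
    obtain ⟨c, hclt, hjc, hsub2, hPc⟩ := hJ j r.2.2 hjlt r5 Jj.2 Jr.2
    have Jc : J c := ⟨hclt, hPc⟩
    have hcj : c = j := le_antisymm (jmax c Jc) hjc
    rw [hcj] at hsub2
    exact subMask_spec hsub2 r3 r4
  -- conclusion
  refine ⟨j, hjlt, ?_⟩
  have hCk := compat_kerT hg (hlab j hjlt)
  apply Setoid.ext
  intro x y
  obtain ⟨w, hw, e⟩ := move_to_zero hg hmv _ x.val x.isLt rfl
  have hwy := evalW_lt hg hw y.isLt
  constructor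
  · intro h
    have h1 : relN θ (evalW gens w x.val) (evalW gens w y.val) :=
      compat_word hC hw ⟨x.isLt, y.isLt, h⟩
    rw [e] at h1
    have h2 : P (evalW gens w y.val) := relN_symm h1
    have h3 := (l4 _ hwy).mp (hsub _ hwy h2)
    have h4 : relN (kerT (nth labs j) : Setoid (Fin N)) (evalW gens w x.val) (evalW gens w y.val) := by
      rw [e]
      exact ⟨hN, hwy, by show getT _ _ = getT _ _; rw [h3, l0]⟩
    obtain ⟨_, _, h5⟩ := reflect hg hCk hw x.isLt y.isLt h4
    exact h5
  · intro h
    have h1 : relN (kerT (nth labs j) : Setoid (Fin N)) (evalW gens w x.val) (evalW gens w y.val) :=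
      compat_word hCk hw ⟨x.isLt, y.isLt, h⟩
    rw [e] at h1
    obtain ⟨_, _, h2⟩ := h1
    have h3 : getT (nth labs j) 0 = getT (nth labs j) (evalW gens w y.val) := h2
    have h4 : Nat.testBit (nth bms j) (evalW gens w y.val) = true := (l4 _ hwy).mpr (by rw [← h3, l0])
    have h5 : P (evalW gens w y.val) := Jj.2 _ hwy h4
    have h6 : relN θ (evalW gens w x.val) (evalW gens w y.val) := by
      rw [e]
      exact relN_symm h5
    obtain ⟨_, _, h7⟩ := reflect hg hC hw x.isLt y.isLt h6
    exact h7


end main

/-- A root with a path. -/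
abbrev RootW := Nat × List Nat × Nat × List Nat

def toRD (r : RootW) : RootData := (r.1, r.2.1, r.2.2.1)

/-- Follow a path: the index `0` is the word of the root, the index `i + 1` a stabilizer word. -/
def pathEval (gens : List Nat) (stabW : List (List Nat)) (u : List Nat) : List Nat → Nat → Nat
  | [], z => z
  | i :: p, z => pathEval gens stabW u p
      (evalW gens (cond (Nat.beq i 0) u (nthL stabW (i - 1))) z)

section checks

variable (N : Nat) (gens labs bms : List Nat) (stabW : List (List Nat)) (hubs : List RootData)
  (rootsW : List RootW) (joinT : List Nat) (mvT frT : Nat)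

def rootOKW (r : RootW) : Bool :=
  and (wordOK gens r.2.1) (and (Nat.beq (evalW gens r.2.1 0) r.1) (and (Nat.blt r.1 N)
  (and (Nat.testBit (nth bms r.2.2.1) r.1) (and (Nat.blt r.2.2.1 labs.length)
  (or (hubs.any fun h => and (Nat.beq h.1 (pathEval gens stabW r.2.1 r.2.2.2 r.1)) (Nat.beq h.2.2 r.2.2.1))
    (subMask N (nth bms r.2.2.1) (closeB gens N (r.2.1 :: stabW) [0, r.1])))))))

/-- Follow a path of words. -/
def pathLEval (gs : List (List Nat)) : List Nat → Nat → Nat
  | [], z => z
  | i :: p, z => pathLEval gs p (evalW gens (nthL gs i) z)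

/-- A short proof of a join: a path from the union of two blocks to a hub. -/
def pathJOK (pathsJ : List (Nat × List Nat)) (a b : Nat) : Bool :=
  let pj := pathsJ.getD (a * 8 + b) (0, [])
  and (Nat.blt pj.1 N) (and (or (Nat.testBit (nth bms a) pj.1) (Nat.testBit (nth bms b) pj.1))
    (hubs.any fun h => and (Nat.beq h.1 (pathLEval gens
        (wordsIn (rootsW.map toRD) (nth bms a) (nth bms b) ++ stabW) pj.2 pj.1))
      (Nat.beq h.2.2 (joinIdx joinT a b))))

def joinOKW (pathsJ : List (Nat × List Nat)) (a b : Nat) : Bool :=
  and (Nat.blt (joinIdx joinT a b) labs.length)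
  (and (subMask N (nth bms a) (nth bms (joinIdx joinT a b)))
  (and (subMask N (nth bms b) (nth bms (joinIdx joinT a b)))
  (and (Nat.ble a (joinIdx joinT a b))
  (or (or (Nat.beq (joinIdx joinT a b) a) (Nat.beq (joinIdx joinT a b) b))
    (or (pathJOK N gens bms stabW hubs rootsW joinT pathsJ a b)
    (subMask N (nth bms (joinIdx joinT a b))
      (closeB gens N (wordsIn (rootsW.map toRD) (nth bms a) (nth bms b) ++ stabW)
        (listUnion (nth bms a) (nth bms b) N))))))))

/-- All checks. -/
def algPW (pathsJ : List (Nat × List Nat)) : Bool :=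
  and (Nat.blt 0 N) (and (gens.all fun t => permOK N t)
  (and (Nat.blt 0 labs.length)
  (and (Nat.beq bms.length labs.length)
  (and (allN labs.length fun j => labOK N gens (nth labs j) (nth bms j))
  (and (allN N fun x => Nat.beq (getT (nth labs 0) x) x)
  (and (mvOK N gens mvT)
  (and (stabW.all fun w => and (wordOK gens w) (Nat.beq (evalW gens w 0) 0))
  (and (frOK N gens stabW (rootsW.map toRD) frT)
  (and (hubs.all (rootOK N gens labs bms stabW))
  (and (rootsW.all (rootOKW N gens labs bms stabW hubs))
  (allN labs.length fun a => allN labs.length fun b =>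
    joinOKW N gens labs bms stabW hubs rootsW joinT pathsJ a b)))))))))))

end checks

theorem nthL_mem_or : ∀ (l : List (List Nat)) (k : Nat), nthL l k ∈ l ∨ nthL l k = [] := by
  intro l
  induction l with
  | nil => intro k; exact Or.inr rfl
  | cons a l ih =>
    intro k
    cases k with
    | zero => exact Or.inl List.mem_cons_self
    | succ k =>
      rcases ih k with h | h
      · exact Or.inl (List.mem_cons_of_mem _ h)
      · exact Or.inr h

section main2

variable {N : Nat} {gens labs bms : List Nat} {stabW : List (List Nat)} {hubs : List RootData}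
  {rootsW : List RootW} {joinT : List Nat} {mvT frT : Nat} {pathsJ : List (Nat × List Nat)}

/-- Every congruence is one of the partitions. -/
theorem cong_classifyPW (hok : algPW N gens labs bms stabW hubs rootsW joinT mvT frT pathsJ = true) (hN : 0 < N)
    (θ : Setoid (Fin N)) (hθ : IsCongruence (opsT hN gens) θ) :
    ∃ j, j < labs.length ∧ θ = kerT (nth labs j) := by
  simp only [algPW, Bool.and_eq_true] at hok
  obtain ⟨_, hgens, hlen, _, hlabs, hbot, hmv, hstab, hfr, hhubs, hroots, hjoin⟩ := hok
  have hg : ∀ t ∈ gens, permOK N t = true := List.all_eq_true.mp hgens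
  have hrange : ∀ t ∈ gens, ∀ x, x < N → getT t x < N := fun t ht => (permOK_spec (hg t ht)).1
  have hC : CompatS gens θ := compat_of_cong hN hrange hθ
  let P : Nat → Prop := fun z => relN θ z 0
  have P0 : P 0 := relN_refl hN
  have hpres : ∀ w, wordOK gens w = true → P (evalW gens w 0) → ∀ z, P z → P (evalW gens w z) := by
    intro w hw h0 z hz
    exact relN_trans (compat_word hC hw hz) h0
  have hstab' : ∀ w ∈ stabW, wordOK gens w = true ∧ evalW gens w 0 = 0 := by
    intro w hw
    have := List.all_eq_true.mp hstab w hw
    simp only [Bool.and_eq_true] at this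
    exact ⟨this.1, beq_true this.2⟩
  have hstabP : ∀ w ∈ stabW, ∀ z, P z → P (evalW gens w z) := by
    intro w hw
    obtain ⟨h1, h2⟩ := hstab' w hw
    exact hpres w h1 (by rw [h2]; exact P0)
  have hclose : ∀ (u : List Nat) (a x : Nat), wordOK gens u = true → evalW gens u 0 = a → P a → x < N →
      Nat.testBit (closeB gens N (u :: stabW) [0, a]) x = true → P x := by
    intro u a x hu he ha _ hb
    refine closeB_sound (P := P) (gs := u :: stabW) (l := [0, a]) ?_ ?_ x hb
    · intro w hw
      rcases List.mem_cons.mp hw with rfl | hw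
      · exact hpres _ hu (by rw [he]; exact ha)
      · exact hstabP w hw
    · intro z hz
      simp only [List.mem_cons, List.not_mem_nil, or_false] at hz
      rcases hz with rfl | rfl
      · exact P0
      · exact ha
  have hhubB : ∀ h ∈ hubs, P h.1 → ∀ x, x < N → Nat.testBit (nth bms h.2.2) x = true → P x := by
    intro h hh hp x hx hb
    have := List.all_eq_true.mp hhubs h hh
    simp only [rootOK, Bool.and_eq_true] at this
    obtain ⟨a1, a2, _, _, _, a6⟩ := this
    exact hclose _ _ x a1 (beq_true a2) hp hx (subMask_spec a6 hx hb)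
  have hpath : ∀ (u : List Nat), wordOK gens u = true → P (evalW gens u 0) →
      ∀ (p : List Nat) (z : Nat), P z → P (pathEval gens stabW u p z) := by
    intro u hu h0 p
    induction p with
    | nil => intro z hz; exact hz
    | cons i p ih =>
      intro z hz
      apply ih
      cases h : Nat.beq i 0
      · simp only [cond_false]
        rcases nthL_mem_or stabW (i - 1) with h1 | h1
        · exact hstabP _ h1 z hz
        · rw [h1]
          exact hz
      · simp only [cond_true]
        exact hpres u hu h0 z hz
  have hrootP : ∀ r0 ∈ rootsW, P r0.1 → ∀ z, P z → P (evalW gens r0.2.1 z) := by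
    intro r0 hr0 hp z hz
    have := List.all_eq_true.mp hroots r0 hr0
    simp only [rootOKW, Bool.and_eq_true] at this
    exact hpres _ this.1 (by rw [beq_true this.2.1]; exact hp) z hz
  have hBroot : ∀ r ∈ rootsW.map toRD, relN θ r.1 0 → ∀ x, x < N →
      Nat.testBit (nth bms r.2.2) x = true → relN θ x 0 := by
    intro r hr hp x hx hb
    obtain ⟨r0, hr0, rfl⟩ := List.mem_map.mp hr
    have := List.all_eq_true.mp hroots r0 hr0
    simp only [rootOKW, Bool.and_eq_true, Bool.or_eq_true] at this
    obtain ⟨a1, a2, _, _, _, a6⟩ := this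
    have a2' := beq_true a2
    have hp' : P r0.1 := hp
    rcases a6 with a6 | a6
    · obtain ⟨h, hh, e⟩ := List.any_eq_true.mp a6
      simp only [Bool.and_eq_true] at e
      have hph : P h.1 := by
        rw [beq_true e.1]
        exact hpath _ a1 (by rw [a2']; exact hp') _ _ hp'
      have hb' : Nat.testBit (nth bms h.2.2) x = true := by
        rw [beq_true e.2]
        exact hb
      exact hhubB h hh hph x hx hb'
    · exact hclose _ _ x a1 a2' hp' hx (subMask_spec a6 hx hb)
  refine cong_classify_core (roots := rootsW.map toRD) hgens hlen hlabs hbot hmv hstab hfr ?_ hN θ hθ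
    hBroot ?_
  · intro r hr
    obtain ⟨r0, hr0, rfl⟩ := List.mem_map.mp hr
    have := List.all_eq_true.mp hroots r0 hr0
    simp only [rootOKW, Bool.and_eq_true] at this
    obtain ⟨a1, a2, a3, a4, a5, _⟩ := this
    exact ⟨a1, beq_true a2, Nat.le_of_ble_eq_true a3, a4, Nat.le_of_ble_eq_true a5⟩
  · intro a b ha hb Ja Jb
    have hjo := allN_spec (allN_spec hjoin a ha) b hb
    simp only [joinOKW, Bool.and_eq_true, Bool.or_eq_true] at hjo
    obtain ⟨j1, j2, j3, j4, j5⟩ := hjo
    refine ⟨joinIdx joinT a b, Nat.le_of_ble_eq_true j1, Nat.le_of_ble_eq_true j4, j3, ?_⟩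
    -- the words that preserve the class
    have hws : ∀ w ∈ wordsIn (rootsW.map toRD) (nth bms a) (nth bms b) ++ stabW, ∀ z, P z →
        P (evalW gens w z) := by
      intro w hw
      rcases List.mem_append.mp hw with hw | hw
      · simp only [wordsIn, List.mem_filterMap] at hw
        obtain ⟨r', hr', e⟩ := hw
        obtain ⟨r0, hr0, rfl⟩ := List.mem_map.mp hr'
        cases h8 : or (Nat.testBit (nth bms a) (toRD r0).1) (Nat.testBit (nth bms b) (toRD r0).1)
        · rw [h8] at e
          simp at e
        · rw [h8] at e
          simp only [cond_true, Option.some.injEq] at e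
          have hlt : r0.1 < N := by
            have := List.all_eq_true.mp hroots r0 hr0
            simp only [rootOKW, Bool.and_eq_true] at this
            exact Nat.le_of_ble_eq_true this.2.2.1
          have hpr0 : P r0.1 := by
            simp only [Bool.or_eq_true] at h8
            rcases h8 with h8 | h8
            · exact Ja _ hlt h8
            · exact Jb _ hlt h8
          rw [← e]
          exact hrootP r0 hr0 hpr0
      · exact hstabP w hw
    rcases j5 with (j5 | j5) | (j5 | j5)
    · rw [beq_true j5]; exact Ja
    · rw [beq_true j5]; exact Jb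
    · -- a path to a hub
      simp only [pathJOK, Bool.and_eq_true, Bool.or_eq_true] at j5
      obtain ⟨k1, k2, k3⟩ := j5
      obtain ⟨h, hh, e⟩ := List.any_eq_true.mp k3
      simp only [Bool.and_eq_true] at e
      have hstart : P (pathsJ.getD (a * 8 + b) (0, [])).1 := by
        rcases k2 with k2 | k2
        · exact Ja _ (Nat.le_of_ble_eq_true k1) k2
        · exact Jb _ (Nat.le_of_ble_eq_true k1) k2
      have hpl : ∀ (p : List Nat) (z : Nat), P z →
          P (pathLEval gens (wordsIn (rootsW.map toRD) (nth bms a) (nth bms b) ++ stabW) p z) := by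
        intro p
        induction p with
        | nil => intro z hz; exact hz
        | cons i p ih =>
          intro z hz
          apply ih
          rcases nthL_mem_or (wordsIn (rootsW.map toRD) (nth bms a) (nth bms b) ++ stabW) i with h1 | h1
          · exact hws _ h1 z hz
          · rw [h1]
            exact hz
      have hph : P h.1 := by
        rw [beq_true e.1]
        exact hpl _ _ hstart
      intro x hx hb'
      rw [← beq_true e.2] at hb'
      exact hhubB h hh hph x hx hb'
    · intro y hy hb'
      have h7 := subMask_spec j5 hy hb'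
      refine closeB_sound (P := P) hws ?_ y h7
      intro z hz
      obtain ⟨z1, z2⟩ := listUnion_spec _ _ _ _ hz
      rcases z2 with z2 | z2
      · exact Ja _ z1 z2
      · exact Jb _ z1 z2

/-- A transitive permutation algebra passing the checks gives a representation. -/
theorem repMat_of_algPW (hok : algPW N gens labs bms stabW hubs rootsW joinT mvT frT pathsJ = true) :
    RepMat labs.length fun a b => refT N (nth labs a) (nth labs b) := by
  have hok2 := hok
  simp only [algPW, Bool.and_eq_true] at hok2
  obtain ⟨hN0, hgens, _, _, hlabs, _⟩ := hok2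
  have hN : 0 < N := Nat.le_of_ble_eq_true hN0
  have hg : ∀ t ∈ gens, permOK N t = true := List.all_eq_true.mp hgens
  have hlab : ∀ j, j < labs.length → labOK N gens (nth labs j) (nth bms j) = true :=
    fun j hj => allN_spec hlabs j hj
  have hne : Nonempty (Fin N) := ⟨⟨0, hN⟩⟩
  refine ⟨Fin N, inferInstance, hne, opsT hN gens,
    fun j => ⟨kerT (nth labs j.val), cong_kerT hg hN (hlab j.val j.isLt)⟩, ?_, ?_⟩
  · rintro ⟨θ, hθ⟩
    obtain ⟨j, hj, e⟩ := cong_classifyPW hok hN θ hθ
    exact ⟨⟨j, hj⟩, Subtype.ext e.symm⟩
  · intro a b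
    exact kerT_le_iff hg (hlab a.val a.isLt)

end main2

/-- The check for a numbered lattice. -/
theorem repPW_of_check (i N : Nat) (gens labs bms : List Nat) (stabW : List (List Nat))
    (hubs : List RootData) (rootsW : List RootW) (joinT : List Nat) (mvT frT : Nat)
    (pathsJ : List (Nat × List Nat))
    (h1 : algPW N gens labs bms stabW hubs rootsW joinT mvT frT pathsJ = true)
    (h2 : (and (Nat.beq labs.length (szOf i)) (allN (szOf i) fun a => allN (szOf i) fun b =>
      (cond (refT N (nth labs a) (nth labs b)) (matOf (codeOf i) a b)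
        (not (matOf (codeOf i) a b))))) = true) :
    RepMat (szOf i) (matOf (codeOf i)) := by
  simp only [Bool.and_eq_true] at h2
  have h3 := repMat_of_algPW h1
  rw [beq_true h2.1] at h3
  refine h3.congr fun a b ha hb => ?_
  have h4 := allN_spec (allN_spec h2.2 a ha) b hb
  cases h5 : refT N (nth labs a) (nth labs b) <;> cases h6 : matOf (codeOf i) a b <;> simp_all

section intro

variable {N : Nat} {gens labs bms : List Nat} {stabW : List (List Nat)} {hubs : List RootData}
  {rootsW : List RootW} {joinT : List Nat} {mvT frT : Nat} {pathsJ : List (Nat × List Nat)}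

theorem allN_succ_intro {n : Nat} {p : Nat → Bool} (h1 : p n = true) (h2 : allN n p = true) :
    allN (n + 1) p = true := by
  simp only [allN, Bool.and_eq_true]
  exact ⟨h1, h2⟩

theorem allN_zero_intro (p : Nat → Bool) : allN 0 p = true := rfl

theorem all_append_intro {α : Type} {p : α → Bool} {l k : List α} (h1 : l.all p = true)
    (h2 : k.all p = true) : (l ++ k).all p = true := by
  rw [List.all_append, h1, h2]
  rfl

/-- Assemble the parts of the check. -/
theorem algPW_intro (h1 : Nat.blt 0 N = true) (h2 : (gens.all fun t => permOK N t) = true)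
    (h3 : Nat.blt 0 labs.length = true) (h4 : Nat.beq bms.length labs.length = true)
    (h5 : (allN labs.length fun j => labOK N gens (nth labs j) (nth bms j)) = true)
    (h6 : (allN N fun x => Nat.beq (getT (nth labs 0) x) x) = true)
    (h7 : mvOK N gens mvT = true)
    (h8 : (stabW.all fun w => and (wordOK gens w) (Nat.beq (evalW gens w 0) 0)) = true)
    (h9 : frOK N gens stabW (rootsW.map toRD) frT = true)
    (h10 : hubs.all (rootOK N gens labs bms stabW) = true)
    (h11 : rootsW.all (rootOKW N gens labs bms stabW hubs) = true)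
    (h12 : (allN labs.length fun a => allN labs.length fun b =>
      joinOKW N gens labs bms stabW hubs rootsW joinT pathsJ a b) = true) :
    algPW N gens labs bms stabW hubs rootsW joinT mvT frT pathsJ = true := by
  simp only [algPW, Bool.and_eq_true]
  exact ⟨h1, h2, h3, h4, h5, h6, h7, h8, h9, h10, h11, h12⟩

end intro

end Vale.Agent.Lib.P183
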